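import Vale.Agent.Lib.P143.GraphDefs
import Mathlib

/-!
# P143: balls in graphs on `ℕ`
-/

namespace Vale.Agent.Lib.P143

open MeasureTheory Filter Topology Finset

open scoped Classical

noncomputable section

/-- Vertex balls. -/
def ballV (G : SimpleGraph ℕ) (u : ℕ) : ℕ → Set ℕ
  | 0 => {u}
  | m + 1 => ballV G u m ∪ {x | ∃ w ∈ ballV G u m, G.Adj w x}

lemma ballV_mono (G : SimpleGraph ℕ) (u : ℕ) : Monotone (ballV G u) :=
  monotone_nat_of_le_succ fun _ _ hx => Or.inl hx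

lemma self_mem_ballV (G : SimpleGraph ℕ) (u m : ℕ) : u ∈ ballV G u m :=
  ballV_mono G u (Nat.zero_le m) rfl

lemma ballV_finite {G : SimpleGraph ℕ} (hG : ∀ v, (G.neighborSet v).Finite) (u m : ℕ) :
    (ballV G u m).Finite := by
  induction m with
  | zero => exact Set.finite_singleton u
  | succ m ih =>
    refine ih.union ?_
    have : {x | ∃ w ∈ ballV G u m, G.Adj w x} = ⋃ w ∈ ballV G u m, G.neighborSet w := by
      ext x
      simp
    rw [this]
    exact ih.biUnion fun w _ => hG w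

lemma exists_mem_ballV {G : SimpleGraph ℕ} (hG : G.Connected) (u x : ℕ) :
    ∃ m, x ∈ ballV G u m := by
  have hr : G.Reachable u x := hG.preconnected u x
  rw [SimpleGraph.reachable_iff_reflTransGen] at hr
  induction hr with
  | refl => exact ⟨0, rfl⟩
  | tail _ hadj ih =>
    obtain ⟨m, hm⟩ := ih
    exact ⟨m + 1, Or.inr ⟨_, hm, hadj⟩⟩

/-- The vertices at distance at most `m` from the pair `e`. -/
def eBall (G : SimpleGraph ℕ) (e : Sym2 ℕ) (m : ℕ) : Set ℕ := {x | ∃ u ∈ e, x ∈ ballV G u m}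

lemma eBall_mono (G : SimpleGraph ℕ) (e : Sym2 ℕ) : Monotone (eBall G e) := by
  intro m n hmn x hx
  obtain ⟨u, hu, hx⟩ := hx
  exact ⟨u, hu, ballV_mono G u hmn hx⟩

lemma eBall_finite {G : SimpleGraph ℕ} (hG : ∀ v, (G.neighborSet v).Finite) (e : Sym2 ℕ) (m : ℕ) :
    (eBall G e m).Finite := by
  induction e using Sym2.ind with
  | _ u v =>
    have : eBall G s(u, v) m = ballV G u m ∪ ballV G v m := by
      ext x
      simp [eBall]
    rw [this]
    exact (ballV_finite hG u m).union (ballV_finite hG v m)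

/-- Balls of pairs. -/
def BG (G : SimpleGraph ℕ) (e : Sym2 ℕ) (m : ℕ) : Finset (Sym2 ℕ) :=
  if h : (eBall G e m).Finite then h.toFinset.sym2 else ∅

lemma mem_BG {G : SimpleGraph ℕ} (hG : ∀ v, (G.neighborSet v).Finite) {e f : Sym2 ℕ} {m : ℕ} :
    f ∈ BG G e m ↔ ∀ x ∈ f, x ∈ eBall G e m := by
  simp [BG, eBall_finite hG, Finset.mem_sym2_iff]

lemma BG_mono {G : SimpleGraph ℕ} (hG : ∀ v, (G.neighborSet v).Finite) (e : Sym2 ℕ) :
    Monotone (BG G e) := by
  intro m n hmn f hf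
  rw [mem_BG hG] at hf ⊢
  exact fun x hx => eBall_mono G e hmn (hf x hx)

lemma self_mem_BG {G : SimpleGraph ℕ} (hG : ∀ v, (G.neighborSet v).Finite) (e : Sym2 ℕ) (m : ℕ) :
    e ∈ BG G e m := by
  rw [mem_BG hG]
  exact fun x hx => ⟨x, hx, self_mem_ballV G x m⟩

lemma exists_mem_BG {G : SimpleGraph ℕ} (hG : IsGoodGraph G) (e f : Sym2 ℕ) :
    ∃ m, f ∈ BG G e m := by
  obtain ⟨u, hu⟩ : ∃ u, u ∈ e := by
    induction e using Sym2.ind with
    | _ u v => exact ⟨u, by simp⟩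
  induction f using Sym2.ind with
  | _ x y =>
    obtain ⟨a, ha⟩ := exists_mem_ballV hG.1 u x
    obtain ⟨b, hb⟩ := exists_mem_ballV hG.1 u y
    refine ⟨max a b, ?_⟩
    rw [mem_BG hG.2]
    intro z hz
    simp only [Sym2.mem_iff] at hz
    rcases hz with rfl | rfl
    · exact ⟨u, hu, ballV_mono G u (le_max_left a b) ha⟩
    · exact ⟨u, hu, ballV_mono G u (le_max_right a b) hb⟩

/-! ### Relabelling -/

/-- The relabelled graph, as an isomorphism. -/
def relabelIso (g : Equiv.Perm ℕ) (G : SimpleGraph ℕ) : G ≃g G.map g.toEmbedding :=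
  SimpleGraph.Iso.map g G

lemma relabel_adj (g : Equiv.Perm ℕ) (G : SimpleGraph ℕ) (u v : ℕ) :
    (G.map g.toEmbedding).Adj (g u) (g v) ↔ G.Adj u v :=
  (relabelIso g G).map_rel_iff

lemma ballV_relabel (g : Equiv.Perm ℕ) (G : SimpleGraph ℕ) (u m : ℕ) :
    ballV (G.map g.toEmbedding) (g u) m = g '' ballV G u m := by
  induction m with
  | zero => simp [ballV]
  | succ m ih =>
    ext x
    simp only [ballV, ih, Set.mem_union, Set.mem_image, Set.mem_ofPred_eq]
    constructor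
    · rintro (⟨y, hy, rfl⟩ | ⟨_, ⟨w, hw, rfl⟩, hadj⟩)
      · exact ⟨y, Or.inl hy, rfl⟩
      · have hx : x = g (g.symm x) := by simp
        rw [hx, relabel_adj] at hadj
        exact ⟨g.symm x, Or.inr ⟨w, hw, hadj⟩, by simp⟩
    · rintro ⟨y, hy | ⟨w, hw, hadj⟩, rfl⟩
      · exact Or.inl ⟨y, hy, rfl⟩
      · exact Or.inr ⟨g w, ⟨w, hw, rfl⟩, (relabel_adj g G w y).mpr hadj⟩

lemma eBall_relabel (g : Equiv.Perm ℕ) (G : SimpleGraph ℕ) (e : Sym2 ℕ) (m : ℕ) :
    eBall (G.map g.toEmbedding) (Sym2.map g e) m = g '' eBall G e m := by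
  ext x
  simp only [eBall, Set.mem_ofPred_eq, Sym2.mem_map, Set.mem_image]
  constructor
  · rintro ⟨_, ⟨u, hu, rfl⟩, hx⟩
    rw [ballV_relabel] at hx
    obtain ⟨y, hy, rfl⟩ := hx
    exact ⟨y, ⟨u, hu, hy⟩, rfl⟩
  · rintro ⟨y, ⟨u, hu, hy⟩, rfl⟩
    refine ⟨g u, ⟨u, hu, rfl⟩, ?_⟩
    rw [ballV_relabel]
    exact ⟨y, hy, rfl⟩

lemma goodGraph_relabel (g : Equiv.Perm ℕ) {G : SimpleGraph ℕ} (hG : IsGoodGraph G) :
    IsGoodGraph (G.map g.toEmbedding) := by
  refine ⟨(SimpleGraph.Iso.connected_iff (relabelIso g G)).mp hG.1, fun v => ?_⟩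
  have : (G.map g.toEmbedding).neighborSet v = g '' G.neighborSet (g.symm v) := by
    ext x
    simp only [SimpleGraph.mem_neighborSet, Set.mem_image]
    constructor
    · intro h
      refine ⟨g.symm x, ?_, by simp⟩
      rw [← relabel_adj g]
      simpa using h
    · rintro ⟨y, hy, rfl⟩
      have := (relabel_adj g G _ _).mpr hy
      simpa using this
  rw [this]
  exact (hG.2 _).image _

/-- Equivariance of the balls of pairs (under a relabelling). -/
lemma BG_relabel (g : Equiv.Perm ℕ) {G : SimpleGraph ℕ} (hG : IsGoodGraph G) (e : Sym2 ℕ) (m : ℕ) :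
    BG (G.map g.toEmbedding) (Sym2.map g e) m =
      (BG G e m).map ⟨Sym2.map g, Sym2.map.injective g.injective⟩ := by
  have hG' := goodGraph_relabel g hG
  ext f
  rw [mem_BG hG'.2, Finset.mem_map]
  constructor
  · intro h
    refine ⟨Sym2.map g.symm f, ?_, ?_⟩
    · rw [mem_BG hG.2]
      intro x hx
      rw [Sym2.mem_map] at hx
      obtain ⟨y, hy, rfl⟩ := hx
      have := h y hy
      rw [eBall_relabel] at this
      obtain ⟨z, hz, hzy⟩ := this
      have : z = g.symm y := by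
        rw [← hzy]
        simp
      rwa [← this]
    · show Sym2.map g (Sym2.map g.symm f) = f
      rw [Sym2.map_map]
      have : (g ∘ g.symm : ℕ → ℕ) = id := by
        funext v
        simp
      rw [this, Sym2.map_id]
      rfl
  · rintro ⟨f', hf', rfl⟩ x hx
    have hx' : x ∈ Sym2.map g f' := hx
    rw [Sym2.mem_map] at hx'
    obtain ⟨y, hy, rfl⟩ := hx'
    rw [eBall_relabel]
    exact ⟨y, (mem_BG hG.2).mp hf' y hy, rfl⟩

end

end Vale.Agent.Lib.P143
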