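import Vale.Agent.Lib.P143.Channel

/-!
# P143: Bayes formula for finitely many observations
-/

namespace Vale.Agent.Lib.P143

open MeasureTheory Filter Topology Finset ProbabilityTheory

open scoped Classical ENNReal

noncomputable section

variable {E J : Type*}

/-- Density with clipped argument (bounded and nonnegative everywhere). -/
def densC (c y : ℝ) : ℝ := dens c (clip y)

lemma densC_nonneg {c : ℝ} (hc : |c| ≤ 1) (y : ℝ) : 0 ≤ densC c y :=
  dens_nonneg hc (clip_mem y)

lemma densC_le {c : ℝ} (hc : |c| ≤ 1) (y : ℝ) : densC c y ≤ 2 := by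
  have := abs_dens_le hc (clip_mem y)
  exact (le_abs_self _).trans this

lemma measurable_densC_joint : Measurable fun p : ℝ × ℝ => densC p.1 p.2 := by
  unfold densC
  exact measurable_dens_joint.comp (measurable_fst.prodMk (measurable_clip.comp measurable_snd))

lemma measurable_densC (c : ℝ) : Measurable (densC c) :=
  measurable_densC_joint.comp (measurable_const.prodMk measurable_id)

lemma densC_ae (c : ℝ) : (fun y => densC c y) =ᵐ[unit] fun y => dens c y := by
  filter_upwards [ae_unit_mem] with y hy
  unfold densC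
  rw [clip_of_mem hy]

lemma nuB_apply (b : Bool) {t : Set ℝ} (ht : MeasurableSet t) :
    nuB b t = ENNReal.ofReal (∫ y in t, densC (eps * sg b) y ∂unit) := by
  unfold nuB
  rw [nu_apply _ (abs_eps_sg b) ht]
  congr 1
  refine integral_congr_ae ?_
  filter_upwards [ae_restrict_of_ae ae_unit_mem] with y hy
  unfold densC
  rw [clip_of_mem hy]

/-- Product density on a finite index type. -/
def prodD {ι : Type*} [Fintype ι] (b : ι → Bool) (z : ι → ℝ) : ℝ :=
  ∏ l, densC (eps * sg (b l)) (z l)

lemma prodD_nonneg {ι : Type*} [Fintype ι] (b : ι → Bool) (z : ι → ℝ) : 0 ≤ prodD b z :=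
  Finset.prod_nonneg fun l _ => densC_nonneg (abs_eps_sg _) _

lemma prodD_le {ι : Type*} [Fintype ι] (b : ι → Bool) (z : ι → ℝ) :
    prodD b z ≤ 2 ^ Fintype.card ι := by
  unfold prodD
  calc ∏ l, densC (eps * sg (b l)) (z l) ≤ ∏ _l : ι, (2 : ℝ) :=
        Finset.prod_le_prod (fun _ _ => densC_nonneg (abs_eps_sg _) _)
          (fun _ _ => densC_le (abs_eps_sg _) _)
    _ = 2 ^ Fintype.card ι := by simp

lemma measurable_prodD {ι : Type*} [Fintype ι] (b : ι → Bool) : Measurable (prodD b) := by
  unfold prodD
  exact Finset.measurable_prod _ fun l _ =>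
    (measurable_densC _).comp (measurable_pi_apply l)

lemma pi_nuB_eq {ι : Type*} [Fintype ι] (b : ι → Bool) :
    Measure.pi (fun l => nuB (b l)) =
      (Measure.pi fun _ : ι => unit).withDensity fun z => ENNReal.ofReal (prodD b z) := by
  refine Measure.pi_eq fun t ht => ?_
  have hbox : MeasurableSet (Set.pi Set.univ t) := MeasurableSet.univ_pi ht
  have hint : Integrable (prodD b) (Measure.pi fun _ : ι => unit) := by
    refine Integrable.of_bound (measurable_prodD b).aestronglyMeasurable (2 ^ Fintype.card ι)
      (Eventually.of_forall fun z => ?_)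
    rw [Real.norm_eq_abs, abs_of_nonneg (prodD_nonneg b z)]
    exact prodD_le b z
  rw [withDensity_apply _ hbox,
    ← ofReal_integral_eq_lintegral_ofReal hint.integrableOn
      (Eventually.of_forall fun z => prodD_nonneg b z)]
  have key : ∫ z in Set.pi Set.univ t, prodD b z ∂(Measure.pi fun _ : ι => unit) =
      ∏ l, ∫ y in t l, densC (eps * sg (b l)) y ∂unit := by
    rw [← integral_indicator hbox]
    have : (Set.pi Set.univ t).indicator (prodD b) =
        fun z => ∏ l, (t l).indicator (fun y => densC (eps * sg (b l)) y) (z l) := by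
      funext z
      by_cases hz : z ∈ Set.pi Set.univ t
      · rw [Set.indicator_of_mem hz]
        unfold prodD
        refine Finset.prod_congr rfl fun l _ => ?_
        rw [Set.indicator_of_mem (hz l (Set.mem_univ l))]
      · rw [Set.indicator_of_notMem hz]
        simp only [Set.mem_pi, Set.mem_univ, forall_true_left, not_forall] at hz
        obtain ⟨l, hl⟩ := hz
        exact (Finset.prod_eq_zero (Finset.mem_univ l) (Set.indicator_of_notMem hl _)).symm
    rw [this, integral_fintype_prod_eq_prod
      (f := fun l y => (t l).indicator (fun y => densC (eps * sg (b l)) y) y)]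
    refine Finset.prod_congr rfl fun l _ => ?_
    rw [integral_indicator (ht l)]
  rw [key, ENNReal.ofReal_prod_of_nonneg
    (fun l _ => setIntegral_nonneg (ht l) fun y _ => densC_nonneg (abs_eps_sg _) y)]
  exact Finset.prod_congr rfl fun l _ => (nuB_apply _ (ht l)).symm

/-- Density of the restriction to `L` of the observations given the spins. -/
def gd (π : J → E) (L : Finset (ℕ × J)) (s : E → Bool) (z : L → ℝ) : ℝ :=
  prodD (fun l : L => s (π l.1.2)) z

lemma gd_nonneg (π : J → E) (L : Finset (ℕ × J)) (s : E → Bool) (z : L → ℝ) : 0 ≤ gd π L s z :=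
  prodD_nonneg _ _

lemma gd_le (π : J → E) (L : Finset (ℕ × J)) (s : E → Bool) (z : L → ℝ) :
    gd π L s z ≤ 2 ^ L.card := by
  have := prodD_le (fun l : L => s (π l.1.2)) z
  simpa [gd] using this

lemma measurable_gd_joint (π : J → E) (L : Finset (ℕ × J)) :
    Measurable fun p : (E → Bool) × (L → ℝ) => gd π L p.1 p.2 := by
  unfold gd prodD
  refine Finset.measurable_prod _ fun l _ => ?_
  refine measurable_densC_joint.comp (Measurable.prodMk ?_ ?_)
  · have : Measurable fun p : (E → Bool) × (L → ℝ) => sg (p.1 (π l.1.2)) :=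
      measurable_sg.comp ((measurable_pi_apply _).comp measurable_fst)
    exact this.const_mul eps
  · exact (measurable_pi_apply l).comp measurable_snd

lemma integral_Qs_restrict (π : J → E) (s : E → Bool) (L : Finset (ℕ × J)) {G : (L → ℝ) → ℝ}
    (hG : Measurable G) :
    ∫ y, G (L.restrict y) ∂(Qs π s) =
      ∫ z, G z * gd π L s z ∂(Measure.pi fun _ : L => unit) := by
  have h1 : (Qs π s).map L.restrict = Measure.pi (fun l : L => nuB (s (π l.1.2))) :=
    Measure.infinitePi_map_restrict _
  have hmr : Measurable (L.restrict : (ℕ × J → ℝ) → (L → ℝ)) := Finset.measurable_restrict L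
  rw [← integral_map hmr.aemeasurable hG.aestronglyMeasurable, h1, pi_nuB_eq,
    integral_withDensity_eq_integral_toReal_smul
      (measurable_prodD _).ennreal_ofReal (Eventually.of_forall fun _ => ENNReal.ofReal_lt_top)]
  refine integral_congr_ae (Eventually.of_forall fun z => ?_)
  simp only [smul_eq_mul]
  rw [ENNReal.toReal_ofReal (prodD_nonneg _ _), mul_comm]
  rfl

/-- `π0`-average in `s` against a bounded function `a` of the spins. -/
def avgD (μ : Measure (E → Bool)) (π : J → E) (L : Finset (ℕ × J)) (a : (E → Bool) → ℝ)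
    (z : L → ℝ) : ℝ := ∫ s, a s * gd π L s z ∂μ

/-- Fubini: the key finite-dimensional formula. -/
lemma integral_Pj_restrict (μ : Measure (E → Bool)) [IsProbabilityMeasure μ] (π : J → E)
    (L : Finset (ℕ × J)) {a : (E → Bool) → ℝ} (ha : Measurable a) {Ca : ℝ}
    (hCa : ∀ s, |a s| ≤ Ca) {h : (L → ℝ) → ℝ} (hh : Measurable h) {Ch : ℝ} (hCh : ∀ z, |h z| ≤ Ch) :
    ∫ p, a p.1 * h (L.restrict p.2) ∂(Pj μ π) =
      ∫ z, h z * avgD μ π L a z ∂(Measure.pi fun _ : L => unit) := by
  have hmr : Measurable (L.restrict : (ℕ × J → ℝ) → (L → ℝ)) := Finset.measurable_restrict L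
  have hF : Measurable fun p : (E → Bool) × (ℕ × J → ℝ) => a p.1 * h (L.restrict p.2) :=
    (ha.comp measurable_fst).mul (hh.comp (hmr.comp measurable_snd))
  have hCa0 : 0 ≤ Ca := (abs_nonneg _).trans (hCa (fun _ => true))
  have hCh0 : 0 ≤ Ch := (abs_nonneg _).trans (hCh (fun _ => 0))
  have hI : Integrable (fun p : (E → Bool) × (ℕ × J → ℝ) => a p.1 * h (L.restrict p.2))
      (Pj μ π) := by
    refine Integrable.of_bound hF.aestronglyMeasurable (Ca * Ch)
      (Eventually.of_forall fun p => ?_)
    rw [Real.norm_eq_abs, abs_mul]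
    exact mul_le_mul (hCa _) (hCh _) (abs_nonneg _) hCa0
  rw [integral_Pj μ π hI]
  have step1 : ∀ s, ∫ y, a (s, y).1 * h (L.restrict (s, y).2) ∂(Qs π s) =
      ∫ z, a s * (h z * gd π L s z) ∂(Measure.pi fun _ : L => unit) := by
    intro s
    simp only
    rw [integral_const_mul, integral_Qs_restrict π s L hh, integral_const_mul]
  simp only [step1]
  have hjoint : Measurable fun q : (E → Bool) × (L → ℝ) => a q.1 * (h q.2 * gd π L q.1 q.2) :=
    (ha.comp measurable_fst).mul ((hh.comp measurable_snd).mul (measurable_gd_joint π L))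
  have hIj : Integrable (Function.uncurry fun (s : E → Bool) (z : L → ℝ) =>
      a s * (h z * gd π L s z)) (μ.prod (Measure.pi fun _ : L => unit)) := by
    refine Integrable.of_bound hjoint.aestronglyMeasurable (Ca * (Ch * 2 ^ L.card))
      (Eventually.of_forall fun q => ?_)
    simp only [Function.uncurry, Real.norm_eq_abs, abs_mul]
    refine mul_le_mul (hCa _) (mul_le_mul (hCh _) ?_ (abs_nonneg _) hCh0) (by positivity) hCa0
    rw [abs_of_nonneg (gd_nonneg _ _ _ _)]
    exact gd_le _ _ _ _
  rw [integral_integral_swap hIj]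
  refine integral_congr_ae (Eventually.of_forall fun z => ?_)
  simp only
  unfold avgD
  rw [← integral_const_mul]
  refine integral_congr_ae (Eventually.of_forall fun s => ?_)
  simp only
  ring

/-- The sigma-algebra of the observations in `L`, on the joint space. -/
@[instance_reducible] def sigL (L : Finset (ℕ × J)) (E' : Type*) : MeasurableSpace ((E' → Bool) × (ℕ × J → ℝ)) :=
  MeasurableSpace.comap (fun p => L.restrict p.2) inferInstance

lemma measurable_restrict_snd (L : Finset (ℕ × J)) :
    Measurable fun p : (E → Bool) × (ℕ × J → ℝ) => L.restrict p.2 :=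
  (Finset.measurable_restrict L).comp measurable_snd

lemma sigL_le (L : Finset (ℕ × J)) (E' : Type*) :
    sigL L E' ≤ (inferInstance : MeasurableSpace ((E' → Bool) × (ℕ × J → ℝ))) :=
  (measurable_restrict_snd L).comap_le

/-- Bayes: a bounded function `M` of the observations in `L` with `N = M * D` almost everywhere
is the conditional expectation of the spin given these observations. -/
lemma condExp_eq_of_ratio (μ : Measure (E → Bool)) [IsProbabilityMeasure μ] (π : J → E)
    (L : Finset (ℕ × J)) (e : E) {M : (L → ℝ) → ℝ} (hM : Measurable M) {C : ℝ}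
    (hC : ∀ z, |M z| ≤ C)
    (hid : ∀ᵐ z ∂(Measure.pi fun _ : L => unit),
      avgD μ π L (fun s => sg (s e)) z = M z * avgD μ π L (fun _ => 1) z) :
    (fun p : (E → Bool) × (ℕ × J → ℝ) => M (L.restrict p.2)) =ᵐ[Pj μ π]
      (Pj μ π)[fun p => sg (p.1 e)|sigL L E] := by
  have hsg : Measurable fun s : E → Bool => sg (s e) :=
    measurable_sg.comp (measurable_pi_apply e)
  have hf : Integrable (fun p : (E → Bool) × (ℕ × J → ℝ) => sg (p.1 e)) (Pj μ π) := by
    refine Integrable.of_bound (hsg.comp measurable_fst).aestronglyMeasurable 1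
      (Eventually.of_forall fun p => ?_)
    rw [Real.norm_eq_abs, abs_sg]
  have hmr := measurable_restrict_snd (E := E) (J := J) L
  have hg : Measurable fun p : (E → Bool) × (ℕ × J → ℝ) => M (L.restrict p.2) := hM.comp hmr
  have hgI : Integrable (fun p : (E → Bool) × (ℕ × J → ℝ) => M (L.restrict p.2)) (Pj μ π) := by
    refine Integrable.of_bound hg.aestronglyMeasurable C (Eventually.of_forall fun p => ?_)
    rw [Real.norm_eq_abs]
    exact hC _
  refine ae_eq_condExp_of_forall_setIntegral_eq (sigL_le L E) hf
    (fun s _ _ => hgI.integrableOn) ?_ ?_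
  · rintro S ⟨A, hA, rfl⟩ _
    have hS : MeasurableSet ((fun p : (E → Bool) × (ℕ × J → ℝ) => L.restrict p.2) ⁻¹' A) :=
      hmr hA
    rw [← integral_indicator hS, ← integral_indicator hS]
    have e1 : ((fun p : (E → Bool) × (ℕ × J → ℝ) => L.restrict p.2) ⁻¹' A).indicator
        (fun p => M (L.restrict p.2)) =
        fun p => (fun _ : E → Bool => (1 : ℝ)) p.1 *
          (A.indicator M) (L.restrict p.2) := by
      funext p
      by_cases hp : L.restrict p.2 ∈ A
      · simp [Set.indicator, hp]
      · simp [Set.indicator, hp]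
    have e2 : ((fun p : (E → Bool) × (ℕ × J → ℝ) => L.restrict p.2) ⁻¹' A).indicator
        (fun p => sg (p.1 e)) =
        fun p => (fun s : E → Bool => sg (s e)) p.1 *
          (A.indicator (fun _ => (1 : ℝ))) (L.restrict p.2) := by
      funext p
      by_cases hp : L.restrict p.2 ∈ A
      · simp [Set.indicator, hp]
      · simp [Set.indicator, hp]
    rw [e1, e2,
      integral_Pj_restrict μ π L (a := fun _ => 1) measurable_const (Ca := 1) (by simp)
        (hM.indicator hA) (Ch := |C|) (fun z => by
          by_cases hz : z ∈ A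
          · simpa [Set.indicator, hz] using (hC z).trans (le_abs_self C)
          · simp [Set.indicator, hz]),
      integral_Pj_restrict μ π L (a := fun s => sg (s e)) hsg (Ca := 1)
        (fun s => (abs_sg _).le) (measurable_const.indicator hA) (Ch := 1) (fun z => by
          by_cases hz : z ∈ A
          · simp [Set.indicator, hz]
          · simp [Set.indicator, hz])]
    refine integral_congr_ae ?_
    filter_upwards [hid] with z hz
    by_cases hzA : z ∈ A
    · simp only [Set.indicator, hzA, if_true, one_mul]
      rw [hz]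
    · simp [Set.indicator, hzA]
  · have : Measurable[sigL L E] fun p : (E → Bool) × (ℕ × J → ℝ) => M (L.restrict p.2) :=
      hM.comp (comap_measurable _)
    exact this.stronglyMeasurable.aestronglyMeasurable

end

end Vale.Agent.Lib.P143
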