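import Vale.Agent.Lib.P143.TiltLip

/-!
# From edge-indexed graphs to `SimpleGraph`

For a finite simple graph `G` the edge type is `G.edgeSet`.  The endpoints are chosen by
`Sym2` representatives.  An edge subset is a spanning tree in the sense of `IsST` iff the
simple graph it generates is a tree.
-/

namespace P143

open Finset

set_option linter.unusedSectionVars false
set_option linter.style.haveILetI false

variable {V : Type*} [Fintype V] [DecidableEq V] (G : SimpleGraph V) [Fintype G.edgeSet]

/-- One endpoint of an edge. -/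
noncomputable def eSrc (e : G.edgeSet) : V := (Quot.out e.1 : V × V).1

/-- The other endpoint of an edge. -/
noncomputable def eTgt (e : G.edgeSet) : V := (Quot.out e.1 : V × V).2

theorem eSrc_eTgt (e : G.edgeSet) : s(eSrc G e, eTgt G e) = e.1 := by
  unfold eSrc eTgt
  exact Quot.out_eq e.1

/-- The simple graph generated by a set of edges of `G`. -/
noncomputable def subG (S : Finset G.edgeSet) : SimpleGraph V :=
  SimpleGraph.fromEdgeSet (((↑) : G.edgeSet → Sym2 V) '' (S : Set G.edgeSet))

theorem subG_adj (S : Finset G.edgeSet) (x y : V) :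
    (subG G S).Adj x y ↔ adjS (eSrc G) (eTgt G) S x y := by
  unfold subG adjS
  rw [SimpleGraph.fromEdgeSet_adj]
  constructor
  · rintro ⟨⟨e, he, hxy⟩, _⟩
    refine ⟨e, he, ?_⟩
    have h := eSrc_eTgt G e
    rw [hxy] at h
    rcases Sym2.eq_iff.mp h with h1 | h1
    · exact Or.inl h1
    · exact Or.inr ⟨h1.1, h1.2⟩
  · rintro ⟨e, he, h⟩
    have hne : s(eSrc G e, eTgt G e) ∈ G.edgeSet := by
      rw [eSrc_eTgt]; exact e.2
    have hadj : G.Adj (eSrc G e) (eTgt G e) := hne
    rcases h with ⟨rfl, rfl⟩ | ⟨rfl, rfl⟩
    · exact ⟨⟨e, he, (eSrc_eTgt G e).symm⟩, hadj.ne⟩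
    · refine ⟨⟨e, he, ?_⟩, hadj.ne'⟩
      rw [← eSrc_eTgt G e, Sym2.eq_swap]

theorem subG_conn_iff (r : V) (S : Finset G.edgeSet) :
    (subG G S).Connected ↔ Conn (eSrc G) (eTgt G) r S := by
  have hadj : (subG G S).Adj = adjS (eSrc G) (eTgt G) S := by
    funext x y
    exact propext (subG_adj G S x y)
  constructor
  · intro h v
    have := h.preconnected r v
    rw [SimpleGraph.reachable_iff_reflTransGen, hadj] at this
    exact this
  · intro h
    haveI : Nonempty V := ⟨r⟩
    refine SimpleGraph.Connected.mk ?_
    intro u v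
    have hu : (subG G S).Reachable r u := by
      rw [SimpleGraph.reachable_iff_reflTransGen, hadj]; exact h u
    have hv : (subG G S).Reachable r v := by
      rw [SimpleGraph.reachable_iff_reflTransGen, hadj]; exact h v
    exact hu.symm.trans hv

theorem subG_edge_card (S : Finset G.edgeSet) :
    Nat.card (subG G S).edgeSet = S.card := by
  have h1 : (subG G S).edgeSet = ((↑) : G.edgeSet → Sym2 V) '' (S : Set G.edgeSet) := by
    unfold subG
    rw [SimpleGraph.edgeSet_fromEdgeSet]
    ext z
    simp only [Set.mem_sdiff, Set.mem_image, Finset.mem_coe]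
    constructor
    · rintro ⟨h, _⟩; exact h
    · rintro ⟨e, he, rfl⟩
      refine ⟨⟨e, he, rfl⟩, ?_⟩
      exact G.not_isDiag_of_mem_edgeSet e.2
  rw [h1, Nat.card_image_of_injective Subtype.val_injective, Nat.card_eq_card_toFinset]
  simp

/-- An edge subset of `G` is a spanning tree in the sense of `IsST` iff it generates a tree. -/
theorem isST_iff_isTree (r : V) (S : Finset G.edgeSet) :
    IsST (eSrc G) (eTgt G) r S ↔ (subG G S).IsTree := by
  rw [SimpleGraph.isTree_iff_connected_and_card, subG_edge_card, subG_conn_iff G r,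
    Nat.card_eq_fintype_card]
  unfold IsST
  tauto

end P143
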