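import Vale.Agent.Lib.P143.Rayleigh

/-!
# Negative correlation of `{B ⊆ T}` and `{f ∈ T}` for weighted spanning trees
-/

namespace P143

open Finset Filter Topology

set_option linter.unusedSectionVars false

variable {V E : Type*} [Fintype V] [DecidableEq V] [Fintype E] [DecidableEq E]
variable (src tgt : E → V) (r : V)

open Classical in
/-- Total weight of the spanning trees containing `X`. -/
noncomputable def muSet (w : E → ℝ) (X : Finset E) : ℝ :=
  ∑ S ∈ (stSet src tgt r).filter (fun S => X ⊆ S), ∏ x ∈ S, w x

theorem muSet_nonneg (w : E → ℝ) (hw : ∀ x, 0 < w x) (X : Finset E) :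
    0 ≤ muSet src tgt r w X := by
  classical
  unfold muSet
  exact Finset.sum_nonneg fun S _ => Finset.prod_nonneg fun x _ => (hw x).le

/-- Weights boosted by `1 / s` on `B`. -/
noncomputable def wBoost (w : E → ℝ) (B : Finset E) (s : ℝ) : E → ℝ :=
  fun x => if x ∈ B then w x / s else w x

theorem wBoost_pos (w : E → ℝ) (hw : ∀ x, 0 < w x) (B : Finset E) (s : ℝ) (hs : 0 < s) (x : E) :
    0 < wBoost w B s x := by
  unfold wBoost
  split_ifs
  · exact div_pos (hw x) hs
  · exact hw x

theorem prod_wBoost (w : E → ℝ) (B S : Finset E) (s : ℝ) (hs : 0 < s) :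
    s ^ B.card * ∏ x ∈ S, wBoost w B s x = (∏ x ∈ S, w x) * s ^ (B \ S).card := by
  classical
  have h1 : ∏ x ∈ S, wBoost w B s x = (∏ x ∈ S, w x) * (1 / s) ^ (S ∩ B).card := by
    unfold wBoost
    have : ∀ x ∈ S, (if x ∈ B then w x / s else w x) = w x * (if x ∈ B then 1 / s else 1) := by
      intro x _
      split_ifs <;> ring
    rw [Finset.prod_congr rfl this, Finset.prod_mul_distrib, Finset.prod_ite_mem,
      Finset.prod_const]
  rw [h1]
  have h2 : B.card = (B \ S).card + (S ∩ B).card := by
    rw [Finset.inter_comm, Finset.card_sdiff_add_card_inter]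
  rw [h2, pow_add]
  have hs' : s ≠ 0 := hs.ne'
  have h3 : s ^ (S ∩ B).card * (1 / s) ^ (S ∩ B).card = 1 := by
    rw [← mul_pow, mul_one_div_cancel hs', one_pow]
  calc s ^ (B \ S).card * s ^ (S ∩ B).card * ((∏ x ∈ S, w x) * (1 / s) ^ (S ∩ B).card)
      = (∏ x ∈ S, w x) * s ^ (B \ S).card * (s ^ (S ∩ B).card * (1 / s) ^ (S ∩ B).card) := by ring
    _ = _ := by rw [h3, mul_one]

open Classical in
/-- The polynomial in `s` interpolating between all trees and trees containing `B`. -/
noncomputable def phiPart (w : E → ℝ) (B : Finset E) (e f : E) (pe pf : Prop) (s : ℝ) : ℝ :=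
  ∑ S ∈ (stSet src tgt r).filter (fun S => (e ∈ S ↔ pe) ∧ (f ∈ S ↔ pf)),
    (∏ x ∈ S, w x) * s ^ (B \ S).card

theorem phiPart_continuous (w : E → ℝ) (B : Finset E) (e f : E) (pe pf : Prop) :
    Continuous (phiPart src tgt r w B e f pe pf) := by
  classical
  unfold phiPart
  exact continuous_finsetSum _ fun S _ => continuous_const.mul (continuous_pow _)

theorem phiPart_eq (w : E → ℝ) (B : Finset E) (e f : E) (pe pf : Prop) (s : ℝ) (hs : 0 < s) :
    phiPart src tgt r w B e f pe pf s
      = s ^ B.card * zPart src tgt r (wBoost w B s) e f pe pf := by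
  classical
  unfold phiPart zPart
  rw [Finset.mul_sum]
  refine Finset.sum_congr rfl fun S _ => ?_
  rw [prod_wBoost w B S s hs]

open Classical in
/-- Trees with prescribed membership of `e,f` that contain `B`. -/
noncomputable def zB (w : E → ℝ) (B : Finset E) (e f : E) (pe pf : Prop) : ℝ :=
  ∑ S ∈ (stSet src tgt r).filter (fun S => ((e ∈ S ↔ pe) ∧ (f ∈ S ↔ pf)) ∧ B ⊆ S), ∏ x ∈ S, w x

theorem phiPart_zero (w : E → ℝ) (B : Finset E) (e f : E) (pe pf : Prop) :
    phiPart src tgt r w B e f pe pf 0 = zB src tgt r w B e f pe pf := by
  classical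
  unfold phiPart zB
  have hfilt : (stSet src tgt r).filter (fun S => ((e ∈ S ↔ pe) ∧ (f ∈ S ↔ pf)) ∧ B ⊆ S)
      = ((stSet src tgt r).filter (fun S => (e ∈ S ↔ pe) ∧ (f ∈ S ↔ pf))).filter
          (fun S => B ⊆ S) := by
    rw [Finset.filter_filter]
  rw [hfilt, Finset.sum_filter (p := fun S => B ⊆ S)]
  refine Finset.sum_congr rfl fun S _ => ?_
  by_cases h : B ⊆ S
  · rw [if_pos h, Finset.sdiff_eq_empty_iff_subset.mpr h]
    simp
  · rw [if_neg h]
    have : (B \ S).card ≠ 0 := by
      rw [Finset.card_ne_zero]
      by_contra hne
      rw [Finset.not_nonempty_iff_eq_empty, Finset.sdiff_eq_empty_iff_subset] at hne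
      exact h hne
    rw [zero_pow this, mul_zero]

/-- Rayleigh inequality among the trees containing a fixed set `B`. -/
theorem rayleigh_B (w : E → ℝ) (hw : ∀ x, 0 < w x) (B : Finset E) (e f : E) (hef : e ≠ f) :
    zB src tgt r w B e f True True * zB src tgt r w B e f False False
      ≤ zB src tgt r w B e f True False * zB src tgt r w B e f False True := by
  have hle : ∀ s : ℝ, 0 < s → phiPart src tgt r w B e f True True s
        * phiPart src tgt r w B e f False False s
      ≤ phiPart src tgt r w B e f True False s * phiPart src tgt r w B e f False True s := by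
    intro s hs
    rw [phiPart_eq src tgt r w B e f _ _ s hs, phiPart_eq src tgt r w B e f _ _ s hs,
      phiPart_eq src tgt r w B e f _ _ s hs, phiPart_eq src tgt r w B e f _ _ s hs]
    have h := rayleigh src tgt r (wBoost w B s) (wBoost_pos w hw B s hs) e f hef
    have hp : 0 ≤ s ^ B.card * s ^ B.card := by positivity
    calc _ = s ^ B.card * s ^ B.card * (zPart src tgt r (wBoost w B s) e f True True
            * zPart src tgt r (wBoost w B s) e f False False) := by ring
      _ ≤ s ^ B.card * s ^ B.card * (zPart src tgt r (wBoost w B s) e f True False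
            * zPart src tgt r (wBoost w B s) e f False True) := mul_le_mul_of_nonneg_left h hp
      _ = _ := by ring
  have hL := ((phiPart_continuous src tgt r w B e f True True).mul
    (phiPart_continuous src tgt r w B e f False False)).tendsto 0
  have hR := ((phiPart_continuous src tgt r w B e f True False).mul
    (phiPart_continuous src tgt r w B e f False True)).tendsto 0
  have h0 := le_of_tendsto_of_tendsto (hL.mono_left nhdsWithin_le_nhds)
    (hR.mono_left (nhdsWithin_le_nhds (s := Set.Ioi (0 : ℝ))))
    (eventually_mem_nhdsWithin.mono fun s hs => hle s hs)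
  simpa [phiPart_zero] using h0

/-- Splitting the total weight of trees containing `B` according to `e` and `f`. -/
theorem muSet_split (w : E → ℝ) (B : Finset E) (e f : E) :
    muSet src tgt r w B = zB src tgt r w B e f True True + zB src tgt r w B e f True False
      + zB src tgt r w B e f False True + zB src tgt r w B e f False False := by
  classical
  unfold muSet zB
  simp only [Finset.sum_filter]
  rw [← Finset.sum_add_distrib, ← Finset.sum_add_distrib, ← Finset.sum_add_distrib]
  refine Finset.sum_congr rfl fun S _ => ?_
  by_cases h : B ⊆ S <;> by_cases h1 : e ∈ S <;> by_cases h2 : f ∈ S <;> simp [h, h1, h2]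

theorem muSet_insert_one (w : E → ℝ) (B : Finset E) (e f : E) :
    muSet src tgt r w (insert e B) = zB src tgt r w B e f True True
      + zB src tgt r w B e f True False := by
  classical
  unfold muSet zB
  simp only [Finset.sum_filter]
  rw [← Finset.sum_add_distrib]
  refine Finset.sum_congr rfl fun S _ => ?_
  by_cases h : B ⊆ S <;> by_cases h1 : e ∈ S <;> by_cases h2 : f ∈ S <;>
    simp [h, h1, h2, Finset.insert_subset_iff]

theorem muSet_insert_two (w : E → ℝ) (B : Finset E) (e f : E) :
    muSet src tgt r w (insert f B) = zB src tgt r w B e f True True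
      + zB src tgt r w B e f False True := by
  classical
  unfold muSet zB
  simp only [Finset.sum_filter]
  rw [← Finset.sum_add_distrib]
  refine Finset.sum_congr rfl fun S _ => ?_
  by_cases h : B ⊆ S <;> by_cases h1 : e ∈ S <;> by_cases h2 : f ∈ S <;>
    simp [h, h1, h2, Finset.insert_subset_iff]

theorem muSet_insert_both (w : E → ℝ) (B : Finset E) (e f : E) :
    muSet src tgt r w (insert e (insert f B)) = zB src tgt r w B e f True True := by
  classical
  unfold muSet zB
  simp only [Finset.sum_filter]
  refine Finset.sum_congr rfl fun S _ => ?_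
  by_cases h : B ⊆ S <;> by_cases h1 : e ∈ S <;> by_cases h2 : f ∈ S <;>
    simp [h, h1, h2, Finset.insert_subset_iff]

theorem zB_nonneg (w : E → ℝ) (hw : ∀ x, 0 < w x) (B : Finset E) (e f : E) (pe pf : Prop) :
    0 ≤ zB src tgt r w B e f pe pf := by
  classical
  unfold zB
  exact Finset.sum_nonneg fun S _ => Finset.prod_nonneg fun x _ => (hw x).le

/-- Conditional negative correlation. -/
theorem cond_neg (w : E → ℝ) (hw : ∀ x, 0 < w x) (B : Finset E) (e f : E) (hef : e ≠ f) :
    muSet src tgt r w (insert e (insert f B)) * muSet src tgt r w B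
      ≤ muSet src tgt r w (insert e B) * muSet src tgt r w (insert f B) := by
  rw [muSet_split src tgt r w B e f, muSet_insert_one src tgt r w B e f,
    muSet_insert_two src tgt r w B e f, muSet_insert_both]
  have h := rayleigh_B src tgt r w hw B e f hef
  nlinarith [h]

/-- **Negative correlation of `{B ⊆ T}` and `{f ∈ T}`.** -/
theorem neg_corr_set (w : E → ℝ) (hw : ∀ x, 0 < w x) (f : E) (B : Finset E) (hf : f ∉ B) :
    muSet src tgt r w (insert f B) * muSet src tgt r w ∅
      ≤ muSet src tgt r w B * muSet src tgt r w {f} := by
  classical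
  induction B using Finset.induction_on with
  | empty =>
    have : (insert f (∅ : Finset E)) = {f} := by simp
    rw [this]
    exact le_of_eq (mul_comm _ _)
  | @insert e B' he ih =>
    have hfe : e ≠ f := by
      rintro rfl
      exact hf (Finset.mem_insert_self _ _)
    have hfB : f ∉ B' := fun h => hf (Finset.mem_insert_of_mem h)
    have ih' := ih hfB
    have hc := cond_neg src tgt r w hw B' e f hfe
    have h0 := muSet_nonneg src tgt r w hw
    have hcomm : insert f (insert e B') = insert e (insert f B') := Finset.insert_comm _ _ _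
    rw [hcomm]
    by_cases hB : muSet src tgt r w B' = 0
    · -- the smaller event has weight zero
      have hz : muSet src tgt r w (insert e (insert f B')) = 0 := by
        apply le_antisymm _ (h0 _)
        have hsub : insert e (insert f B') ⊇ B' := by
          intro x hx
          exact Finset.mem_insert_of_mem (Finset.mem_insert_of_mem hx)
        rw [← hB]
        classical
        unfold muSet
        apply Finset.sum_le_sum_of_subset_of_nonneg
        · intro S hS
          simp only [Finset.mem_filter] at hS ⊢
          exact ⟨hS.1, hsub.trans hS.2⟩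
        · intro S _ _
          exact Finset.prod_nonneg fun x _ => (hw x).le
      rw [hz, zero_mul]
      exact mul_nonneg (h0 _) (h0 _)
    · have hpos : 0 < muSet src tgt r w B' := lt_of_le_of_ne (h0 _) (Ne.symm hB)
      have h1 : muSet src tgt r w (insert e (insert f B')) * muSet src tgt r w ∅
            * muSet src tgt r w B'
          ≤ muSet src tgt r w (insert e B') * muSet src tgt r w {f} * muSet src tgt r w B' := by
        calc _ = (muSet src tgt r w (insert e (insert f B')) * muSet src tgt r w B')
                * muSet src tgt r w ∅ := by ring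
          _ ≤ (muSet src tgt r w (insert e B') * muSet src tgt r w (insert f B'))
                * muSet src tgt r w ∅ := mul_le_mul_of_nonneg_right hc (h0 _)
          _ = muSet src tgt r w (insert e B')
                * (muSet src tgt r w (insert f B') * muSet src tgt r w ∅) := by ring
          _ ≤ muSet src tgt r w (insert e B')
                * (muSet src tgt r w B' * muSet src tgt r w {f}) :=
              mul_le_mul_of_nonneg_left ih' (h0 _)
          _ = _ := by ring
      exact le_of_mul_le_mul_right h1 hpos

end P143
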