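import Vale.Agent.Lib.P143.USTLip
import Vale.Agent.Lib.P143.Mono

/-!
# P143: monotonicity of inclusion probabilities of the uniform spanning tree

If `H ≤ H'` are finite connected subgraphs and `B` is a set of edges of `H`, then
`P_{H'}(B ⊆ T) ≤ P_H(B ⊆ T)`.
-/

namespace Vale.Agent.Lib.P143

open scoped Classical

noncomputable section

set_option linter.style.haveILetI false

variable {V : Type*} {G : SimpleGraph V}

/-- A description of spanning trees in the ambient vertex type: `T` consists of edges from `E₀`,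
connects all of `U`, and has `|U| - 1` elements. -/
def SpT (U : Set V) (E₀ T : Set (Sym2 V)) : Prop :=
  T ⊆ E₀ ∧ (∀ a ∈ U, ∀ b ∈ U, (SimpleGraph.fromEdgeSet T).Reachable a b) ∧ T.ncard + 1 = U.ncard

section bridge

variable (H : G.Subgraph) {T : Set (Sym2 V)}

/-- The graph on `H.verts` generated by `T`. -/
def subK (H : G.Subgraph) (T : Set (Sym2 V)) : SimpleGraph H.verts :=
  SimpleGraph.fromEdgeSet (Sym2.map (Subtype.val : H.verts → V) ⁻¹' T)

lemma subK_adj {x y : H.verts} : (subK H T).Adj x y ↔ s(x.1, y.1) ∈ T ∧ x ≠ y := by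
  unfold subK
  rw [SimpleGraph.fromEdgeSet_adj]
  rfl

/-- The inclusion of the graph on `H.verts` into the ambient graph. -/
def subKHom : subK H T →g SimpleGraph.fromEdgeSet T where
  toFun := Subtype.val
  map_rel' := by
    intro x y h
    obtain ⟨h1, h2⟩ := (subK_adj H).mp h
    rw [SimpleGraph.fromEdgeSet_adj]
    exact ⟨h1, fun h3 => h2 (Subtype.ext h3)⟩

lemma reach_sub (hT : T ⊆ H.edgeSet) {a b : V} (h : (SimpleGraph.fromEdgeSet T).Reachable a b)
    (ha : a ∈ H.verts) : ∃ hb : b ∈ H.verts, (subK H T).Reachable ⟨a, ha⟩ ⟨b, hb⟩ := by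
  obtain ⟨w⟩ := h
  induction w with
  | nil => exact ⟨ha, SimpleGraph.Reachable.refl _⟩
  | @cons u c v hadj p ih =>
    obtain ⟨h1, h2⟩ := SimpleGraph.fromEdgeSet_adj _ |>.mp hadj
    have huc : H.Adj u c := hT h1
    have hc : c ∈ H.verts := H.edge_vert huc.symm
    obtain ⟨hb, hr⟩ := ih hc
    refine ⟨hb, SimpleGraph.Reachable.trans (SimpleGraph.Adj.reachable ?_) hr⟩
    exact (subK_adj H).mpr ⟨h1, fun h3 => h2 (congrArg Subtype.val h3)⟩

lemma subK_card (hT : T ⊆ H.edgeSet) : Nat.card (subK H T).edgeSet = T.ncard := by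
  have himg : Sym2.map (Subtype.val : H.verts → V) '' (subK H T).edgeSet = T := by
    ext z
    constructor
    · rintro ⟨x, hx, rfl⟩
      unfold subK at hx
      rw [SimpleGraph.edgeSet_fromEdgeSet] at hx
      exact hx.1
    · intro hz
      induction z using Sym2.ind with
      | _ a b =>
        have hab : H.Adj a b := hT hz
        refine ⟨s(⟨a, H.edge_vert hab⟩, ⟨b, H.edge_vert hab.symm⟩), ?_, by simp⟩
        show (subK H T).Adj _ _
        refine (subK_adj H).mpr ⟨hz, ?_⟩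
        intro h
        exact hab.ne (congrArg Subtype.val h)
  conv_rhs => rw [← himg]
  rw [Set.ncard_image_of_injective _ (Sym2.map.injective Subtype.val_injective),
    Nat.card_coe_set_eq]

lemma isSpanningTreeOf_iff (hfin : H.verts.Finite) (T : Set (Sym2 V)) :
    IsSpanningTreeOf H T ↔ SpT H.verts H.edgeSet T := by
  haveI : Finite H.verts := hfin
  unfold IsSpanningTreeOf SpT
  change (T ⊆ H.edgeSet ∧ (subK H T).IsTree) ↔ _
  constructor
  · rintro ⟨hT, hK⟩
    rw [SimpleGraph.isTree_iff_connected_and_card, subK_card H hT, Nat.card_coe_set_eq] at hK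
    refine ⟨hT, ?_, hK.2⟩
    intro a ha b hb
    exact (hK.1.preconnected ⟨a, ha⟩ ⟨b, hb⟩).map (subKHom H)
  · rintro ⟨hT, hr, hc⟩
    refine ⟨hT, ?_⟩
    rw [SimpleGraph.isTree_iff_connected_and_card, subK_card H hT, Nat.card_coe_set_eq]
    refine ⟨?_, hc⟩
    have hne : H.verts.Nonempty := by
      apply Set.nonempty_of_ncard_ne_zero
      omega
    obtain ⟨r, hr0⟩ := hne
    haveI : Nonempty H.verts := ⟨⟨r, hr0⟩⟩
    refine SimpleGraph.Connected.mk ?_
    rintro ⟨a, ha⟩ ⟨b, hb⟩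
    obtain ⟨_, h⟩ := reach_sub H hT (hr a ha b hb) ha
    exact h

end bridge

section moves

variable {U : Set V} {E₀ T S : Set (Sym2 V)} {u v : V}

lemma reach_stay (hE : ∀ x y, s(x, y) ∈ S → y ∈ U) {a b : V}
    (h : (SimpleGraph.fromEdgeSet S).Reachable a b) (ha : a ∈ U) : b ∈ U := by
  obtain ⟨w⟩ := h
  induction w with
  | nil => exact ha
  | @cons x c y hadj p ih =>
    have h1 := (SimpleGraph.fromEdgeSet_adj _ |>.mp hadj).1
    exact ih (hE _ _ h1)

lemma spT_pendant_intro (hU : U.Finite) (hE₀ : E₀.Finite) (hE : ∀ x y, s(x, y) ∈ E₀ → y ∈ U)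
    (huU : u ∈ U) (hvU : v ∉ U) (hT : SpT U E₀ T) :
    SpT (insert v U) (insert s(u, v) E₀) (insert s(u, v) T) := by
  obtain ⟨h1, h2, h3⟩ := hT
  have hfT : s(u, v) ∉ T := by
    intro hf
    exact hvU (hE _ _ (h1 hf))
  have huv : u ≠ v := fun h => hvU (h ▸ huU)
  have hmono : SimpleGraph.fromEdgeSet T ≤ SimpleGraph.fromEdgeSet (insert s(u, v) T) :=
    SimpleGraph.fromEdgeSet_mono (Set.subset_insert _ _)
  have hvu : (SimpleGraph.fromEdgeSet (insert s(u, v) T)).Reachable v u := by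
    refine SimpleGraph.Adj.reachable ?_
    rw [SimpleGraph.fromEdgeSet_adj]
    exact ⟨Or.inl Sym2.eq_swap, huv.symm⟩
  have hxu : ∀ x ∈ insert v U, (SimpleGraph.fromEdgeSet (insert s(u, v) T)).Reachable x u := by
    intro x hx
    rcases hx with rfl | hx
    · exact hvu
    · exact (h2 x hx u huU).mono hmono
  refine ⟨Set.insert_subset_insert h1, ?_, ?_⟩
  · intro a ha b hb
    exact (hxu a ha).trans (hxu b hb).symm
  · rw [Set.ncard_insert_of_notMem hfT (hE₀.subset h1), Set.ncard_insert_of_notMem hvU hU, h3]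

/-- Contraction of the pendant vertex. -/
def retr (u v : V) (x : V) : V := if x = v then u else x

lemma reach_retr (hvE : ∀ x y, s(x, y) ∈ S \ {s(u, v)} → y ≠ v) {a b : V}
    (h : (SimpleGraph.fromEdgeSet S).Reachable a b) :
    (SimpleGraph.fromEdgeSet (S \ {s(u, v)})).Reachable (retr u v a) (retr u v b) := by
  obtain ⟨w⟩ := h
  induction w with
  | nil => exact SimpleGraph.Reachable.refl _
  | @cons x c y hadj p ih =>
    refine SimpleGraph.Reachable.trans ?_ ih
    obtain ⟨h1, h2⟩ := SimpleGraph.fromEdgeSet_adj _ |>.mp hadj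
    by_cases hf : s(x, c) = s(u, v)
    · have : retr u v x = retr u v c := by
        rcases Sym2.eq_iff.mp hf with ⟨rfl, rfl⟩ | ⟨rfl, rfl⟩
        · simp [retr, h2]
        · simp [retr, h2.symm]
      rw [this]
    · have hm : s(x, c) ∈ S \ {s(u, v)} := ⟨h1, hf⟩
      have hc : c ≠ v := hvE _ _ hm
      have hm' : s(c, x) ∈ S \ {s(u, v)} := by
        rw [show s(c, x) = s(x, c) from Sym2.eq_swap]
        exact hm
      have hx : x ≠ v := hvE _ _ hm'
      simp only [retr, hc, hx, if_false]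
      refine SimpleGraph.Adj.reachable ?_
      rw [SimpleGraph.fromEdgeSet_adj]
      exact ⟨hm, h2⟩

lemma spT_pendant_elim (hU : U.Finite) (hE₀ : E₀.Finite) (hE : ∀ x y, s(x, y) ∈ E₀ → y ∈ U)
    (huU : u ∈ U) (hvU : v ∉ U) (hS : SpT (insert v U) (insert s(u, v) E₀) S) :
    s(u, v) ∈ S ∧ SpT U E₀ (S \ {s(u, v)}) := by
  obtain ⟨h1, h2, h3⟩ := hS
  have hf : s(u, v) ∈ S := by
    by_contra hf
    have hsub : ∀ x y, s(x, y) ∈ S → y ∈ U := by
      intro x y hxy
      rcases h1 hxy with h | h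
      · exact absurd (h ▸ hxy) hf
      · exact hE _ _ h
    exact hvU (reach_stay hsub (h2 u (Set.mem_insert_of_mem _ huU) v (Set.mem_insert _ _)) huU)
  have hsub : S \ {s(u, v)} ⊆ E₀ := by
    rintro z ⟨hz, hz'⟩
    rcases h1 hz with h | h
    · exact absurd h hz'
    · exact h
  have hSfin : S.Finite := (hE₀.insert _).subset h1
  refine ⟨hf, hsub, ?_, ?_⟩
  · intro a ha b hb
    have hav : a ≠ v := fun h => hvU (h ▸ ha)
    have hbv : b ≠ v := fun h => hvU (h ▸ hb)
    have := reach_retr (u := u) (v := v) (S := S) (fun x y hxy hyv => hvU (hyv ▸ hE _ _ (hsub hxy)))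
      (h2 a (Set.mem_insert_of_mem _ ha) b (Set.mem_insert_of_mem _ hb))
    simpa [retr, hav, hbv] using this
  · have h4 := Set.ncard_sdiff_singleton_add_one hf hSfin
    rw [Set.ncard_insert_of_notMem hvU hU] at h3
    omega

/-- Number of spanning trees containing `B`. -/
def nB (U : Set V) (E₀ B : Set (Sym2 V)) : ℕ := Set.ncard {T | SpT U E₀ T ∧ B ⊆ T}

lemma spT_finite (hE₀ : E₀.Finite) (B : Set (Sym2 V)) : {T | SpT U E₀ T ∧ B ⊆ T}.Finite :=
  hE₀.finite_subsets.subset fun _ hT => hT.1.1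

lemma nB_pendant (hU : U.Finite) (hE₀ : E₀.Finite) (hE : ∀ x y, s(x, y) ∈ E₀ → y ∈ U)
    (huU : u ∈ U) (hvU : v ∉ U) {B : Set (Sym2 V)} (hB : B ⊆ E₀) :
    nB (insert v U) (insert s(u, v) E₀) B = nB U E₀ B := by
  have hfE : s(u, v) ∉ E₀ := fun h => hvU (hE _ _ h)
  have himg : {T | SpT (insert v U) (insert s(u, v) E₀) T ∧ B ⊆ T}
      = insert s(u, v) '' {T | SpT U E₀ T ∧ B ⊆ T} := by
    ext S
    constructor
    · rintro ⟨hS, hBS⟩
      obtain ⟨hf, hS'⟩ := spT_pendant_elim hU hE₀ hE huU hvU hS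
      refine ⟨S \ {s(u, v)}, ⟨hS', ?_⟩, ?_⟩
      · intro z hz
        refine ⟨hBS hz, ?_⟩
        rintro rfl
        exact hfE (hB hz)
      · simp [hf]
    · rintro ⟨T, ⟨hT, hBT⟩, rfl⟩
      exact ⟨spT_pendant_intro hU hE₀ hE huU hvU hT, hBT.trans (Set.subset_insert _ _)⟩
  unfold nB
  rw [himg]
  refine Set.InjOn.ncard_image ?_
  intro T1 h1 T2 h2 h
  have hf1 : s(u, v) ∉ T1 := fun hh => hfE (h1.1.1 hh)
  have hf2 : s(u, v) ∉ T2 := fun hh => hfE (h2.1.1 hh)
  rw [← Set.insert_sdiff_self_of_notMem hf1, ← Set.insert_sdiff_self_of_notMem hf2]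
  rw [h]

lemma nB_edge (hE₀ : E₀.Finite) {f : Sym2 V} (hf : f ∉ E₀) {B : Set (Sym2 V)} :
    nB U E₀ B + nB U (insert f E₀) (insert f B) = nB U (insert f E₀) B := by
  have hsub : {T | SpT U (insert f E₀) T ∧ insert f B ⊆ T} ⊆ {T | SpT U (insert f E₀) T ∧ B ⊆ T} :=
    fun T hT => ⟨hT.1, (Set.subset_insert _ _).trans hT.2⟩
  have hdiff : {T | SpT U E₀ T ∧ B ⊆ T}
      = {T | SpT U (insert f E₀) T ∧ B ⊆ T} \ {T | SpT U (insert f E₀) T ∧ insert f B ⊆ T} := by
    ext T
    constructor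
    · rintro ⟨⟨h1, h2, h3⟩, h4⟩
      refine ⟨⟨⟨h1.trans (Set.subset_insert _ _), h2, h3⟩, h4⟩, ?_⟩
      rintro ⟨_, h5⟩
      exact hf (h1 (h5 (Set.mem_insert _ _)))
    · rintro ⟨⟨⟨h1, h2, h3⟩, h4⟩, h5⟩
      refine ⟨⟨?_, h2, h3⟩, h4⟩
      intro z hz
      rcases h1 hz with rfl | h
      · exact absurd ⟨⟨h1, h2, h3⟩, Set.insert_subset hz h4⟩ h5
      · exact h
  unfold nB
  rw [hdiff]
  exact Set.ncard_sdiff_add_ncard_of_subset hsub (spT_finite (hE₀.insert f) B)

end moves

section corr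

variable (H : G.Subgraph) (hfin : H.verts.Finite) [Fintype H.verts] [Fintype H.coe.edgeSet]
  (r : H.verts)

include hfin

lemma nB_phiT (X : Finset H.coe.edgeSet) :
    (nB H.verts H.edgeSet (phiT H X) : ℝ)
      = P143.muSet (P143.eSrc H.coe) (P143.eTgt H.coe) r (fun _ => 1) X := by
  have hset : {T | SpT H.verts H.edgeSet T ∧ phiT H X ⊆ T}
      = ↑(((P143.stSet (P143.eSrc H.coe) (P143.eTgt H.coe) r).filter (fun S => X ⊆ S)).image
          (phiT H)) := by
    ext T
    simp only [Set.mem_ofPred_eq, Finset.coe_image, Set.mem_image, Finset.mem_coe,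
      Finset.mem_filter]
    constructor
    · rintro ⟨hT, hXT⟩
      have hT' := (isSpanningTreeOf_iff H hfin T).mpr hT
      have hmem : T ∈ stF H := (mem_stF (stF_finite H hfin)).mpr hT'
      rw [stF_eq_image H hfin r, Finset.mem_image] at hmem
      obtain ⟨S, hS, rfl⟩ := hmem
      refine ⟨S, ⟨hS, ?_⟩, rfl⟩
      have := (Set.image_subset_image_iff (edgeMap_injective H)).mp hXT
      exact_mod_cast this
    · rintro ⟨S, ⟨hS, hXS⟩, rfl⟩
      have hmem : phiT H S ∈ stF H := by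
        rw [stF_eq_image H hfin r]
        exact Finset.mem_image_of_mem _ hS
      have hT' := (mem_stF (stF_finite H hfin)).mp hmem
      refine ⟨(isSpanningTreeOf_iff H hfin _).mp hT', ?_⟩
      exact Set.image_mono (by exact_mod_cast hXS)
  unfold nB
  rw [hset, Set.ncard_coe_finset, Finset.card_image_of_injective _ (phiT_injective H)]
  unfold P143.muSet
  simp

end corr

/-- Negative correlation between `{B ⊆ T}` and `{f ∈ T}` in terms of counts. -/
lemma nB_neg_corr (H : G.Subgraph) (hfin : H.verts.Finite) (hne : H.verts.Nonempty)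
    {f : Sym2 V} (hf : f ∈ H.edgeSet) {B : Set (Sym2 V)} (hB : B ⊆ H.edgeSet) (hfB : f ∉ B) :
    (nB H.verts H.edgeSet (insert f B) : ℝ) * nB H.verts H.edgeSet ∅
      ≤ nB H.verts H.edgeSet B * nB H.verts H.edgeSet {f} := by
  haveI : Finite H.verts := hfin
  letI : Fintype H.verts := Fintype.ofFinite H.verts
  haveI : Finite H.coe.edgeSet := inferInstance
  letI : Fintype H.coe.edgeSet := Fintype.ofFinite H.coe.edgeSet
  obtain ⟨r0, hr0⟩ := hne
  let r : H.verts := ⟨r0, hr0⟩
  obtain ⟨X, rfl⟩ := exists_phiT_eq H hB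
  obtain ⟨f₀, rfl⟩ := exists_edgeMap_eq H hf
  have hf₀ : f₀ ∉ X := fun h => hfB ⟨f₀, by exact_mod_cast h, rfl⟩
  have h := P143.neg_corr_set (P143.eSrc H.coe) (P143.eTgt H.coe) r (fun _ => (1 : ℝ))
    (fun _ => one_pos) f₀ X hf₀
  have e1 : insert (edgeMap H f₀) (phiT H X) = phiT H (insert f₀ X) := by
    unfold phiT
    rw [Finset.coe_insert, Set.image_insert_eq]
  have e2 : (∅ : Set (Sym2 V)) = phiT H ∅ := by
    unfold phiT
    simp
  have e3 : ({edgeMap H f₀} : Set (Sym2 V)) = phiT H {f₀} := by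
    unfold phiT
    simp
  rw [e1, e2, e3, nB_phiT H hfin r, nB_phiT H hfin r, nB_phiT H hfin r, nB_phiT H hfin r]
  exact h

/-- Probability that the uniform spanning tree of `H` contains `B`. -/
def pB (H : G.Subgraph) (B : Set (Sym2 V)) : ℝ :=
  (nB H.verts H.edgeSet B : ℝ) / nB H.verts H.edgeSet ∅

lemma pB_nonneg (H : G.Subgraph) (B : Set (Sym2 V)) : 0 ≤ pB H B := by
  unfold pB
  positivity

lemma nB_empty_pos (H : G.Subgraph) (hfin : H.verts.Finite) (hconn : H.Connected) :
    0 < nB H.verts H.edgeSet ∅ := by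
  obtain ⟨T, hT⟩ := stF_nonempty H hfin hconn
  have hT' := (mem_stF (stF_finite H hfin)).mp hT
  unfold nB
  rw [Set.ncard_pos (spT_finite (edgeSet_finite H hfin) ∅)]
  exact ⟨T, (isSpanningTreeOf_iff H hfin T).mp hT', Set.empty_subset _⟩

lemma sup_edge_edgeSet (H : G.Subgraph) {u v : V} (huv : G.Adj u v) :
    (H ⊔ G.subgraphOfAdj huv).edgeSet = insert s(u, v) H.edgeSet := by
  rw [SimpleGraph.Subgraph.edgeSet_sup, SimpleGraph.edgeSet_subgraphOfAdj, Set.union_singleton]

lemma sup_edge_verts (H : G.Subgraph) {u v : V} (huv : G.Adj u v) (hu : u ∈ H.verts) :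
    (H ⊔ G.subgraphOfAdj huv).verts = insert v H.verts := by
  rw [SimpleGraph.Subgraph.verts_sup, SimpleGraph.subgraphOfAdj_verts]
  ext x
  simp only [Set.mem_union, Set.mem_insert_iff, Set.mem_singleton_iff]
  constructor
  · rintro (h | rfl | rfl)
    · exact Or.inr h
    · exact Or.inr hu
    · exact Or.inl rfl
  · rintro (rfl | h)
    · exact Or.inr (Or.inr rfl)
    · exact Or.inl h

lemma edge_in_verts (H : G.Subgraph) : ∀ x y, s(x, y) ∈ H.edgeSet → y ∈ H.verts :=
  fun _ _ h => H.edge_vert (SimpleGraph.Subgraph.mem_edgeSet.mp h).symm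

lemma pB_pendant (H : G.Subgraph) (hfin : H.verts.Finite) {u v : V} (huv : G.Adj u v)
    (hu : u ∈ H.verts) (hv : v ∉ H.verts) {B : Set (Sym2 V)} (hB : B ⊆ H.edgeSet) :
    pB (H ⊔ G.subgraphOfAdj huv) B = pB H B := by
  unfold pB
  rw [sup_edge_edgeSet, sup_edge_verts H huv hu,
    nB_pendant hfin (edgeSet_finite H hfin) (edge_in_verts H) hu hv hB,
    nB_pendant hfin (edgeSet_finite H hfin) (edge_in_verts H) hu hv (Set.empty_subset _)]

lemma pB_edge (H : G.Subgraph) (hfin : H.verts.Finite) (hconn : H.Connected) {u v : V}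
    (huv : G.Adj u v) (hu : u ∈ H.verts) (hv : v ∈ H.verts) (hf : s(u, v) ∉ H.edgeSet)
    {B : Set (Sym2 V)} (hB : B ⊆ H.edgeSet) :
    pB (H ⊔ G.subgraphOfAdj huv) B ≤ pB H B := by
  have hE := edgeSet_finite H hfin
  have hV : (H ⊔ G.subgraphOfAdj huv).verts = H.verts := by
    rw [sup_edge_verts H huv hu, Set.insert_eq_of_mem hv]
  have hFin1 : (H ⊔ G.subgraphOfAdj huv).verts.Finite := by rw [hV]; exact hfin
  have hmem : s(u, v) ∈ (H ⊔ G.subgraphOfAdj huv).edgeSet := by
    rw [sup_edge_edgeSet]; exact Set.mem_insert _ _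
  have hB1 : B ⊆ (H ⊔ G.subgraphOfAdj huv).edgeSet := by
    rw [sup_edge_edgeSet]; exact hB.trans (Set.subset_insert _ _)
  have hne : (H ⊔ G.subgraphOfAdj huv).verts.Nonempty := by rw [hV]; exact hconn.nonempty
  have hcorr := nB_neg_corr _ hFin1 hne hmem hB1 (fun h => hf (hB h))
  rw [hV, sup_edge_edgeSet] at hcorr
  have h1 := nB_edge (U := H.verts) hE hf (B := B)
  have h2 := nB_edge (U := H.verts) hE hf (B := ∅)
  have hb := nB_empty_pos H hfin hconn
  unfold pB
  rw [hV, sup_edge_edgeSet]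
  rw [show (insert s(u, v) (∅ : Set (Sym2 V))) = {s(u, v)} by simp] at h2
  rw [← h1, ← h2] at hcorr ⊢
  push_cast at hcorr ⊢
  have hb' : (0 : ℝ) < (nB H.verts H.edgeSet ∅ : ℝ) := by exact_mod_cast hb
  have hd : (0 : ℝ) ≤ (nB H.verts (insert s(u, v) H.edgeSet) {s(u, v)} : ℝ) := by positivity
  rw [div_le_div_iff₀ (by linarith) hb']
  nlinarith [hcorr]

lemma exists_exit {H H' : G.Subgraph} (hc' : H'.Connected) {a b : V} (ha : a ∈ H.verts)
    (haH' : a ∈ H'.verts) (hb : b ∈ H'.verts) (hbH : b ∉ H.verts) :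
    ∃ u ∈ H.verts, ∃ v, v ∉ H.verts ∧ H'.Adj u v := by
  have hr := hc'.coe.preconnected ⟨a, haH'⟩ ⟨b, hb⟩
  obtain ⟨w⟩ := hr
  suffices hgen : ∀ (x y : H'.verts), H'.coe.Walk x y → x.1 ∈ H.verts → y.1 ∉ H.verts →
      ∃ u ∈ H.verts, ∃ v, v ∉ H.verts ∧ H'.Adj u v from hgen _ _ w ha hbH
  intro x y p hx hy
  induction p with
  | nil => exact absurd hx hy
  | @cons x c y hadj p ih =>
    by_cases hcH : c.1 ∈ H.verts
    · exact ih hcH hy
    · exact ⟨x.1, hx, c.1, hcH, by simpa using hadj⟩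

/-- **Monotonicity.**  For finite connected `H ≤ H'` and edges `B` of `H`,
`P_{H'}(B ⊆ T) ≤ P_H(B ⊆ T)`. -/
theorem pB_anti {H H' : G.Subgraph} (hle : H ≤ H') (hfin : H'.verts.Finite) (hc : H.Connected)
    (hc' : H'.Connected) {B : Set (Sym2 V)} (hB : B ⊆ H.edgeSet) : pB H' B ≤ pB H B := by
  have hE' := edgeSet_finite H' hfin
  suffices hgen : ∀ (n : ℕ) (H : G.Subgraph), H ≤ H' → H.Connected → B ⊆ H.edgeSet →
      (H'.verts \ H.verts).ncard + (H'.edgeSet \ H.edgeSet).ncard = n → pB H' B ≤ pB H B from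
    hgen _ H hle hc hB rfl
  intro n
  induction n using Nat.strong_induction_on with
  | _ n ih =>
    intro H hle hc hB hn
    have hfinH : H.verts.Finite := hfin.subset hle.1
    have hsub : ∀ {u v : V} (huv : H'.Adj u v),
        H ⊔ G.subgraphOfAdj (H'.adj_sub huv) ≤ H' :=
      fun huv => sup_le hle (SimpleGraph.subgraphOfAdj_le_of_adj H' huv)
    have hconn : ∀ {u v : V} (huv : H'.Adj u v), u ∈ H.verts →
        (H ⊔ G.subgraphOfAdj (H'.adj_sub huv)).Connected := by
      intro u v huv hu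
      refine SimpleGraph.Subgraph.connected_sup hc.preconnected
        (SimpleGraph.Subgraph.subgraphOfAdj_connected _).preconnected ⟨u, ?_⟩
      exact ⟨hu, by simp⟩
    have hBsup : ∀ {u v : V} (huv : H'.Adj u v),
        B ⊆ (H ⊔ G.subgraphOfAdj (H'.adj_sub huv)).edgeSet := by
      intro u v huv
      rw [sup_edge_edgeSet]
      exact hB.trans (Set.subset_insert _ _)
    by_cases hV : ∃ b ∈ H'.verts, b ∉ H.verts
    · -- add a pendant edge
      obtain ⟨b, hb, hbH⟩ := hV
      obtain ⟨a, ha⟩ := hc.nonempty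
      obtain ⟨u, hu, v, hv, huv⟩ := exists_exit hc' ha (hle.1 ha) hb hbH
      have hlt : (H'.verts \ (H ⊔ G.subgraphOfAdj (H'.adj_sub huv)).verts).ncard
            + (H'.edgeSet \ (H ⊔ G.subgraphOfAdj (H'.adj_sub huv)).edgeSet).ncard < n := by
        rw [← hn]
        have h1 : (H'.verts \ (H ⊔ G.subgraphOfAdj (H'.adj_sub huv)).verts).ncard
            < (H'.verts \ H.verts).ncard := by
          refine Set.ncard_lt_ncard ?_ (hfin.subset Set.sdiff_subset)
          rw [sup_edge_verts H _ hu]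
          refine ⟨fun x hx => ⟨hx.1, fun h => hx.2 (Set.mem_insert_of_mem _ h)⟩, fun h => ?_⟩
          have hvv := H'.edge_vert huv.symm
          have := h ⟨hvv, hv⟩
          exact this.2 (Set.mem_insert _ _)
        have h2 : (H'.edgeSet \ (H ⊔ G.subgraphOfAdj (H'.adj_sub huv)).edgeSet).ncard
            ≤ (H'.edgeSet \ H.edgeSet).ncard := by
          refine Set.ncard_le_ncard ?_ (hE'.subset Set.sdiff_subset)
          rw [sup_edge_edgeSet]
          exact fun x hx => ⟨hx.1, fun h => hx.2 (Set.mem_insert_of_mem _ h)⟩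
        omega
      have hstep := ih _ hlt _ (hsub huv) (hconn huv hu) (hBsup huv) rfl
      rwa [pB_pendant H hfinH _ hu hv hB] at hstep
    · by_cases hEd : ∃ z ∈ H'.edgeSet, z ∉ H.edgeSet
      · obtain ⟨z, hz, hzH⟩ := hEd
        induction z using Sym2.ind with
        | _ u v =>
          have huv : H'.Adj u v := hz
          have hu : u ∈ H.verts := by
            by_contra h
            exact hV ⟨u, H'.edge_vert huv, h⟩
          have hv : v ∈ H.verts := by
            by_contra h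
            exact hV ⟨v, H'.edge_vert huv.symm, h⟩
          have hlt : (H'.verts \ (H ⊔ G.subgraphOfAdj (H'.adj_sub huv)).verts).ncard
                + (H'.edgeSet \ (H ⊔ G.subgraphOfAdj (H'.adj_sub huv)).edgeSet).ncard < n := by
            rw [← hn]
            have h1 : (H'.verts \ (H ⊔ G.subgraphOfAdj (H'.adj_sub huv)).verts).ncard
                ≤ (H'.verts \ H.verts).ncard := by
              refine Set.ncard_le_ncard ?_ (hfin.subset Set.sdiff_subset)
              rw [sup_edge_verts H _ hu]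
              exact fun x hx => ⟨hx.1, fun h => hx.2 (Set.mem_insert_of_mem _ h)⟩
            have h2 : (H'.edgeSet \ (H ⊔ G.subgraphOfAdj (H'.adj_sub huv)).edgeSet).ncard
                < (H'.edgeSet \ H.edgeSet).ncard := by
              refine Set.ncard_lt_ncard ?_ (hE'.subset Set.sdiff_subset)
              rw [sup_edge_edgeSet]
              refine ⟨fun x hx => ⟨hx.1, fun h => hx.2 (Set.mem_insert_of_mem _ h)⟩, fun h => ?_⟩
              have := h ⟨hz, hzH⟩
              exact this.2 (Set.mem_insert _ _)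
            omega
          have hstep := ih _ hlt _ (hsub huv) (hconn huv hu) (hBsup huv) rfl
          exact hstep.trans (pB_edge H hfinH hc _ hu hv hzH hB)
      · have hge : H' ≤ H := by
          refine ⟨?_, ?_⟩
          · intro x hx
            by_contra h
            exact hV ⟨x, hx, h⟩
          · intro x y hxy
            by_contra h
            exact hEd ⟨s(x, y), hxy, h⟩
        rw [le_antisymm hle hge]

end

end Vale.Agent.Lib.P143
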