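import Vale.Agent.Lib.P143.GraphDefs
import Vale.Agent.Lib.P143.FUSFMono

/-!
# P143: canonical exhaustion of a connected graph on `ℕ`, and joint measurability of the finite
volume tilted means
-/

namespace Vale.Agent.Lib.P143

open MeasureTheory Finset

open scoped Classical

noncomputable section

set_option linter.style.haveILetI false

/-- The configuration on all pairs of a set of pairs. -/
def treeCfgS (T : Set (Sym2 ℕ)) : Sym2 ℕ → Bool := fun e => decide (e ∈ T)

/-- Tilted mean formula over a finite family of edge sets. -/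
def fmM (𝒯 : Finset (Set (Sym2 ℕ))) (e : Sym2 ℕ) (F : Finset (Sym2 ℕ)) (X : Sym2 ℕ → ℝ) : ℝ :=
  (∑ T ∈ 𝒯, sg (treeCfgS T e) * expTilt F X (treeCfgS T)) / (∑ T ∈ 𝒯, expTilt F X (treeCfgS T))

/-- Truncation of `G` to the vertices `≤ n`. -/
def truncG (G : SimpleGraph ℕ) (n : ℕ) : SimpleGraph ℕ where
  Adj u v := u ≤ n ∧ v ≤ n ∧ G.Adj u v
  symm := ⟨fun _ _ h => ⟨h.2.1, h.1, h.2.2.symm⟩⟩
  loopless := ⟨fun _ h => G.loopless.irrefl _ h.2.2⟩

/-- Component of `0` in the truncation. -/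
def canV (G : SimpleGraph ℕ) (n : ℕ) : Set ℕ := {v | (truncG G n).Reachable 0 v}

/-- Canonical exhaustion: induced subgraph on `canV G n`. -/
def Hcan (G : SimpleGraph ℕ) (n : ℕ) : G.Subgraph := (⊤ : G.Subgraph).induce (canV G n)

lemma truncG_mono (G : SimpleGraph ℕ) {n m : ℕ} (h : n ≤ m) : truncG G n ≤ truncG G m :=
  fun _ _ hab => ⟨hab.1.trans h, hab.2.1.trans h, hab.2.2⟩

lemma zero_mem_canV (G : SimpleGraph ℕ) (n : ℕ) : 0 ∈ canV G n := SimpleGraph.Reachable.refl _

lemma canV_mono (G : SimpleGraph ℕ) {n m : ℕ} (h : n ≤ m) : canV G n ⊆ canV G m :=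
  fun _ hv => SimpleGraph.Reachable.mono (truncG_mono G h) hv

lemma le_of_reach_trunc {G : SimpleGraph ℕ} {n a b : ℕ} (h : (truncG G n).Reachable a b)
    (ha : a ≤ n) : b ≤ n := by
  obtain ⟨w⟩ := h
  induction w with
  | nil => exact ha
  | cons hadj _ ih => exact ih hadj.2.1

lemma le_of_mem_canV {G : SimpleGraph ℕ} {n v : ℕ} (hv : v ∈ canV G n) : v ≤ n :=
  le_of_reach_trunc hv (Nat.zero_le n)

lemma canV_finite (G : SimpleGraph ℕ) (n : ℕ) : (canV G n).Finite :=
  (Set.finite_Iic n).subset fun _ hv => le_of_mem_canV hv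

lemma Hcan_verts (G : SimpleGraph ℕ) (n : ℕ) : (Hcan G n).verts = canV G n := rfl

lemma Hcan_adj (G : SimpleGraph ℕ) (n : ℕ) (u v : ℕ) :
    (Hcan G n).Adj u v ↔ u ∈ canV G n ∧ v ∈ canV G n ∧ G.Adj u v := by
  unfold Hcan
  simp [SimpleGraph.Subgraph.induce_adj]

lemma Hcan_connected (G : SimpleGraph ℕ) (n : ℕ) : (Hcan G n).Connected := by
  refine ⟨?_⟩
  haveI : Nonempty (Hcan G n).verts := ⟨⟨0, zero_mem_canV G n⟩⟩
  have key : ∀ (u v : ℕ), (truncG G n).Walk u v → ∀ hu : u ∈ canV G n,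
      ∃ hv : v ∈ canV G n, (Hcan G n).coe.Reachable ⟨u, hu⟩ ⟨v, hv⟩ := by
    intro u v w
    induction w with
    | nil => exact fun hu => ⟨hu, SimpleGraph.Reachable.refl _⟩
    | @cons x c y hadj p ih =>
      intro hx
      have hc : c ∈ canV G n := SimpleGraph.Reachable.trans hx (SimpleGraph.Adj.reachable hadj)
      obtain ⟨hy, hr⟩ := ih hc
      refine ⟨hy, SimpleGraph.Reachable.trans (SimpleGraph.Adj.reachable ?_) hr⟩
      show (Hcan G n).Adj x c
      exact (Hcan_adj G n x c).mpr ⟨hx, hc, hadj.2.2⟩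
  refine SimpleGraph.Connected.mk ?_
  have h0 : ∀ v : (Hcan G n).verts, (Hcan G n).coe.Reachable ⟨0, zero_mem_canV G n⟩ v := by
    rintro ⟨v, hv⟩
    obtain ⟨w⟩ := hv
    obtain ⟨_, h⟩ := key 0 v w (zero_mem_canV G n)
    exact h
  intro u v
  exact (h0 u).symm.trans (h0 v)

lemma exists_trunc_reach {G : SimpleGraph ℕ} {a b : ℕ} (h : G.Reachable a b) :
    ∃ n, (truncG G n).Reachable a b := by
  obtain ⟨w⟩ := h
  induction w with
  | nil => exact ⟨0, SimpleGraph.Reachable.refl _⟩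
  | @cons x c y hadj p ih =>
    obtain ⟨n, hn⟩ := ih
    refine ⟨max n (max x c), ?_⟩
    refine SimpleGraph.Reachable.trans (SimpleGraph.Adj.reachable ?_)
      (hn.mono (truncG_mono G (le_max_left _ _)))
    exact ⟨(le_max_left _ _).trans (le_max_right _ _), (le_max_right _ _).trans (le_max_right _ _),
      hadj⟩

theorem Hcan_exhaustion (G : SimpleGraph ℕ) (hG : G.Connected) : IsExhaustion (Hcan G) := by
  have hv : ∀ v : ℕ, ∃ n, v ∈ canV G n := fun v => exists_trunc_reach (hG.preconnected 0 v)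
  refine ⟨?_, fun n => canV_finite G n, fun n => Hcan_connected G n, hv, ?_⟩
  · intro n m h
    exact SimpleGraph.Subgraph.induce_mono_right (canV_mono G h)
  · intro e he
    induction e using Sym2.ind with
    | _ u v =>
      obtain ⟨n₁, h₁⟩ := hv u
      obtain ⟨n₂, h₂⟩ := hv v
      refine ⟨max n₁ n₂, ?_⟩
      show (Hcan G (max n₁ n₂)).Adj u v
      exact (Hcan_adj G _ u v).mpr ⟨canV_mono G (le_max_left _ _) h₁,
        canV_mono G (le_max_right _ _) h₂, he⟩

section meas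

/-- Two bit patterns that agree on `[0,n]²` have the same truncated graphs. -/
lemma truncG_graphOfBits_congr {n : ℕ} {a a' : ℕ × ℕ → Bool}
    (h : ∀ u v, u ≤ n → v ≤ n → a (u, v) = a' (u, v)) :
    truncG (graphOfBits a) n = truncG (graphOfBits a') n := by
  ext u v
  show (u ≤ n ∧ v ≤ n ∧ (graphOfBits a).Adj u v) ↔ (u ≤ n ∧ v ≤ n ∧ (graphOfBits a').Adj u v)
  unfold graphOfBits
  simp only [SimpleGraph.fromRel_adj]
  constructor
  · rintro ⟨hu, hv, hne, hr⟩
    refine ⟨hu, hv, hne, ?_⟩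
    rwa [← h u v hu hv, ← h v u hv hu]
  · rintro ⟨hu, hv, hne, hr⟩
    refine ⟨hu, hv, hne, ?_⟩
    rwa [h u v hu hv, h v u hv hu]

lemma stF_Hcan_congr {n : ℕ} {a a' : ℕ × ℕ → Bool}
    (h : ∀ u v, u ≤ n → v ≤ n → a (u, v) = a' (u, v)) :
    stF (Hcan (graphOfBits a) n) = stF (Hcan (graphOfBits a') n) := by
  have hV : canV (graphOfBits a) n = canV (graphOfBits a') n := by
    unfold canV
    rw [truncG_graphOfBits_congr h]
  have hE : (Hcan (graphOfBits a) n).edgeSet = (Hcan (graphOfBits a') n).edgeSet := by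
    ext z
    induction z using Sym2.ind with
    | _ u v =>
      show (Hcan (graphOfBits a) n).Adj u v ↔ (Hcan (graphOfBits a') n).Adj u v
      rw [Hcan_adj, Hcan_adj, hV]
      refine and_congr_right fun hu => and_congr_right fun hv => ?_
      have hun := le_of_mem_canV hu
      have hvn := le_of_mem_canV hv
      unfold graphOfBits
      simp only [SimpleGraph.fromRel_adj]
      rw [h u v hun hvn, h v u hvn hun]
  ext T
  rw [mem_stF (stF_finite _ (canV_finite _ n)), mem_stF (stF_finite _ (canV_finite _ n)),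
    isSpanningTreeOf_iff _ (canV_finite _ n), isSpanningTreeOf_iff _ (canV_finite _ n), hE,
    Hcan_verts, Hcan_verts, hV]

lemma measurable_fmM (𝒯 : Finset (Set (Sym2 ℕ))) (e : Sym2 ℕ) (F : Finset (Sym2 ℕ)) :
    Measurable (fmM 𝒯 e F) := by
  unfold fmM
  have h1 : ∀ ω : Sym2 ℕ → Bool, Measurable fun X : Sym2 ℕ → ℝ => expTilt F X ω :=
    fun ω => (measurable_expTilt_joint F).comp (measurable_id.prodMk measurable_const)
  refine Measurable.div ?_ ?_
  · exact Finset.measurable_sum _ fun T _ => (h1 _).const_mul _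
  · exact Finset.measurable_sum _ fun T _ => h1 _

/-- Cutting a bit pattern to `[0,n]²`. -/
def cutBits (n : ℕ) (b : Fin (n + 1) × Fin (n + 1) → Bool) : ℕ × ℕ → Bool := fun p =>
  if h : p.1 ≤ n ∧ p.2 ≤ n then b (⟨p.1, Nat.lt_succ_of_le h.1⟩, ⟨p.2, Nat.lt_succ_of_le h.2⟩)
  else false

/-- Restriction of a bit pattern to `[0,n]²`. -/
def resBits (n : ℕ) (a : ℕ × ℕ → Bool) : Fin (n + 1) × Fin (n + 1) → Bool := fun p =>
  a (p.1.1, p.2.1)

lemma measurable_resBits (n : ℕ) : Measurable (resBits n) :=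
  measurable_pi_lambda _ fun _ => measurable_pi_apply _

lemma cut_res_agree (n : ℕ) (a : ℕ × ℕ → Bool) (u v : ℕ) (hu : u ≤ n) (hv : v ≤ n) :
    a (u, v) = cutBits n (resBits n a) (u, v) := by
  simp [cutBits, resBits, hu, hv]

/-- The finite volume tilted mean is jointly measurable in the bits of the graph and the tilt. -/
theorem measurable_fmM_Hcan (n : ℕ) (e : Sym2 ℕ) (F : Finset (Sym2 ℕ)) :
    Measurable fun p : (ℕ × ℕ → Bool) × (Sym2 ℕ → ℝ) =>
      fmM (stF (Hcan (graphOfBits p.1) n)) e F p.2 := by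
  have hform : (fun p : (ℕ × ℕ → Bool) × (Sym2 ℕ → ℝ) =>
        fmM (stF (Hcan (graphOfBits p.1) n)) e F p.2)
      = (fun q : (Fin (n + 1) × Fin (n + 1) → Bool) × (Sym2 ℕ → ℝ) =>
          fmM (stF (Hcan (graphOfBits (cutBits n q.1)) n)) e F q.2)
        ∘ (fun p : (ℕ × ℕ → Bool) × (Sym2 ℕ → ℝ) => (resBits n p.1, p.2)) := by
    funext p
    simp only [Function.comp]
    rw [stF_Hcan_congr (fun u v hu hv => cut_res_agree n p.1 u v hu hv)]
  rw [hform]
  refine Measurable.comp ?_ (((measurable_resBits n).comp measurable_fst).prodMk measurable_snd)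
  exact measurable_from_prod_countable_right fun b =>
    measurable_fmM (stF (Hcan (graphOfBits (cutBits n b)) n)) e F

end meas

end

end Vale.Agent.Lib.P143
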