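import Mathlib

/-!
# Symmetric Cauchy-Binet formula

`det (B * diagonal w * Bᵀ) = ∑_{S, |S| = |ι|} (∏_{e∈S} w e) * det(B_S)^2`.
-/

namespace P143

open Finset Matrix

set_option linter.unusedSectionVars false

variable {ι E : Type*} [Fintype ι] [DecidableEq ι] [Fintype E] [DecidableEq E]

theorem det_mul_eq_sum_fun (A : Matrix ι E ℝ) (C : Matrix E ι ℝ) :
    (A * C).det = ∑ f : ι → E, (∏ i, C (f i) i) * (A.submatrix id f).det := by
  classical
  have h1 : ∀ σ : Equiv.Perm ι, ∏ i, (A * C) (σ i) i
      = ∑ f : ι → E, ∏ i, (A (σ i) (f i) * C (f i) i) := by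
    intro σ
    simp only [Matrix.mul_apply]
    rw [Finset.prod_univ_sum]
    simp [Fintype.piFinset_univ]
  rw [Matrix.det_apply']
  simp only [h1, Finset.mul_sum]
  rw [Finset.sum_comm]
  refine Finset.sum_congr rfl fun f _ => ?_
  rw [Matrix.det_apply', Finset.mul_sum]
  refine Finset.sum_congr rfl fun σ _ => ?_
  simp only [Finset.prod_mul_distrib, Matrix.submatrix_apply, id]
  ring

/-- An enumeration of a finset of the right cardinality. -/
noncomputable def enumOf (S : Finset E) (h : S.card = Fintype.card ι) : ι ≃ S :=
  Fintype.equivOfCardEq (by simpa using h.symm)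

/-- The square of the maximal minor of `B` on the column set `S` (zero if `S` has the wrong size). -/
noncomputable def minorSq (B : Matrix ι E ℝ) (S : Finset E) : ℝ :=
  if h : S.card = Fintype.card ι then
    (B.submatrix id (fun i => ((enumOf S h i : S) : E))).det ^ 2
  else 0

theorem det_perm_col (B : Matrix ι E ℝ) (g : ι → E) (τ : Equiv.Perm ι) :
    (B.submatrix id (g ∘ τ)).det = ((Equiv.Perm.sign τ : ℤ) : ℝ) * (B.submatrix id g).det := by
  have : B.submatrix id (g ∘ τ) = (B.submatrix id g).submatrix id τ := by
    ext i j; simp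
  rw [this, Matrix.det_permute']

/-- For an injective enumeration, the sum over all rearrangements gives the squared minor. -/
theorem sum_perm_eq_sq (B : Matrix ι E ℝ) (g : ι → E) :
    ∑ τ : Equiv.Perm ι, (∏ i, B i (g (τ i))) * (B.submatrix id (g ∘ τ)).det
      = (B.submatrix id g).det ^ 2 := by
  have h0 : (B.submatrix id g).det
      = ∑ τ : Equiv.Perm ι, ((Equiv.Perm.sign τ : ℤ) : ℝ) * ∏ i, B i (g (τ i)) := by
    rw [← Matrix.det_transpose, Matrix.det_apply']
    refine Finset.sum_congr rfl fun τ _ => ?_
    simp
  calc _ = ∑ τ : Equiv.Perm ι, (((Equiv.Perm.sign τ : ℤ) : ℝ) * ∏ i, B i (g (τ i)))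
            * (B.submatrix id g).det := by
        refine Finset.sum_congr rfl fun τ _ => ?_
        rw [det_perm_col]; ring
    _ = _ := by
        rw [← Finset.sum_mul, ← h0]; ring

theorem cauchy_binet_sym (B : Matrix ι E ℝ) (w : E → ℝ) :
    (B * Matrix.diagonal w * Bᵀ).det
      = ∑ S ∈ (univ : Finset E).powersetCard (Fintype.card ι),
          (∏ e ∈ S, w e) * minorSq B S := by
  classical
  -- expand
  have h1 : (B * Matrix.diagonal w * Bᵀ).det
      = ∑ f : ι → E, (∏ i, w (f i)) * ((∏ i, B i (f i)) * (B.submatrix id f).det) := by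
    rw [Matrix.mul_assoc, det_mul_eq_sum_fun]
    refine Finset.sum_congr rfl fun f _ => ?_
    have : ∀ i, (Matrix.diagonal w * Bᵀ) (f i) i = w (f i) * B i (f i) := by
      intro i
      simp [Matrix.diagonal_mul, Matrix.transpose_apply]
    simp only [this, Finset.prod_mul_distrib]
    ring
  rw [h1]
  -- noninjective terms vanish
  have h2 : ∑ f : ι → E, (∏ i, w (f i)) * ((∏ i, B i (f i)) * (B.submatrix id f).det)
      = ∑ f ∈ (univ : Finset (ι → E)).filter Function.Injective,
          (∏ i, w (f i)) * ((∏ i, B i (f i)) * (B.submatrix id f).det) := by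
    symm
    apply Finset.sum_filter_of_ne
    intro f _ hne
    by_contra hf
    apply hne
    unfold Function.Injective at hf
    push Not at hf
    obtain ⟨a, b, hab, hne'⟩ := hf
    have : (B.submatrix id f).det = 0 :=
      Matrix.det_zero_of_column_eq hne' (fun i => by simp [hab])
    simp [this]
  rw [h2]
  -- group by the image
  have hmaps : ∀ f ∈ (univ : Finset (ι → E)).filter Function.Injective,
      (univ.image f) ∈ (univ : Finset E).powersetCard (Fintype.card ι) := by
    intro f hf
    have hf' : Function.Injective f := (Finset.mem_filter.mp hf).2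
    rw [Finset.mem_powersetCard]
    refine ⟨Finset.subset_univ _, ?_⟩
    rw [Finset.card_image_of_injective _ hf']
    rfl
  rw [← Finset.sum_fiberwise_of_maps_to hmaps]
  refine Finset.sum_congr rfl fun S hS => ?_
  have hS' : S.card = Fintype.card ι := (Finset.mem_powersetCard.mp hS).2
  -- parametrize the fibre by permutations
  set g : ι → E := fun i => ((enumOf S hS' i : S) : E) with hg
  have hginj : Function.Injective g := by
    intro a b hab
    exact (enumOf S hS').injective (Subtype.ext hab)
  have hgim : ∀ i, g i ∈ S := fun i => (enumOf S hS' i).2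
  have hgsurj : ∀ e ∈ S, ∃ i, g i = e := by
    intro e he
    exact ⟨(enumOf S hS').symm ⟨e, he⟩, by simp [hg]⟩
  have hfib : ∑ f ∈ ((univ : Finset (ι → E)).filter Function.Injective).filter
        (fun f => univ.image f = S),
        (∏ i, w (f i)) * ((∏ i, B i (f i)) * (B.submatrix id f).det)
      = ∑ τ : Equiv.Perm ι, (∏ i, w (g (τ i))) *
          ((∏ i, B i (g (τ i))) * (B.submatrix id (g ∘ τ)).det) := by
    symm
    refine Finset.sum_bij (fun τ _ => g ∘ τ) ?_ ?_ ?_ ?_
    · intro τ _
      simp only [Finset.mem_filter, Finset.mem_univ, true_and]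
      refine ⟨hginj.comp τ.injective, ?_⟩
      ext e
      simp only [Finset.mem_image, Finset.mem_univ, true_and, Function.comp]
      constructor
      · rintro ⟨i, rfl⟩; exact hgim _
      · intro he
        obtain ⟨i, rfl⟩ := hgsurj e he
        exact ⟨τ.symm i, by simp⟩
    · intro τ₁ _ τ₂ _ h
      ext i
      have : g (τ₁ i) = g (τ₂ i) := congrFun h i
      exact hginj this
    · intro f hf
      simp only [Finset.mem_filter, Finset.mem_univ, true_and] at hf
      obtain ⟨hfinj, hfim⟩ := hf
      have hex : ∀ i, ∃ j, g j = f i := by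
        intro i
        apply hgsurj
        rw [← hfim]
        exact Finset.mem_image_of_mem _ (Finset.mem_univ _)
      choose t ht using hex
      have htinj : Function.Injective t := by
        intro a b hab
        apply hfinj
        rw [← ht a, ← ht b, hab]
      have htbij : Function.Bijective t := (Finite.injective_iff_bijective).mp htinj
      refine ⟨Equiv.ofBijective t htbij, Finset.mem_univ _, ?_⟩
      ext i
      simp [ht]
    · intro τ _
      rfl
  rw [hfib]
  -- the weight factor is constant
  have hw : ∀ τ : Equiv.Perm ι, ∏ i, w (g (τ i)) = ∏ e ∈ S, w e := by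
    intro τ
    have h3 : ∏ i, w (g (τ i)) = ∏ i, w (g i) :=
      Equiv.prod_comp τ (fun i => w (g i))
    rw [h3]
    have h4 : S = univ.image g := by
      ext e
      simp only [Finset.mem_image, Finset.mem_univ, true_and]
      constructor
      · intro he; exact hgsurj e he
      · rintro ⟨i, rfl⟩; exact hgim i
    rw [h4, Finset.prod_image (fun a _ b _ h => hginj h)]
  simp only [hw]
  rw [← Finset.mul_sum, sum_perm_eq_sq]
  unfold minorSq
  rw [dif_pos hS']

end P143
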