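import Vale.Agent.Lib.P143.Core

/-!
# P143: iid families obtained from iid uniforms
-/

namespace Vale.Agent.Lib.P143

open MeasureTheory Filter Topology Finset ProbabilityTheory

open scoped Classical ENNReal

noncomputable section

/-- A subfamily of an iid family is iid. -/
lemma infinitePi_comp_inj {ι ι' : Type*} (ρ : Measure ℝ) [IsProbabilityMeasure ρ] (j : ι' → ι)
    (hj : Function.Injective j) :
    (Measure.infinitePi (fun _ : ι => ρ)).map (fun x => x ∘ j) =
      Measure.infinitePi (fun _ : ι' => ρ) := by
  have hm : Measurable fun x : ι → ℝ => x ∘ j :=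
    measurable_pi_iff.mpr fun a => measurable_pi_apply (j a)
  refine Measure.eq_infinitePi _ fun s t ht => ?_
  rw [Measure.map_apply hm (MeasurableSet.pi s.countable_toSet fun i _ => ht i)]
  let t' : ι → Set ℝ := Function.extend j t (fun _ => Set.univ)
  have ht' : ∀ i, MeasurableSet (t' i) := by
    intro i
    by_cases h : ∃ a, j a = i
    · obtain ⟨a, rfl⟩ := h
      simp only [t', hj.extend_apply]
      exact ht a
    · simp only [t']
      rw [Function.extend_apply' _ _ _ h]
      exact MeasurableSet.univ
  have hpre : (fun x : ι → ℝ => x ∘ j) ⁻¹' ((s : Set ι').pi t) =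
      ((s.map ⟨j, hj⟩ : Finset ι) : Set ι).pi t' := by
    ext x
    simp only [Set.mem_preimage, Set.mem_pi, Finset.mem_coe, Finset.mem_map,
      Function.Embedding.coeFn_mk, forall_exists_index, and_imp, forall_apply_eq_imp_iff₂,
      Function.comp, t', hj.extend_apply]
  rw [hpre, Measure.infinitePi_pi _ (fun i _ => ht' i), Finset.prod_map]
  refine Finset.prod_congr rfl fun a _ => ?_
  simp [t', hj.extend_apply]

/-- Merge of two independent iid families. -/
lemma prod_map_merge {J K : Type*} (ρ : Measure ℝ) [IsProbabilityMeasure ρ] :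
    ((Measure.infinitePi (fun _ : J => ρ)).prod (Measure.infinitePi (fun _ : K => ρ))).map
      (fun q : (J → ℝ) × (K → ℝ) => Sum.elim q.1 q.2) =
      Measure.infinitePi (fun _ : J ⊕ K => ρ) := by
  have hm : Measurable fun q : (J → ℝ) × (K → ℝ) => (Sum.elim q.1 q.2 : J ⊕ K → ℝ) := by
    refine measurable_pi_iff.mpr fun i => ?_
    cases i with
    | inl a => exact (measurable_pi_apply a).comp measurable_fst
    | inr b => exact (measurable_pi_apply b).comp measurable_snd
  refine Measure.eq_infinitePi _ fun s t ht => ?_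
  rw [Measure.map_apply hm (MeasurableSet.pi s.countable_toSet fun i _ => ht i)]
  have hpre : (fun q : (J → ℝ) × (K → ℝ) => (Sum.elim q.1 q.2 : J ⊕ K → ℝ)) ⁻¹'
      ((s : Set (J ⊕ K)).pi t) =
      ((s.toLeft : Set J).pi fun a => t (Sum.inl a)) ×ˢ
        ((s.toRight : Set K).pi fun b => t (Sum.inr b)) := by
    ext ⟨x, y⟩
    simp only [Set.mem_preimage, Set.mem_pi, Finset.mem_coe, Set.mem_prod, Finset.mem_toLeft,
      Finset.mem_toRight]
    constructor
    · intro h
      exact ⟨fun a ha => h _ ha, fun b hb => h _ hb⟩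
    · rintro ⟨h1, h2⟩ i hi
      cases i with
      | inl a => exact h1 a hi
      | inr b => exact h2 b hi
  rw [hpre, Measure.prod_prod, Measure.infinitePi_pi _ (fun i _ => ht _),
    Measure.infinitePi_pi _ (fun i _ => ht _)]
  conv_rhs => rw [← Finset.toLeft_disjSum_toRight (u := s), Finset.prod_disjSum]

/-- Splitting an iid family into two independent iid families. -/
lemma infinitePi_map_split {J K : Type*} (ρ : Measure ℝ) [IsProbabilityMeasure ρ] :
    (Measure.infinitePi (fun _ : J ⊕ K => ρ)).map
      (fun x => (fun a => x (Sum.inl a), fun b => x (Sum.inr b))) =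
      (Measure.infinitePi (fun _ : J => ρ)).prod (Measure.infinitePi (fun _ : K => ρ)) := by
  have hm : Measurable fun q : (J → ℝ) × (K → ℝ) => (Sum.elim q.1 q.2 : J ⊕ K → ℝ) := by
    refine measurable_pi_iff.mpr fun i => ?_
    cases i with
    | inl a => exact (measurable_pi_apply a).comp measurable_fst
    | inr b => exact (measurable_pi_apply b).comp measurable_snd
  have hs : Measurable fun x : J ⊕ K → ℝ =>
      ((fun a => x (Sum.inl a), fun b => x (Sum.inr b)) : (J → ℝ) × (K → ℝ)) :=
    (measurable_pi_iff.mpr fun a => measurable_pi_apply _).prodMk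
      (measurable_pi_iff.mpr fun b => measurable_pi_apply _)
  rw [← prod_map_merge, Measure.map_map hs hm]
  have : (fun x : J ⊕ K → ℝ =>
      ((fun a => x (Sum.inl a), fun b => x (Sum.inr b)) : (J → ℝ) × (K → ℝ))) ∘
      (fun q : (J → ℝ) × (K → ℝ) => (Sum.elim q.1 q.2 : J ⊕ K → ℝ)) = id := by
    funext q
    rfl
  rw [this, Measure.map_id]

/-- The law of `U ↦ ((v,a) ↦ f (U v) a)`. -/
lemma infinitePi_map_stream {Γ : Type*} {A : Type*} [Countable A] (f : unitInterval → A → ℝ)
    (hf : Measurable f)
    (hf2 : (volume : Measure unitInterval).map f = Measure.infinitePi (fun _ : A => unit)) :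
    (Measure.infinitePi (fun _ : Γ => (volume : Measure unitInterval))).map
        (fun (U : Γ → unitInterval) (p : Γ × A) => f (U p.1) p.2) =
      Measure.infinitePi (fun _ : Γ × A => unit) := by
  have h1 : (Measure.infinitePi (fun _ : Γ => (volume : Measure unitInterval))).map
      (fun (U : Γ → unitInterval) (v : Γ) => f (U v)) =
      Measure.infinitePi (fun _ : Γ => Measure.infinitePi (fun _ : A => unit)) := by
    rw [Measure.infinitePi_map_pi _ (fun _ => hf), hf2]
  have h2 := Measure.infinitePi_map_curry_symm (fun (_ : Γ) (_ : A) => unit)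
  rw [← h1] at h2
  have hm1 : Measurable fun (U : Γ → unitInterval) (v : Γ) => f (U v) :=
    measurable_pi_iff.mpr fun v => hf.comp (measurable_pi_apply v)
  rw [Measure.map_map (by fun_prop) hm1] at h2
  exact h2

end

end Vale.Agent.Lib.P143
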