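import Vale.Agent.Lib.P143.Invariance
import Vale.Agent.Lib.P143.Noise

/-!
# P143: the Cayley graph case
-/

namespace Vale.Agent.Lib.P143

open MeasureTheory Filter Topology Finset

open scoped Classical

noncomputable section

variable {Γ : Type*} [Group Γ]

/-- Symmetrised generators. -/
def symGen (S : Finset Γ) : Finset Γ := S ∪ S.image (·⁻¹)

/-- Balls for the word metric. -/
def wordBall (S : Finset Γ) : ℕ → Finset Γ
  | 0 => {1}
  | n + 1 => wordBall S n ∪ ((wordBall S n ×ˢ symGen S).image fun p => p.1 * p.2)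

lemma wordBall_mono (S : Finset Γ) : Monotone (wordBall S) :=
  monotone_nat_of_le_succ fun n => by
    intro x hx
    simp only [wordBall, Finset.mem_union]
    exact Or.inl hx

lemma one_mem_wordBall (S : Finset Γ) (n : ℕ) : (1 : Γ) ∈ wordBall S n :=
  wordBall_mono S (Nat.zero_le n) (by simp [wordBall])

lemma mul_mem_wordBall {S : Finset Γ} {n : ℕ} {x s : Γ} (hx : x ∈ wordBall S n)
    (hs : s ∈ symGen S) : x * s ∈ wordBall S (n + 1) := by
  simp only [wordBall, Finset.mem_union, Finset.mem_image, Finset.mem_product]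
  exact Or.inr ⟨(x, s), ⟨hx, hs⟩, rfl⟩

lemma exists_mem_wordBall {S : Finset Γ} (hS : Subgroup.closure (S : Set Γ) = ⊤) (γ : Γ) :
    ∃ n, γ ∈ wordBall S n := by
  have hγ : γ ∈ Subgroup.closure (S : Set Γ) := by
    rw [hS]
    exact Subgroup.mem_top γ
  induction hγ using Subgroup.closure_induction_right with
  | one => exact ⟨0, one_mem_wordBall S 0⟩
  | mul_right x _ y hy ih =>
    obtain ⟨n, hn⟩ := ih
    exact ⟨n + 1, mul_mem_wordBall hn (by simp only [symGen, Finset.mem_union]; exact Or.inl hy)⟩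
  | mul_inv_cancel x _ y hy ih =>
    obtain ⟨n, hn⟩ := ih
    refine ⟨n + 1, mul_mem_wordBall hn ?_⟩
    simp only [symGen, Finset.mem_union, Finset.mem_image]
    exact Or.inr ⟨y, hy, rfl⟩

lemma cayley_adj_of_mem {S : Finset Γ} {u s : Γ} (hs : s ∈ symGen S) (hne : u ≠ u * s) :
    (cayley S).Adj u (u * s) := by
  unfold cayley
  rw [SimpleGraph.fromRel_adj]
  refine ⟨hne, ?_⟩
  simp only [symGen, Finset.mem_union, Finset.mem_image] at hs
  rcases hs with hs | ⟨t, ht, rfl⟩
  · left
    simpa using hs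
  · right
    simpa using ht

/-- The exhaustion of the Cayley graph by induced word balls. -/
def ballH (S : Finset Γ) (n : ℕ) : (cayley S).Subgraph :=
  (⊤ : (cayley S).Subgraph).induce (wordBall S n : Set Γ)

lemma ballH_mono (S : Finset Γ) : Monotone (ballH S) := fun _ _ hmn =>
  SimpleGraph.Subgraph.induce_mono_right (Finset.coe_subset.mpr (wordBall_mono S hmn))

lemma ballH_reach (S : Finset Γ) (n : ℕ) (v : Γ) (hv : v ∈ wordBall S n) :
    (ballH S n).coe.Reachable ⟨1, one_mem_wordBall S n⟩ ⟨v, hv⟩ := by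
  induction n generalizing v with
  | zero =>
    have : v = 1 := by simpa [wordBall] using hv
    subst this
    exact SimpleGraph.Reachable.refl _
  | succ n ih =>
    have hmap : ∀ (x : Γ) (hx : x ∈ wordBall S n),
        (ballH S (n + 1)).coe.Reachable ⟨1, one_mem_wordBall S (n + 1)⟩
          ⟨x, wordBall_mono S (Nat.le_succ n) hx⟩ := fun x hx =>
      (ih x hx).map (SimpleGraph.Subgraph.inclusion (ballH_mono S (Nat.le_succ n)))
    simp only [wordBall, Finset.mem_union, Finset.mem_image, Finset.mem_product] at hv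
    by_cases hv' : v ∈ wordBall S n
    · exact hmap v hv'
    · have hv2 : ∃ a : Γ × Γ, (a.1 ∈ wordBall S n ∧ a.2 ∈ symGen S) ∧ a.1 * a.2 = v :=
        hv.resolve_left hv'
      obtain ⟨⟨u, s⟩, ⟨hu, hs⟩, rfl⟩ := hv2
      simp only at hu hs ⊢
      have hne : u ≠ u * s := by
        rintro h
        rw [← h] at hv'
        exact hv' hu
      refine (hmap u hu).trans (SimpleGraph.Adj.reachable ?_)
      simp only [ballH, SimpleGraph.Subgraph.coe_adj, SimpleGraph.Subgraph.induce_adj]
      exact ⟨wordBall_mono S (Nat.le_succ n) hu, mul_mem_wordBall hu hs,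
        by simpa using cayley_adj_of_mem hs hne⟩

lemma ballH_exhaustion {S : Finset Γ} (hS : Subgroup.closure (S : Set Γ) = ⊤) :
    IsExhaustion (ballH S) where
  mono := ballH_mono S
  finite := fun n => (wordBall S n).finite_toSet
  connected := fun n => by
    rw [SimpleGraph.Subgraph.connected_iff, SimpleGraph.Subgraph.preconnected_iff]
    refine ⟨?_, ⟨1, one_mem_wordBall S n⟩⟩
    rintro ⟨u, hu⟩ ⟨v, hv⟩
    exact (ballH_reach S n u hu).symm.trans (ballH_reach S n v hv)
  verts_union := fun v => by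
    obtain ⟨n, hn⟩ := exists_mem_wordBall hS v
    exact ⟨n, hn⟩
  edges_union := fun e he => by
    induction e using Sym2.ind with
    | _ u v =>
      obtain ⟨a, ha⟩ := exists_mem_wordBall hS u
      obtain ⟨b, hb⟩ := exists_mem_wordBall hS v
      refine ⟨max a b, ?_⟩
      rw [SimpleGraph.Subgraph.mem_edgeSet]
      simp only [ballH, SimpleGraph.Subgraph.induce_adj]
      exact ⟨wordBall_mono S (le_max_left a b) ha, wordBall_mono S (le_max_right a b) hb,
        by simpa using he⟩

lemma countable_of_closure {S : Finset Γ} (hS : Subgroup.closure (S : Set Γ) = ⊤) : Countable Γ := by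
  rw [← Set.countable_univ_iff]
  have : (Set.univ : Set Γ) = ⋃ n, (wordBall S n : Set Γ) := by
    ext γ
    simpa using exists_mem_wordBall hS γ
  rw [this]
  exact Set.countable_iUnion fun n => (wordBall S n).countable_toSet

/-! ### Observers -/

variable {V : Type*} {G : SimpleGraph V}

/-- Darts are transported by automorphisms. -/
def dartEquiv (φ : G ≃g G) : G.Dart ≃ G.Dart where
  toFun := φ.toHom.mapDart
  invFun := φ.symm.toHom.mapDart
  left_inv := fun d => by
    refine SimpleGraph.Dart.ext _ _ ?_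
    exact Prod.ext (φ.symm_apply_apply _) (φ.symm_apply_apply _)
  right_inv := fun d => by
    refine SimpleGraph.Dart.ext _ _ ?_
    exact Prod.ext (φ.apply_symm_apply _) (φ.apply_symm_apply _)

/-- The edge of a dart. -/
def dartEdge (d : G.Dart) : G.edgeSet := ⟨d.edge, d.edge_mem⟩

lemma dartEdge_map (φ : G ≃g G) (d : G.Dart) :
    dartEdge (dartEquiv φ d) = φ.mapEdgeSet (dartEdge d) := rfl

lemma exists_dart (e : G.edgeSet) : ∃ d : G.Dart, d.edge = e.1 := by
  obtain ⟨e, he⟩ := e
  induction e using Sym2.ind with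
  | _ u v => exact ⟨⟨(u, v), he⟩, rfl⟩

/-- The two darts of an edge. -/
def fibD (e : G.edgeSet) : Finset G.Dart :=
  {(exists_dart e).choose, (exists_dart e).choose.symm}

lemma mem_fibD (e : G.edgeSet) (d : G.Dart) : d ∈ fibD e ↔ dartEdge d = e := by
  have h := (exists_dart e).choose_spec
  have key : dartEdge d = e ↔ d.edge = (exists_dart e).choose.edge := by
    rw [h, Subtype.ext_iff]
    rfl
  rw [key, SimpleGraph.dart_edge_eq_iff]
  simp [fibD]

lemma card_fibD (e : G.edgeSet) : (fibD e).card ≤ 2 := Finset.card_le_two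

lemma fibD_nonempty (e : G.edgeSet) : (fibD e).Nonempty :=
  ⟨(exists_dart e).choose, by simp [fibD]⟩

/-- The fibres transform as expected. -/
lemma fib_map_of {E J : Type*} {π : J → E} {fib : E → Finset J}
    (hfib : ∀ f j, j ∈ fib f ↔ π j = f) {a : J ≃ J} {b : E ≃ E} (hπ : ∀ j, π (a j) = b (π j))
    (f : E) : fib (b f) = (fib f).map a.toEmbedding := by
  ext j
  simp only [hfib, Finset.mem_map, Equiv.coe_toEmbedding]
  constructor
  · intro h
    refine ⟨a.symm j, ?_, by simp⟩
    apply b.injective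
    rw [← hπ, a.apply_symm_apply, h]
  · rintro ⟨j', h, rfl⟩
    rw [hπ, h]

/-! ### Balls of edges in the Cayley graph -/

/-- Vertices at word distance at most `n` of the pair `e`. -/
def ballW (S : Finset Γ) (e : Sym2 Γ) (n : ℕ) : Finset Γ :=
  e.toFinset.biUnion fun u => (wordBall S n).image fun v => u * v

lemma mem_ballW {S : Finset Γ} {e : Sym2 Γ} {n : ℕ} {x : Γ} :
    x ∈ ballW S e n ↔ ∃ u ∈ e, ∃ v ∈ wordBall S n, u * v = x := by
  simp only [ballW, Finset.mem_biUnion, Sym2.mem_toFinset, Finset.mem_image]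

/-- Balls of edges. -/
def edgeBall (S : Finset Γ) (e : (cayley S).edgeSet) (n : ℕ) : Finset (cayley S).edgeSet :=
  (ballW S e.1 n).sym2.subtype (· ∈ (cayley S).edgeSet)

lemma mem_edgeBall {S : Finset Γ} {e f : (cayley S).edgeSet} {n : ℕ} :
    f ∈ edgeBall S e n ↔ ∀ x ∈ f.1, x ∈ ballW S e.1 n := by
  simp [edgeBall, Finset.mem_sym2_iff]

lemma edgeBall_mono (S : Finset Γ) (e : (cayley S).edgeSet) : Monotone (edgeBall S e) := by
  intro m n hmn f hf
  rw [mem_edgeBall] at hf ⊢
  intro x hx
  obtain ⟨u, hu, v, hv, rfl⟩ := mem_ballW.mp (hf x hx)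
  exact mem_ballW.mpr ⟨u, hu, v, wordBall_mono S hmn hv, rfl⟩

lemma self_mem_edgeBall (S : Finset Γ) (e : (cayley S).edgeSet) (n : ℕ) : e ∈ edgeBall S e n := by
  rw [mem_edgeBall]
  intro x hx
  exact mem_ballW.mpr ⟨x, hx, 1, one_mem_wordBall S n, mul_one x⟩

lemma exists_mem_edgeBall {S : Finset Γ} (hS : Subgroup.closure (S : Set Γ) = ⊤)
    (e f : (cayley S).edgeSet) : ∃ n, f ∈ edgeBall S e n := by
  obtain ⟨u, hu⟩ : ∃ u, u ∈ e.1 := by
    obtain ⟨e, -⟩ := e
    induction e using Sym2.ind with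
    | _ u v => exact ⟨u, by simp⟩
  obtain ⟨f, hf⟩ := f
  induction f using Sym2.ind with
  | _ x y =>
    obtain ⟨a, ha⟩ := exists_mem_wordBall hS (u⁻¹ * x)
    obtain ⟨b, hb⟩ := exists_mem_wordBall hS (u⁻¹ * y)
    refine ⟨max a b, ?_⟩
    rw [mem_edgeBall]
    intro z hz
    simp only [Sym2.mem_iff] at hz
    rcases hz with rfl | rfl
    · exact mem_ballW.mpr ⟨u, hu, _, wordBall_mono S (le_max_left a b) ha, by simp⟩
    · exact mem_ballW.mpr ⟨u, hu, _, wordBall_mono S (le_max_right a b) hb, by simp⟩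

lemma edgeBall_map (S : Finset Γ) (γ : Γ) (e : (cayley S).edgeSet) (n : ℕ) :
    edgeBall S ((cayleyIso S γ).mapEdgeSet e) n =
      (edgeBall S e n).map (cayleyIso S γ).mapEdgeSet.toEmbedding := by
  have hcoe : ∀ e : (cayley S).edgeSet, ((cayleyIso S γ).mapEdgeSet e).1 =
      Sym2.map (fun x => γ * x) e.1 := fun _ => rfl
  ext f
  simp only [Finset.mem_map, Equiv.coe_toEmbedding]
  constructor
  · intro hf
    refine ⟨(cayleyIso S γ).mapEdgeSet.symm f, ?_, Equiv.apply_symm_apply _ _⟩
    rw [mem_edgeBall] at hf ⊢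
    intro x hx
    have hx' : γ * x ∈ f.1 := by
      have : f = (cayleyIso S γ).mapEdgeSet ((cayleyIso S γ).mapEdgeSet.symm f) :=
        (Equiv.apply_symm_apply _ _).symm
      rw [this, hcoe, Sym2.mem_map]
      exact ⟨x, hx, rfl⟩
    obtain ⟨u, hu, v, hv, huv⟩ := mem_ballW.mp (hf _ hx')
    rw [hcoe, Sym2.mem_map] at hu
    obtain ⟨u', hu', rfl⟩ := hu
    exact mem_ballW.mpr ⟨u', hu', v, hv, by simpa [mul_assoc] using huv⟩
  · rintro ⟨f', hf', rfl⟩
    rw [mem_edgeBall] at hf' ⊢
    intro x hx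
    rw [hcoe, Sym2.mem_map] at hx
    obtain ⟨x', hx', rfl⟩ := hx
    obtain ⟨u, hu, v, hv, rfl⟩ := mem_ballW.mp (hf' _ hx')
    refine mem_ballW.mpr ⟨γ * u, ?_, v, hv, by simp [mul_assoc]⟩
    rw [hcoe, Sym2.mem_map]
    exact ⟨u, hu, rfl⟩

/-! ### The theorem -/

/-- Stream index of a dart: its generator. -/
def dartGen {S : Finset Γ} (d : (cayley S).Dart) : Γ := d.fst⁻¹ * d.snd

/-- The index map from observers and steps to streams of vertices. -/
def streamIdx {S : Finset Γ} :
    (cayley S).Dart ⊕ (ℕ × (cayley S).Dart) → Γ × (Γ × Option ℕ) :=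
  Sum.elim (fun d => (d.fst, (dartGen d, none))) (fun k => (k.2.fst, (dartGen k.2, some k.1)))

lemma dart_eq_of {S : Finset Γ} {d d' : (cayley S).Dart} (h1 : d.fst = d'.fst)
    (h2 : dartGen d = dartGen d') : d = d' := by
  refine SimpleGraph.Dart.ext _ _ (Prod.ext h1 ?_)
  unfold dartGen at h2
  rw [h1] at h2
  exact mul_left_cancel h2

lemma streamIdx_injective {S : Finset Γ} : Function.Injective (streamIdx (S := S)) := by
  rintro (d | ⟨i, d⟩) (d' | ⟨i', d'⟩) h
  · simp only [streamIdx, Sum.elim_inl, Prod.mk.injEq] at h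
    rw [dart_eq_of h.1 h.2.1]
  · simp [streamIdx] at h
  · simp [streamIdx] at h
  · simp only [streamIdx, Sum.elim_inr, Prod.mk.injEq, Option.some.injEq] at h
    rw [dart_eq_of h.1 h.2.1, h.2.2]

/-- Labels and innovations read from the streams. -/
def noiseOf {S : Finset Γ} (f : unitInterval → Γ × Option ℕ → ℝ) (U : Γ → unitInterval) :
    ((cayley S).Dart → ℝ) × (ℕ × (cayley S).Dart → ℝ) :=
  (fun d => f (U d.fst) (dartGen d, none), fun k => f (U k.2.fst) (dartGen k.2, some k.1))

/-- The Cayley graph theorem, conditional on the limit law. -/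
theorem isGammaFactorOfIID_of_isFUSF {S : Finset Γ} (hS : Subgroup.closure (S : Set Γ) = ⊤)
    {μ : Measure ((cayley S).edgeSet → Bool)} [IsProbabilityMeasure μ]
    (hμ : IsFUSF (cayley S) μ) : IsGammaFactorOfIID S μ := by
  have hΓ : Countable Γ := countable_of_closure hS
  have hH := ballH_exhaustion hS
  have hJ : Countable (cayley S).Dart :=
    Function.Injective.countable (f := fun d : (cayley S).Dart => d.toProd) fun d d' h =>
      SimpleGraph.Dart.ext _ _ h
  have hSym : Countable (Sym2 Γ) :=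
    Function.Surjective.countable (f := fun p : Γ × Γ => s(p.1, p.2)) (by
      intro z
      induction z using Sym2.ind with
      | _ u v => exact ⟨(u, v), rfl⟩)
  have hA : Countable (Γ × Option ℕ) := inferInstance
  have hCore : CoreData μ dartEdge fibD (edgeBall S) :=
    { hfib := fun f j => mem_fibD f j
      hcard := card_fibD
      hne := fibD_nonempty
      hBmono := edgeBall_mono S
      hBex := exists_mem_edgeBall hS
      hBself := self_mem_edgeBall S
      hL := tiltLipschitz_of_isFUSF hH hμ }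
  obtain ⟨f, hfm, hfmap⟩ := Measure.exists_measurable_map_eq
    (Measure.infinitePi (fun _ : Γ × Option ℕ => unit))
  let Φ : (Γ → unitInterval) → ((cayley S).edgeSet → Bool) := fun U =>
    Theta dartEdge fibD (Psi μ (edgeBall S)) (noiseOf f U)
  have hT := measurable_Theta hCore
  have hnoise : Measurable (noiseOf (S := S) f) := by
    refine Measurable.prodMk (measurable_pi_iff.mpr fun d => ?_)
      (measurable_pi_iff.mpr fun k => ?_)
    · exact (measurable_pi_apply _).comp (hfm.comp (measurable_pi_apply _))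
    · exact (measurable_pi_apply _).comp (hfm.comp (measurable_pi_apply _))
  refine ⟨Φ, hT.comp hnoise, ?_, ?_⟩
  · -- equivariance
    intro γ U
    have hb := Theta_map hCore (dartEquiv (cayleyIso S γ⁻¹)) (cayleyIso S γ⁻¹).mapEdgeSet
      (fun d => dartEdge_map _ d) (fib_map_of mem_fibD fun d => dartEdge_map _ d)
      (map_eq_of_isFUSF hH hμ _) (edgeBall_map S γ⁻¹) (noiseOf f U).1 (noiseOf f U).2
    have hn : noiseOf (S := S) f (fun v => U (γ⁻¹ * v)) =
        ((noiseOf f U).1 ∘ dartEquiv (cayleyIso S γ⁻¹),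
          (noiseOf f U).2 ∘ stepMap (dartEquiv (cayleyIso S γ⁻¹))) := by
      have hgen : ∀ d : (cayley S).Dart, dartGen (dartEquiv (cayleyIso S γ⁻¹) d) = dartGen d := by
        intro d
        show (γ⁻¹ * d.fst)⁻¹ * (γ⁻¹ * d.snd) = d.fst⁻¹ * d.snd
        simp [mul_assoc]
      have hfst : ∀ d : (cayley S).Dart, (dartEquiv (cayleyIso S γ⁻¹) d).fst = γ⁻¹ * d.fst :=
        fun _ => rfl
      refine Prod.ext ?_ ?_
      · funext d
        simp only [noiseOf, Function.comp, hgen, hfst]
      · funext k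
        simp only [noiseOf, Function.comp, stepMap, hgen, hfst]
    show Theta dartEdge fibD (Psi μ (edgeBall S)) (noiseOf f fun v => U (γ⁻¹ * v)) =
      fun e => Theta dartEdge fibD (Psi μ (edgeBall S)) (noiseOf f U) _
    rw [hn]
    exact hb
  · -- law
    have h1 := infinitePi_map_stream (Γ := Γ) f hfm hfmap
    have h2 := infinitePi_comp_inj unit (streamIdx (S := S)) streamIdx_injective
    have h3 := infinitePi_map_split (J := (cayley S).Dart) (K := ℕ × (cayley S).Dart) unit
    have h4 := law_Theta hCore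
    have hm1 : Measurable fun (U : Γ → unitInterval) (p : Γ × (Γ × Option ℕ)) => f (U p.1) p.2 :=
      measurable_pi_iff.mpr fun p => (measurable_pi_apply _).comp (hfm.comp (measurable_pi_apply _))
    have hm2 : Measurable fun x : Γ × (Γ × Option ℕ) → ℝ => x ∘ streamIdx (S := S) :=
      measurable_pi_iff.mpr fun a => measurable_pi_apply _
    have hm3 : Measurable fun x : (cayley S).Dart ⊕ (ℕ × (cayley S).Dart) → ℝ =>
        ((fun a => x (Sum.inl a), fun b => x (Sum.inr b)) :
          ((cayley S).Dart → ℝ) × (ℕ × (cayley S).Dart → ℝ)) :=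
      (measurable_pi_iff.mpr fun a => measurable_pi_apply _).prodMk
        (measurable_pi_iff.mpr fun b => measurable_pi_apply _)
    rw [← h4, ← h3, ← h2, ← h1, Measure.map_map hm2 hm1, Measure.map_map hm3 (hm2.comp hm1),
      Measure.map_map hT (hm3.comp (hm2.comp hm1))]
    rfl

end

end Vale.Agent.Lib.P143
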