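import Mathlib

/-!
# P143: the contraction (strong solution of the discrete localization system)
-/

namespace Vale.Agent.Lib.P143

open MeasureTheory Filter Topology Finset

open scoped Classical

noncomputable section

variable {E J : Type*}

/-- Channel strength. -/
def eps : ℝ := 1 / 10

/-- `atanh (eps * (2 y - 1))`. -/
def phi (y : ℝ) : ℝ := (1 / 2) * Real.log ((1 + eps * (2 * y - 1)) / (1 - eps * (2 * y - 1)))

lemma measurable_phi : Measurable phi := by
  unfold phi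
  fun_prop

lemma abs_log_sub_log_le {u v : ℝ} (hu : 9 / 10 ≤ u) (hv : 9 / 10 ≤ v) :
    |Real.log u - Real.log v| ≤ (10 / 9) * |u - v| := by
  have hu0 : 0 < u := by linarith
  have hv0 : 0 < v := by linarith
  have one : ∀ {a b : ℝ}, 9 / 10 ≤ a → 9 / 10 ≤ b →
      Real.log a - Real.log b ≤ (10 / 9) * |a - b| := by
    intro a b ha hb
    have ha0 : 0 < a := by linarith
    have hb0 : 0 < b := by linarith
    rw [← Real.log_div ha0.ne' hb0.ne']
    have h1 := Real.log_le_sub_one_of_pos (div_pos ha0 hb0)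
    have h2 : a / b - 1 = (a - b) / b := by field_simp
    rw [h2] at h1
    have h3 : (a - b) / b ≤ |a - b| / b := by
      apply div_le_div_of_nonneg_right (le_abs_self _) hb0.le
    have h4 : |a - b| / b ≤ (10 / 9) * |a - b| := by
      rw [div_le_iff₀ hb0]
      have := abs_nonneg (a - b)
      nlinarith
    linarith
  rw [abs_le]
  constructor
  · have := one hv hu
    rw [abs_sub_comm] at this
    linarith
  · exact one hu hv

lemma phi_lip {y y' : ℝ} (hy : y ∈ Set.Icc (0 : ℝ) 1) (hy' : y' ∈ Set.Icc (0 : ℝ) 1) :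
    |phi y - phi y'| ≤ (1 / 4) * |y - y'| := by
  obtain ⟨h0, h1⟩ := hy
  obtain ⟨h0', h1'⟩ := hy'
  unfold phi eps
  have a1 : (9 / 10 : ℝ) ≤ 1 + 1 / 10 * (2 * y - 1) := by linarith
  have a2 : (9 / 10 : ℝ) ≤ 1 - 1 / 10 * (2 * y - 1) := by linarith
  have a3 : (9 / 10 : ℝ) ≤ 1 + 1 / 10 * (2 * y' - 1) := by linarith
  have a4 : (9 / 10 : ℝ) ≤ 1 - 1 / 10 * (2 * y' - 1) := by linarith
  rw [Real.log_div (by linarith) (by linarith), Real.log_div (by linarith) (by linarith)]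
  have b1 := abs_log_sub_log_le a1 a3
  have b2 := abs_log_sub_log_le a2 a4
  have e1 : 1 + 1 / 10 * (2 * y - 1) - (1 + 1 / 10 * (2 * y' - 1)) = (1 / 5) * (y - y') := by ring
  have e2 : 1 - 1 / 10 * (2 * y - 1) - (1 - 1 / 10 * (2 * y' - 1)) = -((1 / 5) * (y - y')) := by
    ring
  rw [e1] at b1
  rw [e2, abs_neg] at b2
  rw [abs_mul, abs_of_pos (by norm_num : (0 : ℝ) < 1 / 5)] at b1 b2
  have hnn := abs_nonneg (y - y')
  have := abs_le.mp b1
  have := abs_le.mp b2
  rw [abs_le]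
  constructor <;> nlinarith

/-- Strict order on steps determined by labels `τ`. -/
def prec (τ : J → ℝ) (l k : ℕ × J) : Prop := l.1 < k.1 ∨ (l.1 = k.1 ∧ τ l.2 < τ k.2)

/-- Tilt produced by the steps prior to `k`. -/
def Xprior (fib : E → Finset J) (τ : J → ℝ) (y : ℕ × J → ℝ) (k : ℕ × J) (f : E) : ℝ :=
  ∑ i ∈ range (k.1 + 1), ∑ j ∈ fib f, if prec τ (i, j) k then phi (y (i, j)) else 0

/-- The transport `T_c`. -/
def Tc (c y : ℝ) : ℝ := y + c * (y ^ 2 - y)

/-- Clip to `[0,1]`. -/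
def clip (x : ℝ) : ℝ := max 0 (min 1 x)

lemma clip_mem (x : ℝ) : clip x ∈ Set.Icc (0 : ℝ) 1 := by
  unfold clip
  constructor
  · exact le_max_left _ _
  · exact max_le zero_le_one (min_le_left _ _)

lemma clip_of_mem {x : ℝ} (h : x ∈ Set.Icc (0 : ℝ) 1) : clip x = x := by
  unfold clip
  rw [min_eq_right h.2, max_eq_right h.1]

lemma abs_clip_sub_le (x x' : ℝ) : |clip x - clip x'| ≤ |x - x'| := by
  unfold clip
  calc |max 0 (min 1 x) - max 0 (min 1 x')| = |max (min 1 x) 0 - max (min 1 x') 0| := by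
        rw [max_comm 0, max_comm 0]
    _ ≤ |min 1 x - min 1 x'| := abs_max_sub_max_le_abs _ _ _
    _ = |min x 1 - min x' 1| := by rw [min_comm 1, min_comm 1]
    _ ≤ max |x - x'| |(1 : ℝ) - 1| := abs_min_sub_min_le_max _ _ _ _
    _ = |x - x'| := by simp

lemma measurable_clip : Measurable clip := by
  unfold clip
  fun_prop

variable (π : J → E) (fib : E → Finset J) (Ψ : E → (E → ℝ) → ℝ)

/-- The innovation map. -/
def Inn (τ : J → ℝ) (y : ℕ × J → ℝ) (k : ℕ × J) : ℝ :=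
  Tc (eps * Ψ (π k.2) (Xprior fib τ y k)) (y k)

/-- The Picard map. -/
def Tmap (τ : J → ℝ) (R y : ℕ × J → ℝ) (k : ℕ × J) : ℝ :=
  clip (R k - eps * Ψ (π k.2) (Xprior fib τ y k) * ((y k) ^ 2 - y k))

/-- Picard iterates. -/
def iter (τ : J → ℝ) (R : ℕ × J → ℝ) (m : ℕ) : ℕ × J → ℝ :=
  (Tmap π fib Ψ τ R)^[m] (fun _ => 0)

/-- Solution: limit of Picard iterates. -/
def Gsol (τ : J → ℝ) (R : ℕ × J → ℝ) (k : ℕ × J) : ℝ :=
  limUnder atTop (fun m => iter π fib Ψ τ R m k)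

/-- Box condition. -/
def Box (y : ℕ × J → ℝ) : Prop := ∀ k, y k ∈ Set.Icc (0 : ℝ) 1

/-- Properties of the drift used for the contraction. -/
structure DriftOK (Ψ : E → (E → ℝ) → ℝ) : Prop where
  bdd : ∀ e X, |Ψ e X| ≤ 1
  lip : ∀ e X X' D, (∀ f, |X f - X' f| ≤ D) → |Ψ e X - Ψ e X'| ≤ 2 * D
  meas : ∀ e, Measurable (Ψ e)

variable {π fib Ψ}

lemma Tmap_box (τ : J → ℝ) (R y : ℕ × J → ℝ) : Box (Tmap π fib Ψ τ R y) := fun _ => clip_mem _

lemma iter_box (τ : J → ℝ) (R : ℕ × J → ℝ) (m : ℕ) : Box (iter π fib Ψ τ R m) := by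
  cases m with
  | zero =>
    intro k
    simp [iter]
  | succ m =>
    intro k
    simp only [iter, Function.iterate_succ_apply']
    exact Tmap_box τ R _ k

lemma iter_succ (τ : J → ℝ) (R : ℕ × J → ℝ) (m : ℕ) :
    iter π fib Ψ τ R (m + 1) = Tmap π fib Ψ τ R (iter π fib Ψ τ R m) := by
  simp only [iter, Function.iterate_succ_apply']

lemma Xprior_lip (hfib : ∀ f, (fib f).card ≤ 2) (τ : J → ℝ) {y y' : ℕ × J → ℝ} (hy : Box y)
    (hy' : Box y') {D : ℝ} (hD : 0 ≤ D) (h : ∀ l : ℕ × J, |y l - y' l| ≤ D * 2 ^ l.1)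
    (k : ℕ × J) (f : E) : |Xprior fib τ y k f - Xprior fib τ y' k f| ≤ D * 2 ^ k.1 := by
  unfold Xprior
  rw [← Finset.sum_sub_distrib]
  have hi : ∀ i ∈ range (k.1 + 1),
      |∑ j ∈ fib f, (if prec τ (i, j) k then phi (y (i, j)) else 0) -
        ∑ j ∈ fib f, (if prec τ (i, j) k then phi (y' (i, j)) else 0)| ≤ (D / 2) * 2 ^ i := by
    intro i _
    rw [← Finset.sum_sub_distrib]
    calc _ ≤ ∑ j ∈ fib f, |(if prec τ (i, j) k then phi (y (i, j)) else 0) -
          (if prec τ (i, j) k then phi (y' (i, j)) else 0)| := Finset.abs_sum_le_sum_abs _ _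
      _ ≤ ∑ _j ∈ fib f, (D / 4) * 2 ^ i := by
          refine Finset.sum_le_sum fun j _ => ?_
          split_ifs
          · refine (phi_lip (hy _) (hy' _)).trans ?_
            have := h (i, j)
            simp only at this
            linarith
          · simp only [sub_self, abs_zero]
            positivity
      _ = ((fib f).card : ℝ) * ((D / 4) * 2 ^ i) := by
          rw [Finset.sum_const, nsmul_eq_mul]
      _ ≤ 2 * ((D / 4) * 2 ^ i) := by
          have h2 : ((fib f).card : ℝ) ≤ 2 := by exact_mod_cast hfib f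
          exact mul_le_mul_of_nonneg_right h2 (by positivity)
      _ = (D / 2) * 2 ^ i := by ring
  calc _ ≤ ∑ i ∈ range (k.1 + 1), |∑ j ∈ fib f, (if prec τ (i, j) k then phi (y (i, j)) else 0) -
        ∑ j ∈ fib f, (if prec τ (i, j) k then phi (y' (i, j)) else 0)| :=
        Finset.abs_sum_le_sum_abs _ _
    _ ≤ ∑ i ∈ range (k.1 + 1), (D / 2) * 2 ^ i := Finset.sum_le_sum hi
    _ = (D / 2) * (2 ^ (k.1 + 1) - 1) := by
        rw [← Finset.mul_sum, geom_sum_eq (by norm_num : (2 : ℝ) ≠ 1)]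
        norm_num
    _ ≤ D * 2 ^ k.1 := by
        rw [pow_succ]
        nlinarith [pow_pos (by norm_num : (0 : ℝ) < 2) k.1]

lemma Tmap_contract (hΨ : DriftOK Ψ) (hfib : ∀ f, (fib f).card ≤ 2) (τ : J → ℝ)
    (R : ℕ × J → ℝ) {y y' : ℕ × J → ℝ} (hy : Box y) (hy' : Box y') {D : ℝ} (hD : 0 ≤ D)
    (h : ∀ l : ℕ × J, |y l - y' l| ≤ D * 2 ^ l.1) (k : ℕ × J) :
    |Tmap π fib Ψ τ R y k - Tmap π fib Ψ τ R y' k| ≤ (D / 2) * 2 ^ k.1 := by
  unfold Tmap
  refine (abs_clip_sub_le _ _).trans ?_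
  set a := Ψ (π k.2) (Xprior fib τ y k)
  set a' := Ψ (π k.2) (Xprior fib τ y' k)
  have hlip : |a - a'| ≤ 2 * (D * 2 ^ k.1) :=
    hΨ.lip _ _ _ _ (fun f => Xprior_lip hfib τ hy hy' hD h k f)
  have hb' : |a'| ≤ 1 := hΨ.bdd _ _
  obtain ⟨hu0, hu1⟩ := hy k
  obtain ⟨hv0, hv1⟩ := hy' k
  have huv := h k
  set u := y k
  set v := y' k
  have hP : 0 ≤ D * 2 ^ k.1 := by positivity
  have e : R k - eps * a * (u ^ 2 - u) - (R k - eps * a' * (v ^ 2 - v)) =
      -(eps * ((a - a') * (u ^ 2 - u) + a' * ((u - v) * (u + v - 1)))) := by ring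
  rw [e, abs_neg, abs_mul, show |eps| = 1 / 10 by norm_num [eps]]
  have t1 : |(a - a') * (u ^ 2 - u)| ≤ 2 * (D * 2 ^ k.1) * (1 / 4) := by
    rw [abs_mul]
    refine mul_le_mul hlip ?_ (abs_nonneg _) (by positivity)
    rw [abs_le]
    constructor
    · nlinarith [sq_nonneg (u - 1 / 2)]
    · nlinarith
  have t2 : |a' * ((u - v) * (u + v - 1))| ≤ 1 * (D * 2 ^ k.1) := by
    rw [abs_mul, abs_mul]
    have h3 : |u + v - 1| ≤ 1 := by
      rw [abs_le]
      constructor <;> linarith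
    refine mul_le_mul hb' ?_ (by positivity) zero_le_one
    calc |u - v| * |u + v - 1| ≤ (D * 2 ^ k.1) * 1 :=
          mul_le_mul huv h3 (abs_nonneg _) hP
      _ = D * 2 ^ k.1 := mul_one _
  have t3 := abs_add_le ((a - a') * (u ^ 2 - u)) (a' * ((u - v) * (u + v - 1)))
  have : D / 2 * 2 ^ k.1 = (1 / 2) * (D * 2 ^ k.1) := by ring
  rw [this]
  nlinarith

lemma iter_step (hΨ : DriftOK Ψ) (hfib : ∀ f, (fib f).card ≤ 2) (τ : J → ℝ) (R : ℕ × J → ℝ)
    (m : ℕ) (k : ℕ × J) :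
    |iter π fib Ψ τ R m k - iter π fib Ψ τ R (m + 1) k| ≤ (1 / 2) ^ m * 2 ^ k.1 := by
  induction m generalizing k with
  | zero =>
    have h1 := iter_box (π := π) (fib := fib) (Ψ := Ψ) τ R 0 k
    have h2 := iter_box (π := π) (fib := fib) (Ψ := Ψ) τ R (0 + 1) k
    have h3 : (1 : ℝ) ≤ 2 ^ k.1 := one_le_pow₀ (by norm_num)
    simp only [pow_zero, one_mul]
    refine le_trans ?_ h3
    rw [abs_le]
    constructor <;> linarith [h1.1, h1.2, h2.1, h2.2]
  | succ m ih =>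
    rw [iter_succ, iter_succ (m := m + 1), iter_succ]
    have := Tmap_contract (π := π) hΨ hfib τ R (iter_box (π := π) (fib := fib) (Ψ := Ψ) τ R m)
      (Tmap_box τ R _) (D := (1 / 2) ^ m) (by positivity)
      (fun l => by simpa [iter_succ] using ih l) k
    rw [← iter_succ] at this ⊢
    convert this using 1
    ring

lemma iter_cauchy (hΨ : DriftOK Ψ) (hfib : ∀ f, (fib f).card ≤ 2) (τ : J → ℝ) (R : ℕ × J → ℝ)
    (k : ℕ × J) : CauchySeq (fun m => iter π fib Ψ τ R m k) := by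
  refine cauchySeq_of_le_geometric (1 / 2) (2 ^ k.1) (by norm_num) fun m => ?_
  rw [Real.dist_eq, mul_comm]
  exact iter_step hΨ hfib τ R m k

lemma iter_tendsto (hΨ : DriftOK Ψ) (hfib : ∀ f, (fib f).card ≤ 2) (τ : J → ℝ) (R : ℕ × J → ℝ)
    (k : ℕ × J) : Tendsto (fun m => iter π fib Ψ τ R m k) atTop (𝓝 (Gsol π fib Ψ τ R k)) :=
  (iter_cauchy hΨ hfib τ R k).tendsto_limUnder

lemma iter_sub_Gsol (hΨ : DriftOK Ψ) (hfib : ∀ f, (fib f).card ≤ 2) (τ : J → ℝ) (R : ℕ × J → ℝ)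
    (m : ℕ) (k : ℕ × J) :
    |iter π fib Ψ τ R m k - Gsol π fib Ψ τ R k| ≤ (2 * (1 / 2) ^ m) * 2 ^ k.1 := by
  have h := dist_le_of_le_geometric_of_tendsto (r := 1 / 2) (C := 2 ^ k.1) (by norm_num)
    (f := fun m => iter π fib Ψ τ R m k) (fun m => by
      rw [Real.dist_eq, mul_comm]
      exact iter_step hΨ hfib τ R m k) (iter_tendsto hΨ hfib τ R k) m
  rw [Real.dist_eq] at h
  refine h.trans (le_of_eq ?_)
  ring

lemma Gsol_box (hΨ : DriftOK Ψ) (hfib : ∀ f, (fib f).card ≤ 2) (τ : J → ℝ) (R : ℕ × J → ℝ) :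
    Box (Gsol π fib Ψ τ R) := fun k =>
  isClosed_Icc.mem_of_tendsto (iter_tendsto hΨ hfib τ R k)
    (Eventually.of_forall fun m => iter_box τ R m k)

lemma Gsol_fix (hΨ : DriftOK Ψ) (hfib : ∀ f, (fib f).card ≤ 2) (τ : J → ℝ) (R : ℕ × J → ℝ) :
    Tmap π fib Ψ τ R (Gsol π fib Ψ τ R) = Gsol π fib Ψ τ R := by
  funext k
  have h1 : Tendsto (fun m => iter π fib Ψ τ R (m + 1) k) atTop (𝓝 (Gsol π fib Ψ τ R k)) :=
    (iter_tendsto hΨ hfib τ R k).comp (tendsto_add_atTop_nat 1)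
  have h2 : Tendsto (fun m => iter π fib Ψ τ R (m + 1) k) atTop
      (𝓝 (Tmap π fib Ψ τ R (Gsol π fib Ψ τ R) k)) := by
    rw [tendsto_iff_dist_tendsto_zero]
    refine squeeze_zero (g := fun m : ℕ => ((1 / 2 : ℝ) ^ m) * 2 ^ k.1) (fun _ => dist_nonneg)
      (fun m => ?_) ?_
    · rw [iter_succ, Real.dist_eq]
      refine (Tmap_contract hΨ hfib τ R (iter_box τ R m) (Gsol_box hΨ hfib τ R)
        (D := 2 * (1 / 2) ^ m) (by positivity) (iter_sub_Gsol hΨ hfib τ R m) k).trans (le_of_eq ?_)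
      ring
    · have := (tendsto_pow_atTop_nhds_zero_of_lt_one (r := (1 / 2 : ℝ)) (by norm_num)
        (by norm_num)).mul_const ((2 : ℝ) ^ k.1)
      simpa using this
  exact tendsto_nhds_unique h2 h1

lemma fix_unique (hΨ : DriftOK Ψ) (hfib : ∀ f, (fib f).card ≤ 2) (τ : J → ℝ) (R : ℕ × J → ℝ)
    {y y' : ℕ × J → ℝ} (hy : Box y) (hy' : Box y') (h : Tmap π fib Ψ τ R y = y)
    (h' : Tmap π fib Ψ τ R y' = y') : y = y' := by
  have key : ∀ (m : ℕ) (l : ℕ × J), |y l - y' l| ≤ ((1 / 2 : ℝ) ^ m) * 2 ^ l.1 := by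
    intro m
    induction m with
    | zero =>
      intro l
      have h3 : (1 : ℝ) ≤ 2 ^ l.1 := one_le_pow₀ (by norm_num)
      simp only [pow_zero, one_mul]
      refine le_trans ?_ h3
      rw [abs_le]
      constructor <;> linarith [(hy l).1, (hy l).2, (hy' l).1, (hy' l).2]
    | succ m ih =>
      intro l
      have := Tmap_contract (π := π) hΨ hfib τ R hy hy' (D := (1 / 2) ^ m) (by positivity) ih l
      rw [h, h'] at this
      refine this.trans (le_of_eq ?_)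
      ring
  funext l
  have hlim : Tendsto (fun m : ℕ => ((1 / 2 : ℝ) ^ m) * 2 ^ l.1) atTop (𝓝 0) := by
    have := (tendsto_pow_atTop_nhds_zero_of_lt_one (r := (1 / 2 : ℝ)) (by norm_num)
      (by norm_num)).mul_const ((2 : ℝ) ^ l.1)
    simpa using this
  have : |y l - y' l| ≤ 0 := ge_of_tendsto' hlim fun m => key m l
  have := abs_nonpos_iff.mp this
  linarith

/-- Every point of the box is the solution driven by its own innovation. -/
lemma Gsol_Inn (hΨ : DriftOK Ψ) (hfib : ∀ f, (fib f).card ≤ 2) (τ : J → ℝ) {y : ℕ × J → ℝ}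
    (hy : Box y) : Gsol π fib Ψ τ (Inn π fib Ψ τ y) = y := by
  refine fix_unique hΨ hfib τ (Inn π fib Ψ τ y) (Gsol_box hΨ hfib τ _) hy (Gsol_fix hΨ hfib τ _) ?_
  funext k
  unfold Tmap Inn Tc
  have : y k + eps * Ψ (π k.2) (Xprior fib τ y k) * ((y k) ^ 2 - y k) -
      eps * Ψ (π k.2) (Xprior fib τ y k) * ((y k) ^ 2 - y k) = y k := by ring
  rw [this]
  exact clip_of_mem (hy k)

/-! ### Measurability -/

lemma measurableSet_prec (i : ℕ) (j : J) (k : ℕ × J) {A : Type*} [MeasurableSpace A]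
    {t : A → J → ℝ} (ht : ∀ j, Measurable fun a => t a j) :
    MeasurableSet {a : A | prec (t a) (i, j) k} := by
  by_cases h1 : i < k.1
  · have : {a : A | prec (t a) (i, j) k} = Set.univ := by
      ext a
      simp [prec, h1]
    rw [this]
    exact MeasurableSet.univ
  · by_cases h2 : i = k.1
    · have : {a : A | prec (t a) (i, j) k} = {a : A | t a j < t a k.2} := by
        ext a
        simp [prec, h2]
      rw [this]
      exact measurableSet_lt (ht _) (ht _)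
    · have : {a : A | prec (t a) (i, j) k} = ∅ := by
        ext a
        simp [prec, h1, h2]
      rw [this]
      exact MeasurableSet.empty

lemma measurable_Xprior {A : Type*} [MeasurableSpace A] {t : A → J → ℝ}
    (ht : ∀ j, Measurable fun a => t a j) {g : A → ℕ × J → ℝ}
    (hg : ∀ l, Measurable fun a => g a l) (k : ℕ × J) :
    Measurable fun a => Xprior fib (t a) (g a) k := by
  refine measurable_pi_iff.mpr fun f => ?_
  unfold Xprior
  refine Finset.measurable_sum _ fun i _ => Finset.measurable_sum _ fun j _ => ?_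
  exact Measurable.ite (measurableSet_prec i j k ht) (measurable_phi.comp (hg _)) measurable_const

lemma measurable_Tmap (hΨ : DriftOK Ψ) {A : Type*} [MeasurableSpace A] {t : A → J → ℝ}
    (ht : ∀ j, Measurable fun a => t a j) {r g : A → ℕ × J → ℝ}
    (hr : ∀ l, Measurable fun a => r a l) (hg : ∀ l, Measurable fun a => g a l) (k : ℕ × J) :
    Measurable fun a => Tmap π fib Ψ (t a) (r a) (g a) k := by
  unfold Tmap
  refine measurable_clip.comp ?_
  have h1 : Measurable fun a => Ψ (π k.2) (Xprior fib (t a) (g a) k) :=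
    (hΨ.meas _).comp (measurable_Xprior ht hg k)
  exact (hr k).sub ((h1.const_mul eps).mul (((hg k).pow_const 2).sub (hg k)))

lemma measurable_iter (hΨ : DriftOK Ψ) {A : Type*} [MeasurableSpace A] {t : A → J → ℝ}
    (ht : ∀ j, Measurable fun a => t a j) {r : A → ℕ × J → ℝ}
    (hr : ∀ l, Measurable fun a => r a l) (m : ℕ) (k : ℕ × J) :
    Measurable fun a => iter π fib Ψ (t a) (r a) m k := by
  induction m generalizing k with
  | zero => simp [iter]
  | succ m ih =>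
    simp only [iter_succ]
    exact measurable_Tmap hΨ ht hr (fun l => ih l) k

lemma measurable_Gsol (hΨ : DriftOK Ψ) (hfib : ∀ f, (fib f).card ≤ 2) {A : Type*}
    [MeasurableSpace A] {t : A → J → ℝ}
    (ht : ∀ j, Measurable fun a => t a j) {r : A → ℕ × J → ℝ}
    (hr : ∀ l, Measurable fun a => r a l) (k : ℕ × J) :
    Measurable fun a => Gsol π fib Ψ (t a) (r a) k :=
  measurable_of_tendsto_metrizable (f := fun m a => iter π fib Ψ (t a) (r a) m k)
    (fun m => measurable_iter hΨ ht hr m k)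
    (tendsto_pi_nhds.mpr fun a => iter_tendsto hΨ hfib (t a) (r a) k)

/-- `Inn` is measurable in `y`. -/
lemma measurable_Inn (hΨ : DriftOK Ψ) (τ : J → ℝ) (k : ℕ × J) :
    Measurable fun y : ℕ × J → ℝ => Inn π fib Ψ τ y k := by
  unfold Inn Tc
  have h1 : Measurable fun y : ℕ × J → ℝ => Ψ (π k.2) (Xprior fib τ y k) :=
    (hΨ.meas _).comp (measurable_Xprior (t := fun _ => τ) (fun _ => measurable_const)
      (fun l => measurable_pi_apply l) k)
  have h2 : Measurable fun y : ℕ × J → ℝ => y k := measurable_pi_apply k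
  exact h2.add ((h1.const_mul eps).mul ((h2.pow_const 2).sub h2))

/-! ### Equivariance -/

section Equivariance

variable (a : J ≃ J) (b : E ≃ E)

/-- Relabelling of the steps. -/
def stepMap (a : J ≃ J) (k : ℕ × J) : ℕ × J := (k.1, a k.2)

lemma Xprior_map (hfib : ∀ f, fib (b f) = (fib f).map a.toEmbedding) (τ : J → ℝ)
    (y : ℕ × J → ℝ) (k : ℕ × J) (f : E) :
    Xprior fib (τ ∘ a) (y ∘ stepMap a) k f = Xprior fib τ y (stepMap a k) (b f) := by
  unfold Xprior
  simp only [hfib, Finset.sum_map]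
  refine Finset.sum_congr rfl fun i _ => Finset.sum_congr rfl fun j _ => ?_
  have : prec (τ ∘ a) (i, j) k ↔ prec τ (i, a j) (stepMap a k) := by
    simp [prec, stepMap]
  by_cases hp : prec τ (i, a j) (stepMap a k)
  · rw [if_pos (this.mpr hp)]
    exact (if_pos hp).symm
  · rw [if_neg (fun h => hp (this.mp h))]
    exact (if_neg hp).symm

lemma Tmap_map (hπ : ∀ j, π (a j) = b (π j)) (hfib : ∀ f, fib (b f) = (fib f).map a.toEmbedding)
    (hΨ : ∀ e X, Ψ (b e) X = Ψ e (fun f => X (b f))) (τ : J → ℝ) (R y : ℕ × J → ℝ) :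
    Tmap π fib Ψ (τ ∘ a) (R ∘ stepMap a) (y ∘ stepMap a) =
      (Tmap π fib Ψ τ R y) ∘ stepMap a := by
  funext k
  simp only [Tmap, Function.comp]
  have h1 : Ψ (π k.2) (Xprior fib (τ ∘ a) (y ∘ stepMap a) k) =
      Ψ (π (stepMap a k).2) (Xprior fib τ y (stepMap a k)) := by
    have e1 : (stepMap a k).2 = a k.2 := rfl
    rw [e1, hπ, hΨ]
    congr 1
    funext f
    exact Xprior_map a b hfib τ y k f
  rw [h1]

lemma iter_map (hπ : ∀ j, π (a j) = b (π j)) (hfib : ∀ f, fib (b f) = (fib f).map a.toEmbedding)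
    (hΨ : ∀ e X, Ψ (b e) X = Ψ e (fun f => X (b f))) (τ : J → ℝ) (R : ℕ × J → ℝ) (m : ℕ) :
    iter π fib Ψ (τ ∘ a) (R ∘ stepMap a) m = (iter π fib Ψ τ R m) ∘ stepMap a := by
  induction m with
  | zero => rfl
  | succ m ih =>
    rw [iter_succ, iter_succ, ih, Tmap_map a b hπ hfib hΨ]

lemma Gsol_map (hd : DriftOK Ψ) (hfibc : ∀ f, (fib f).card ≤ 2)
    (hπ : ∀ j, π (a j) = b (π j)) (hfib : ∀ f, fib (b f) = (fib f).map a.toEmbedding)
    (hΨ : ∀ e X, Ψ (b e) X = Ψ e (fun f => X (b f))) (τ : J → ℝ) (R : ℕ × J → ℝ) :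
    Gsol π fib Ψ (τ ∘ a) (R ∘ stepMap a) = (Gsol π fib Ψ τ R) ∘ stepMap a := by
  funext k
  have h1 := iter_tendsto (π := π) hd hfibc (τ ∘ a) (R ∘ stepMap a) k
  have h2 := iter_tendsto (π := π) hd hfibc τ R (stepMap a k)
  simp only [iter_map a b hπ hfib hΨ, Function.comp] at h1
  exact tendsto_nhds_unique h1 h2

end Equivariance

end

end Vale.Agent.Lib.P143
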