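import Vale.Agent.Lib.P143.Tilt
import Vale.Agent.Lib.P143.Picard

/-!
# P143: the observation channel
-/

namespace Vale.Agent.Lib.P143

open MeasureTheory Filter Topology Finset ProbabilityTheory

open scoped Classical ENNReal

noncomputable section

variable {E J : Type*}

/-- Uniform law on `[0,1]`. -/
def unit : Measure ℝ := volume.restrict (Set.Icc 0 1)

instance : IsProbabilityMeasure unit := ⟨by simp [unit]⟩

/-- Density of the channel. -/
def dens (c y : ℝ) : ℝ := 1 + c * (2 * y - 1)

lemma dens_nonneg {c y : ℝ} (hc : |c| ≤ 1) (hy : y ∈ Set.Icc (0 : ℝ) 1) : 0 ≤ dens c y := by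
  unfold dens
  have := abs_le.mp hc
  nlinarith [hy.1, hy.2]

lemma measurable_dens_joint : Measurable fun p : ℝ × ℝ => dens p.1 p.2 := by
  unfold dens
  fun_prop

lemma measurable_dens (c : ℝ) : Measurable (dens c) := by
  unfold dens
  fun_prop

lemma ae_unit_mem : ∀ᵐ y ∂unit, y ∈ Set.Icc (0 : ℝ) 1 := by
  unfold unit
  exact ae_restrict_mem measurableSet_Icc

lemma integral_unit_eq (g : ℝ → ℝ) : ∫ y, g y ∂unit = ∫ y in (0 : ℝ)..1, g y := by
  unfold unit
  rw [intervalIntegral.integral_of_le zero_le_one, integral_Icc_eq_integral_Ioc]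

lemma integrable_unit_of_bdd {g : ℝ → ℝ} (hg : Measurable g) {C : ℝ}
    (hC : ∀ y ∈ Set.Icc (0 : ℝ) 1, |g y| ≤ C) : Integrable g unit := by
  refine Integrable.of_bound hg.aestronglyMeasurable C ?_
  filter_upwards [ae_unit_mem] with y hy
  exact hC y hy

lemma abs_dens_le {c y : ℝ} (hc : |c| ≤ 1) (hy : y ∈ Set.Icc (0 : ℝ) 1) : |dens c y| ≤ 2 := by
  have h1 := dens_nonneg hc hy
  rw [abs_of_nonneg h1]
  unfold dens
  have := abs_le.mp hc
  nlinarith [hy.1, hy.2]

lemma integrable_dens (c : ℝ) (hc : |c| ≤ 1) : Integrable (dens c) unit :=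
  integrable_unit_of_bdd (measurable_dens c) (fun _ hy => abs_dens_le hc hy)

lemma integral_dens (c : ℝ) : ∫ y, dens c y ∂unit = 1 := by
  rw [integral_unit_eq]
  unfold dens
  have h : ∫ y in (0 : ℝ)..1, (1 + c * (2 * y - 1)) = 1 := by
    have hd : ∀ x ∈ Set.uIcc (0 : ℝ) 1, HasDerivAt (fun y => y + c * (y ^ 2 - y))
        (1 + c * (2 * x - 1)) x := by
      intro x _
      have h1 : HasDerivAt (fun y : ℝ => y ^ 2 - y) (2 * x - 1) x :=
        ((hasDerivAt_pow 2 x).fun_sub (hasDerivAt_id' x)).congr_deriv (by norm_num)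
      exact (hasDerivAt_id' x).add (h1.const_mul c)
    rw [intervalIntegral.integral_eq_sub_of_hasDerivAt hd
      (Continuous.intervalIntegrable (by fun_prop) _ _)]
    norm_num
  exact h

/-- Law of a channel output with drift `c`. -/
def nu (c : ℝ) : Measure ℝ := unit.withDensity fun y => ENNReal.ofReal (dens c y)

lemma nu_apply (c : ℝ) (hc : |c| ≤ 1) {t : Set ℝ} (ht : MeasurableSet t) :
    nu c t = ENNReal.ofReal (∫ y in t, dens c y ∂unit) := by
  unfold nu
  rw [withDensity_apply _ ht, ofReal_integral_eq_lintegral_ofReal (integrable_dens c hc).integrableOn]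
  filter_upwards [ae_restrict_of_ae ae_unit_mem] with y hy
  exact dens_nonneg hc hy

lemma isProb_nu (c : ℝ) (hc : |c| ≤ 1) : IsProbabilityMeasure (nu c) := by
  constructor
  rw [nu_apply c hc MeasurableSet.univ]
  simp [integral_dens]

/-- Integrals against `nu c`. -/
lemma integral_nu (c : ℝ) (hc : |c| ≤ 1) (g : ℝ → ℝ) :
    ∫ y, g y ∂(nu c) = ∫ y, g y * dens c y ∂unit := by
  unfold nu
  have hm : AEMeasurable (fun y => ENNReal.ofReal (dens c y)) unit :=
    ((measurable_dens c).ennreal_ofReal).aemeasurable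
  rw [integral_withDensity_eq_integral_toReal_smul₀ hm (by simp)]
  refine integral_congr_ae ?_
  filter_upwards [ae_unit_mem] with y hy
  rw [ENNReal.toReal_ofReal (dens_nonneg hc hy), smul_eq_mul, mul_comm]

lemma Tc_zero (c : ℝ) : Tc c 0 = 0 := by simp [Tc]

lemma Tc_one (c : ℝ) : Tc c 1 = 1 := by simp [Tc]

lemma hasDerivAt_Tc (c x : ℝ) : HasDerivAt (Tc c) (dens c x) x := by
  unfold Tc dens
  have h1 : HasDerivAt (fun y : ℝ => y ^ 2 - y) (2 * x - 1) x :=
    ((hasDerivAt_pow 2 x).fun_sub (hasDerivAt_id' x)).congr_deriv (by norm_num)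
  exact (hasDerivAt_id' x).add (h1.const_mul c)

lemma measurable_Tc_joint : Measurable fun p : ℝ × ℝ => Tc p.1 p.2 := by
  unfold Tc
  fun_prop

lemma measurable_Tc (c : ℝ) : Measurable (Tc c) := by
  unfold Tc
  fun_prop

lemma continuous_Tc (c : ℝ) : Continuous (Tc c) := by
  unfold Tc
  fun_prop

/-- `T_c` transports `nu c` to the uniform law. -/
lemma map_Tc_nu (c : ℝ) (hc : |c| ≤ 1) : (nu c).map (Tc c) = unit := by
  have := isProb_nu c hc
  have : IsProbabilityMeasure ((nu c).map (Tc c)) :=
    Measure.isProbabilityMeasure_map (measurable_Tc c).aemeasurable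
  refine ext_of_forall_integral_eq_of_IsFiniteMeasure fun g => ?_
  rw [integral_map (measurable_Tc c).aemeasurable g.continuous.aestronglyMeasurable,
    integral_nu c hc, integral_unit_eq, integral_unit_eq]
  have := intervalIntegral.integral_comp_mul_deriv (a := 0) (b := 1) (f := Tc c) (f' := dens c)
    (g := g) (fun x _ => hasDerivAt_Tc c x)
    (by unfold dens; fun_prop) g.continuous
  rw [Tc_zero, Tc_one] at this
  exact this

/-- The channel law at spin `b`. -/
def nuB (b : Bool) : Measure ℝ := nu (eps * sg b)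

lemma abs_eps_sg (b : Bool) : |eps * sg b| ≤ 1 := by
  rw [abs_mul, abs_sg]
  norm_num [eps]

instance (b : Bool) : IsProbabilityMeasure (nuB b) := isProb_nu _ (abs_eps_sg b)

/-- Law of all observations given the spins. -/
def Qs (π : J → E) (s : E → Bool) : Measure (ℕ × J → ℝ) :=
  Measure.infinitePi fun k : ℕ × J => nuB (s (π k.2))

instance (π : J → E) (s : E → Bool) : IsProbabilityMeasure (Qs π s) := by
  unfold Qs
  infer_instance

lemma measurable_Qs (π : J → E) : Measurable (Qs π) := by
  refine Measurable.measure_of_isPiSystem_of_isProbabilityMeasure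
    generateFrom_squareCylinders.symm
    (isPiSystem_squareCylinders (fun _ => MeasurableSpace.isPiSystem_measurableSet) (by simp)) ?_
  rintro S ⟨I, t, ht, rfl⟩
  have htm : ∀ i ∈ I, MeasurableSet (t i) := fun i _ => ht i (Set.mem_univ i)
  have : (fun s => Qs π s ((I : Set (ℕ × J)).pi t)) =
      fun s => ∏ i ∈ I, nuB (s (π i.2)) (t i) := by
    funext s
    exact Measure.infinitePi_pi _ htm
  rw [this]
  refine Finset.measurable_prod _ fun i _ => ?_
  have h1 : Measurable fun b : Bool => nuB b (t i) := measurable_of_countable _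
  exact h1.comp (measurable_pi_apply _)

/-- The observation kernel. -/
def Qk (π : J → E) : Kernel (E → Bool) (ℕ × J → ℝ) := ⟨Qs π, measurable_Qs π⟩

instance (π : J → E) : IsMarkovKernel (Qk π) := ⟨fun s => by
  show IsProbabilityMeasure (Qs π s)
  infer_instance⟩

/-- Joint law of spins and observations. -/
def Pj (μ : Measure (E → Bool)) (π : J → E) : Measure ((E → Bool) × (ℕ × J → ℝ)) := μ ⊗ₘ Qk π

instance (μ : Measure (E → Bool)) [IsProbabilityMeasure μ] (π : J → E) :
    IsProbabilityMeasure (Pj μ π) := by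
  unfold Pj
  infer_instance

lemma integral_Pj (μ : Measure (E → Bool)) [IsProbabilityMeasure μ] (π : J → E)
    {F : (E → Bool) × (ℕ × J → ℝ) → ℝ} (hF : Integrable F (Pj μ π)) :
    ∫ p, F p ∂(Pj μ π) = ∫ s, ∫ y, F (s, y) ∂(Qs π s) ∂μ :=
  Measure.integral_compProd hF

lemma Pj_map_fst (μ : Measure (E → Bool)) [IsProbabilityMeasure μ] (π : J → E) :
    (Pj μ π).map Prod.fst = μ := by
  unfold Pj
  exact Measure.fst_compProd _ _

/-- Resampling one coordinate of an infinite product. -/
lemma infinitePi_update {ι : Type*} [DecidableEq ι] (ρ : ι → Measure ℝ)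
    [∀ i, IsProbabilityMeasure (ρ i)] (k : ι) :
    ((Measure.infinitePi ρ).prod (ρ k)).map (fun p => Function.update p.1 k p.2) =
      Measure.infinitePi ρ := by
  refine Measure.eq_infinitePi _ fun I t ht => ?_
  have hm : Measurable fun p : (ι → ℝ) × ℝ => Function.update p.1 k p.2 := measurable_update'
  have hbox : MeasurableSet ((I : Set ι).pi t) :=
    MeasurableSet.pi I.countable_toSet fun i _ => ht i
  rw [Measure.map_apply hm hbox]
  by_cases hk : k ∈ I
  · have : (fun p : (ι → ℝ) × ℝ => Function.update p.1 k p.2) ⁻¹' ((I : Set ι).pi t) =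
        (((I.erase k : Finset ι) : Set ι).pi t) ×ˢ t k := by
      ext ⟨y, v⟩
      simp only [Set.mem_preimage, Set.mem_pi, Finset.mem_coe, Set.mem_prod, Finset.mem_erase]
      constructor
      · intro h
        refine ⟨fun i hi => ?_, ?_⟩
        · simpa [Function.update_of_ne hi.1] using h i hi.2
        · simpa using h k hk
      · rintro ⟨h1, h2⟩ i hi
        by_cases hik : i = k
        · subst hik
          simpa using h2
        · simpa [Function.update_of_ne hik] using h1 i ⟨hik, hi⟩
    rw [this, Measure.prod_prod, Measure.infinitePi_pi _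
      (fun i _ => ht i), ← Finset.prod_erase_mul I _ hk]
  · have : (fun p : (ι → ℝ) × ℝ => Function.update p.1 k p.2) ⁻¹' ((I : Set ι).pi t) =
        ((I : Set ι).pi t) ×ˢ Set.univ := by
      ext ⟨y, v⟩
      simp only [Set.mem_preimage, Set.mem_pi, Finset.mem_coe, Set.mem_prod, Set.mem_univ,
        and_true]
      constructor
      · intro h i hi
        have hne : i ≠ k := fun h' => hk (h' ▸ hi)
        simpa [Function.update_of_ne hne] using h i hi
      · intro h i hi
        have hne : i ≠ k := fun h' => hk (h' ▸ hi)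
        simpa [Function.update_of_ne hne] using h i hi
    rw [this, Measure.prod_prod, Measure.infinitePi_pi _ (fun i _ => ht i)]
    simp

/-- Resampling formula for integrals. -/
lemma integral_infinitePi_update {ι : Type*} [DecidableEq ι] (ρ : ι → Measure ℝ)
    [∀ i, IsProbabilityMeasure (ρ i)] (k : ι) {F : (ι → ℝ) → ℝ} (hF : Measurable F) {C : ℝ} (hC : ∀ y, |F y| ≤ C) :
    ∫ y, F y ∂(Measure.infinitePi ρ) =
      ∫ y, ∫ v, F (Function.update y k v) ∂(ρ k) ∂(Measure.infinitePi ρ) := by
  have hm : Measurable fun p : (ι → ℝ) × ℝ => Function.update p.1 k p.2 := measurable_update'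
  conv_lhs => rw [← infinitePi_update ρ k]
  rw [integral_map hm.aemeasurable hF.aestronglyMeasurable]
  refine integral_prod _ ?_
  refine Integrable.of_bound (hF.comp hm).aestronglyMeasurable C ?_
  exact Eventually.of_forall fun p => by simpa using hC _

end

end Vale.Agent.Lib.P143
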