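import Vale.Agent.Lib.P143.Innovation

/-!
# P143: law of large numbers and the abstract factor theorem
-/

namespace Vale.Agent.Lib.P143

open MeasureTheory Filter Topology Finset ProbabilityTheory

open scoped Classical ENNReal

noncomputable section

variable {E J : Type*}

/-- Cesaro averages of the observations of observer `j`. -/
def avgSeq (y : ℕ × J → ℝ) (j : J) (n : ℕ) : ℝ := (∑ i ∈ range n, y (i, j)) / n

/-- Recover the spins from the observations. -/
def recS (fib : E → Finset J) (y : ℕ × J → ℝ) (e : E) : Bool :=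
  decide (∃ j ∈ fib e, (1 / 2 : ℝ) < limsup (fun n => avgSeq y j n) atTop)

lemma ae_nuB_mem (b : Bool) : ∀ᵐ y ∂(nuB b), y ∈ Set.Icc (0 : ℝ) 1 :=
  (withDensity_absolutelyContinuous _ _).ae_le ae_unit_mem

lemma integrable_id_nuB (b : Bool) : Integrable (fun y : ℝ => y) (nuB b) := by
  refine Integrable.of_bound measurable_id.aestronglyMeasurable 1 ?_
  filter_upwards [ae_nuB_mem b] with y hy
  rw [Real.norm_eq_abs, abs_le]
  constructor <;> linarith [hy.1, hy.2]

lemma integral_id_nuB (b : Bool) : ∫ y, y ∂(nuB b) = 1 / 2 + eps * sg b / 6 := by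
  unfold nuB
  rw [integral_nu _ (abs_eps_sg b), integral_unit_eq]
  have hd : ∀ x ∈ Set.uIcc (0 : ℝ) 1, HasDerivAt
      (fun y => (1 - eps * sg b) * y ^ 2 / 2 + (2 * (eps * sg b)) * y ^ 3 / 3)
      (x * dens (eps * sg b) x) x := by
    intro x _
    have h1 := ((hasDerivAt_pow 2 x).const_mul (1 - eps * sg b)).div_const 2
    have h2 := ((hasDerivAt_pow 3 x).const_mul (2 * (eps * sg b))).div_const 3
    refine (h1.fun_add h2).congr_deriv ?_
    unfold dens
    norm_num
    ring
  rw [intervalIntegral.integral_eq_sub_of_hasDerivAt hd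
    (Continuous.intervalIntegrable (by unfold dens; fun_prop) _ _)]
  norm_num
  ring

lemma ae_Qs_avg (π : J → E) (s : E → Bool) (j : J) :
    ∀ᵐ y ∂(Qs π s), Tendsto (fun n => avgSeq y j n) atTop (𝓝 (1 / 2 + eps * sg (s (π j)) / 6)) := by
  have hind : iIndepFun (fun (k : ℕ × J) (y : ℕ × J → ℝ) => y k) (Qs π s) :=
    iIndepFun_infinitePi (P := fun k : ℕ × J => nuB (s (π k.2))) (X := fun _ v => v)
      (fun _ => measurable_id)
  have hmap : ∀ i : ℕ, (Qs π s).map (fun y : ℕ × J → ℝ => y (i, j)) = nuB (s (π j)) := fun i =>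
    Measure.infinitePi_map_eval (fun k : ℕ × J => nuB (s (π k.2))) (i, j)
  have hev : ∀ i : ℕ, Measurable fun y : ℕ × J → ℝ => y (i, j) := fun i => measurable_pi_apply _
  have hint : Integrable (fun y : ℕ × J → ℝ => y (0, j)) (Qs π s) := by
    have := integrable_id_nuB (s (π j))
    rw [← hmap 0] at this
    exact (integrable_map_measure measurable_id.aestronglyMeasurable (hev 0).aemeasurable).mp this
  have := strong_law_ae_real (μ := Qs π s) (fun (i : ℕ) (y : ℕ × J → ℝ) => y (i, j)) hint
    (fun i i' hne => hind.indepFun (by simpa using hne))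
    (fun i => ⟨(hev i).aemeasurable, (hev 0).aemeasurable, by rw [hmap, hmap]⟩)
  filter_upwards [this] with y hy
  have h2 : ∫ y : ℕ × J → ℝ, y (0, j) ∂(Qs π s) = 1 / 2 + eps * sg (s (π j)) / 6 := by
    rw [← integral_id_nuB, ← hmap 0, integral_map (hev 0).aemeasurable (f := fun v : ℝ => v)
      measurable_id.aestronglyMeasurable]
  rw [h2] at hy
  exact hy

lemma recS_eq_of_tendsto {π : J → E} {fib : E → Finset J} (hfib : ∀ f j, j ∈ fib f ↔ π j = f)
    (hne : ∀ e, (fib e).Nonempty) {s : E → Bool} {y : ℕ × J → ℝ}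
    (h : ∀ j, Tendsto (fun n => avgSeq y j n) atTop (𝓝 (1 / 2 + eps * sg (s (π j)) / 6))) :
    recS fib y = s := by
  funext e
  have hlim : ∀ j ∈ fib e, limsup (fun n => avgSeq y j n) atTop = 1 / 2 + eps * sg (s e) / 6 := by
    intro j hj
    have := (h j).limsup_eq
    rwa [(hfib e j).mp hj] at this
  unfold recS
  cases hse : s e with
  | true =>
    obtain ⟨j0, hj0⟩ := hne e
    refine decide_eq_true ⟨j0, hj0, ?_⟩
    rw [hlim j0 hj0, hse]
    norm_num [eps]
  | false =>
    refine decide_eq_false ?_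
    rintro ⟨j, hj, hlt⟩
    rw [hlim j hj, hse] at hlt
    norm_num [eps] at hlt

lemma measurable_avgSeq_limsup (j : J) :
    Measurable fun y : ℕ × J → ℝ => limsup (fun n => avgSeq y j n) atTop := by
  refine Measurable.limsup fun n => ?_
  unfold avgSeq
  exact (Finset.measurable_sum _ fun i _ => measurable_pi_apply (i, j)).div_const _

lemma measurable_recS (fib : E → Finset J) : Measurable (recS fib : (ℕ × J → ℝ) → E → Bool) := by
  refine measurable_pi_iff.mpr fun e => measurable_to_bool ?_
  have : (fun y : ℕ × J → ℝ => recS fib y e) ⁻¹' {true} =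
      ⋃ j ∈ fib e, {y : ℕ × J → ℝ | (1 / 2 : ℝ) < limsup (fun n => avgSeq y j n) atTop} := by
    ext y
    simp [recS]
  rw [this]
  exact Finset.measurableSet_biUnion _ fun j _ =>
    measurableSet_lt measurable_const (measurable_avgSeq_limsup j)

lemma recS_map (fib : E → Finset J) (a : J ≃ J) (b : E ≃ E)
    (hfib : ∀ f, fib (b f) = (fib f).map a.toEmbedding) (y : ℕ × J → ℝ) (e : E) :
    recS fib (y ∘ stepMap a) e = recS fib y (b e) := by
  unfold recS
  have h : ∀ (j : J) (n : ℕ), avgSeq (y ∘ stepMap a) j n = avgSeq y (a j) n := by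
    intro j n
    rfl
  simp only [h, hfib]
  rw [decide_eq_decide]
  constructor
  · rintro ⟨j, hj, hlt⟩
    exact ⟨a j, Finset.mem_map_of_mem _ hj, hlt⟩
  · rintro ⟨j', hj', hlt⟩
    obtain ⟨j, hj, rfl⟩ := Finset.mem_map.mp hj'
    exact ⟨j, hj, hlt⟩

variable [Countable J]

lemma ae_Qs_box (π : J → E) (s : E → Bool) : ∀ᵐ y ∂(Qs π s), Box y := by
  have : Countable (ℕ × J) := inferInstance
  refine ae_all_iff.mpr fun k => ?_
  have hmap := Measure.infinitePi_map_eval (fun k : ℕ × J => nuB (s (π k.2))) k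
  have h := ae_nuB_mem (s (π k.2))
  rw [← hmap] at h
  exact ae_of_ae_map (measurable_pi_apply k).aemeasurable h

lemma ae_Qs_rec {π : J → E} {fib : E → Finset J} (hfib : ∀ f j, j ∈ fib f ↔ π j = f)
    (hne : ∀ e, (fib e).Nonempty) (s : E → Bool) : ∀ᵐ y ∂(Qs π s), recS fib y = s := by
  have : ∀ᵐ y ∂(Qs π s), ∀ j, Tendsto (fun n => avgSeq y j n) atTop
      (𝓝 (1 / 2 + eps * sg (s (π j)) / 6)) := ae_all_iff.mpr fun j => ae_Qs_avg π s j
  filter_upwards [this] with y hy
  exact recS_eq_of_tendsto hfib hne hy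

variable [Countable E]

lemma ae_Pj_good (μ : Measure (E → Bool)) [IsProbabilityMeasure μ] {π : J → E}
    {fib : E → Finset J} (hfib : ∀ f j, j ∈ fib f ↔ π j = f)
    (hne : ∀ e, (fib e).Nonempty) :
    ∀ᵐ p ∂(Pj μ π), Box p.2 ∧ recS fib p.2 = p.1 := by
  have hms : MeasurableSet {p : (E → Bool) × (ℕ × J → ℝ) | Box p.2 ∧ recS fib p.2 = p.1} := by
    have h1 : MeasurableSet {p : (E → Bool) × (ℕ × J → ℝ) | Box p.2} := by
      have : {p : (E → Bool) × (ℕ × J → ℝ) | Box p.2} =
          ⋂ k, {p | p.2 k ∈ Set.Icc (0 : ℝ) 1} := by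
        ext p
        simp [Box]
      rw [this]
      refine MeasurableSet.iInter fun k => ?_
      exact ((measurable_pi_apply k).comp measurable_snd) measurableSet_Icc
    have h2 : MeasurableSet {p : (E → Bool) × (ℕ × J → ℝ) | recS fib p.2 = p.1} := by
      have : {p : (E → Bool) × (ℕ × J → ℝ) | recS fib p.2 = p.1} =
          ⋂ e, {p | recS fib p.2 e = p.1 e} := by
        ext p
        simp [funext_iff]
      rw [this]
      refine MeasurableSet.iInter fun e => ?_
      exact measurableSet_eq_fun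
        ((measurable_pi_apply e).comp ((measurable_recS fib).comp measurable_snd))
        ((measurable_pi_apply e).comp measurable_fst)
    exact h1.inter h2
  refine Measure.ae_compProd_of_ae_ae hms (Eventually.of_forall fun s => ?_)
  show ∀ᵐ y ∂(Qs π s), Box y ∧ recS fib y = s
  filter_upwards [ae_Qs_box π s, ae_Qs_rec hfib hne s] with y h1 h2
  exact ⟨h1, h2⟩

/-- Data of the abstract factor theorem. -/
structure CoreData (μ : Measure (E → Bool)) (π : J → E) (fib : E → Finset J)
    (B : E → ℕ → Finset E) : Prop where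
  hfib : ∀ f j, j ∈ fib f ↔ π j = f
  hcard : ∀ f, (fib f).card ≤ 2
  hne : ∀ e, (fib e).Nonempty
  hBmono : ∀ e, Monotone (B e)
  hBex : ∀ e f, ∃ n, f ∈ B e n
  hBself : ∀ e n, e ∈ B e n
  hL : TiltLipschitz μ

lemma CoreData.drift {μ : Measure (E → Bool)} [IsProbabilityMeasure μ] {π : J → E}
    {fib : E → Finset J} {B : E → ℕ → Finset E} (h : CoreData μ π fib B) :
    DriftOK (Psi μ B) where
  bdd := abs_Psi_le μ B
  lip := Psi_lip μ h.hL B h.hBself
  meas := measurable_Psi μ B

/-- The factor map. -/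
def Theta (π : J → E) (fib : E → Finset J) (Ψ : E → (E → ℝ) → ℝ)
    (q : (J → ℝ) × (ℕ × J → ℝ)) : E → Bool :=
  recS fib (Gsol π fib Ψ q.1 q.2)

lemma measurable_Theta {μ : Measure (E → Bool)} [IsProbabilityMeasure μ] {π : J → E}
    {fib : E → Finset J} {B : E → ℕ → Finset E} (h : CoreData μ π fib B) :
    Measurable (Theta π fib (Psi μ B)) := by
  unfold Theta
  refine (measurable_recS fib).comp (measurable_pi_iff.mpr fun k => ?_)
  exact measurable_Gsol h.drift h.hcard (t := fun q : (J → ℝ) × (ℕ × J → ℝ) => q.1)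
    (fun j => (measurable_pi_apply j).comp measurable_fst)
    (r := fun q => q.2) (fun l => (measurable_pi_apply l).comp measurable_snd) k

/-- For a fixed injective labelling the factor map has the right law. -/
theorem law_fixed_tau {μ : Measure (E → Bool)} [IsProbabilityMeasure μ] {π : J → E}
    {fib : E → Finset J} {B : E → ℕ → Finset E} (h : CoreData μ π fib B) {τ : J → ℝ}
    (hτ : Function.Injective τ) :
    (Measure.infinitePi (fun _ : ℕ × J => unit)).map (fun R => Theta π fib (Psi μ B) (τ, R)) = μ := by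
  have hmeasR : Measurable fun R : ℕ × J → ℝ => Theta π fib (Psi μ B) (τ, R) :=
    (measurable_Theta h).comp (measurable_const.prodMk measurable_id)
  have hInn : Measurable fun p : (E → Bool) × (ℕ × J → ℝ) => Inn π fib (Psi μ B) τ p.2 :=
    measurable_pi_iff.mpr fun k => (measurable_Inn h.drift τ k).comp measurable_snd
  rw [← map_Inn_eq μ h.hfib B h.drift h.hBmono h.hBex hτ, Measure.map_map hmeasR hInn]
  conv_rhs => rw [← Pj_map_fst μ π]
  refine Measure.map_congr ?_
  filter_upwards [ae_Pj_good μ h.hfib h.hne] with p hp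
  simp only [Function.comp, Theta]
  rw [Gsol_Inn h.drift h.hcard τ hp.1, hp.2]

lemma unit_singleton (a : ℝ) : unit {a} = 0 := by
  unfold unit
  exact le_antisymm ((Measure.restrict_apply_le _ _).trans (by simp)) bot_le

omit [Countable E] in
/-- Almost every labelling is injective. -/
lemma ae_injective : ∀ᵐ τ ∂(Measure.infinitePi (fun _ : J => unit)), Function.Injective τ := by
  have key : ∀ j j' : J, j ≠ j' → ∀ᵐ τ ∂(Measure.infinitePi (fun _ : J => unit)), τ j ≠ τ j' := by
    intro j j' hjj
    have hS : MeasurableSet {τ : J → ℝ | τ j = τ j'} :=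
      measurableSet_eq_fun (measurable_pi_apply j) (measurable_pi_apply j')
    have hup := infinitePi_update (fun _ : J => unit) j
    have hm : Measurable fun p : (J → ℝ) × ℝ => Function.update p.1 j p.2 := measurable_update'
    rw [ae_iff]
    simp only [ne_eq, not_not]
    rw [← hup, Measure.map_apply hm hS, Measure.prod_apply (hm hS)]
    have hz : ∀ x : J → ℝ, unit (Prod.mk x ⁻¹' ((fun p : (J → ℝ) × ℝ => Function.update p.1 j p.2) ⁻¹'
        {τ : J → ℝ | τ j = τ j'})) = 0 := by
      intro x
      have : Prod.mk x ⁻¹' ((fun p : (J → ℝ) × ℝ => Function.update p.1 j p.2) ⁻¹'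
          {τ : J → ℝ | τ j = τ j'}) = {x j'} := by
        ext v
        simp [Function.update_self, Function.update_of_ne hjj.symm]
      rw [this, unit_singleton]
    exact (lintegral_congr hz).trans lintegral_zero
  have hall : ∀ᵐ τ ∂(Measure.infinitePi (fun _ : J => unit)), ∀ j j' : J, j ≠ j' → τ j ≠ τ j' := by
    refine ae_all_iff.mpr fun j => ae_all_iff.mpr fun j' => ?_
    by_cases hjj : j = j'
    · exact Eventually.of_forall fun τ h => absurd hjj h
    · filter_upwards [key j j' hjj] with τ hτ _ using hτ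
  filter_upwards [hall] with τ hτ j j' h
  by_contra hne
  exact hτ j j' hne h

/-- The abstract factor theorem: law of the factor map. -/
theorem law_Theta {μ : Measure (E → Bool)} [IsProbabilityMeasure μ] {π : J → E}
    {fib : E → Finset J} {B : E → ℕ → Finset E} (h : CoreData μ π fib B) :
    ((Measure.infinitePi (fun _ : J => unit)).prod
      (Measure.infinitePi (fun _ : ℕ × J => unit))).map (Theta π fib (Psi μ B)) = μ := by
  have hT := measurable_Theta h
  ext S hS
  rw [Measure.map_apply hT hS, Measure.prod_apply (hT hS)]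
  have hae : ∀ᵐ τ ∂(Measure.infinitePi (fun _ : J => unit)),
      (Measure.infinitePi (fun _ : ℕ × J => unit))
        (Prod.mk τ ⁻¹' (Theta π fib (Psi μ B) ⁻¹' S)) = μ S := by
    filter_upwards [ae_injective] with τ hτ
    have h1 := law_fixed_tau h hτ
    have hmeasR : Measurable fun R : ℕ × J → ℝ => Theta π fib (Psi μ B) (τ, R) :=
      hT.comp (measurable_const.prodMk measurable_id)
    conv_rhs => rw [← h1]
    rw [Measure.map_apply hmeasR hS]
    rfl
  rw [lintegral_congr_ae hae]
  simp

/-- Equivariance of the factor map. -/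
theorem Theta_map {μ : Measure (E → Bool)} [IsProbabilityMeasure μ] {π : J → E}
    {fib : E → Finset J} {B : E → ℕ → Finset E} (h : CoreData μ π fib B)
    (a : J ≃ J) (b : E ≃ E) (hπ : ∀ j, π (a j) = b (π j))
    (hfibm : ∀ f, fib (b f) = (fib f).map a.toEmbedding)
    (hμ : μ.map (fun ω : E → Bool => fun e => ω (b e)) = μ)
    (hB : ∀ e n, B (b e) n = (B e n).map b.toEmbedding) (τ : J → ℝ) (R : ℕ × J → ℝ) :
    Theta π fib (Psi μ B) (τ ∘ a, R ∘ stepMap a) =
      fun e => Theta π fib (Psi μ B) (τ, R) (b e) := by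
  funext e
  unfold Theta
  simp only
  rw [Gsol_map a b h.drift h.hcard hπ hfibm (fun e X => Psi_map μ b hμ B hB e X) τ R, recS_map fib a b hfibm]

end

end Vale.Agent.Lib.P143
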