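import Mathlib

/-!
# P143: definitions for the statement (free uniform spanning forest as a factor of IID)
-/

namespace Vale.Agent.Lib.P143

open MeasureTheory Filter Topology

/-- `T` (a set of unordered pairs of vertices) is the edge set of a spanning tree of the
subgraph `H`: `T` consists of edges of `H`, and the graph with vertex set `H.verts` and edge
set `T` is a tree. -/
def IsSpanningTreeOf {V : Type*} {G : SimpleGraph V} (H : G.Subgraph) (T : Set (Sym2 V)) : Prop :=
  T ⊆ H.edgeSet ∧
    (SimpleGraph.fromEdgeSet (Sym2.map (Subtype.val : H.verts → V) ⁻¹' T)).IsTree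

/-- Probability, for the uniform spanning tree of the finite connected subgraph `H`, of the
cylinder event that the tree agrees with `σ` on the finite edge set `A`. -/
noncomputable def ustProb {V : Type*} {G : SimpleGraph V} (H : G.Subgraph)
    (A : Finset G.edgeSet) (σ : G.edgeSet → Bool) : ℝ :=
  (Set.ncard {T : Set (Sym2 V) | IsSpanningTreeOf H T ∧ ∀ e ∈ A, (e.1 ∈ T ↔ σ e = true)} : ℝ) /
    (Set.ncard {T : Set (Sym2 V) | IsSpanningTreeOf H T} : ℝ)

/-- `H 0 ≤ H 1 ≤ ...` are finite connected subgraphs of `G` with union `G`. -/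
structure IsExhaustion {V : Type*} {G : SimpleGraph V} (H : ℕ → G.Subgraph) : Prop where
  mono : Monotone H
  finite : ∀ n, (H n).verts.Finite
  connected : ∀ n, (H n).Connected
  verts_union : ∀ v : V, ∃ n, v ∈ (H n).verts
  edges_union : ∀ e ∈ G.edgeSet, ∃ n, e ∈ (H n).edgeSet

/-- `μ` is the free uniform spanning forest of `G`: the uniform spanning trees of `H n`
converge weakly to `μ` (on the compact space `{0,1}^E(G)` this means convergence on cylinder
events), along every exhaustion of `G` by finite connected subgraphs. -/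
def IsFUSF {V : Type*} (G : SimpleGraph V) (μ : Measure (G.edgeSet → Bool)) : Prop :=
  ∀ H : ℕ → G.Subgraph, IsExhaustion H → ∀ (A : Finset G.edgeSet) (σ : G.edgeSet → Bool),
    Tendsto (fun n => ustProb (H n) A σ) atTop (𝓝 (μ.real {ω | ∀ e ∈ A, ω e = σ e}))

/-- The (simple) Cayley graph of `Γ` with respect to `S`: `v ~ w` iff `v ≠ w` and
`v⁻¹ w ∈ S` or `w⁻¹ v ∈ S`.  Left multiplication acts by automorphisms. -/
def cayley {Γ : Type*} [Group Γ] (S : Finset Γ) : SimpleGraph Γ :=
  SimpleGraph.fromRel (fun v w => v⁻¹ * w ∈ S)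

/-- Left multiplication by `γ` as an automorphism of the Cayley graph. -/
def cayleyIso {Γ : Type*} [Group Γ] (S : Finset Γ) (γ : Γ) : cayley S ≃g cayley S where
  toEquiv := Equiv.mulLeft γ
  map_rel_iff' := by
    intro a b
    simp [cayley, SimpleGraph.fromRel_adj, mul_inv_rev, mul_assoc]

/-- The random edge set with law `μ` is a `Γ`-factor of IID: there is a measurable map
`Φ : [0,1]^Γ → {0,1}^E(G)` commuting with the action of `Γ` by left multiplication, which maps
the product of uniform measures on `[0,1]^Γ` to `μ`. -/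
def IsGammaFactorOfIID {Γ : Type*} [Group Γ] (S : Finset Γ)
    (μ : Measure ((cayley S).edgeSet → Bool)) : Prop :=
  ∃ Φ : (Γ → unitInterval) → ((cayley S).edgeSet → Bool),
    Measurable Φ ∧
    (∀ (γ : Γ) (U : Γ → unitInterval),
      Φ (fun v => U (γ⁻¹ * v)) = fun e => Φ U ((cayleyIso S γ⁻¹).mapEdgeSet e)) ∧
    (Measure.infinitePi (fun _ : Γ => (volume : Measure unitInterval))).map Φ = μ

end Vale.Agent.Lib.P143
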