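import Vale.Agent.Lib.P143.USTLip

/-!
# P143: from finite volume to the free spanning forest
-/

namespace Vale.Agent.Lib.P143

open MeasureTheory Filter Topology Finset

open scoped Classical

noncomputable section

variable {V : Type*} {G : SimpleGraph V}

/-- Extension of an assignment on `A` to all edges. -/
def extA {E : Type*} (A : Finset E) (σ : A → Bool) (g : E) : Bool :=
  if h : g ∈ A then σ ⟨g, h⟩ else false

/-- The cylinder set. -/
def cyl {E : Type*} (A : Finset E) (σ : E → Bool) : Set (E → Bool) := {ω | ∀ e ∈ A, ω e = σ e}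

lemma measurableSet_cyl {E : Type*} (A : Finset E) (σ : E → Bool) : MeasurableSet (cyl A σ) := by
  have : cyl A σ = ⋂ e ∈ A, {ω : E → Bool | ω e = σ e} := by
    ext ω
    simp [cyl]
  rw [this]
  refine Finset.measurableSet_biInter _ fun e _ => ?_
  exact measurableSet_eq_fun (measurable_pi_apply e) measurable_const

/-- Decomposition of a function of finitely many coordinates. -/
lemma phi_decomp {E : Type*} (A : Finset E) [Fintype (A → Bool)] {φ : (E → Bool) → ℝ}
    (hφ : ∀ ω ω' : E → Bool, (∀ e ∈ A, ω e = ω' e) → φ ω = φ ω') (ω : E → Bool) :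
    φ ω = ∑ σ : A → Bool, φ (extA A σ) * (cyl A (extA A σ)).indicator (fun _ => (1 : ℝ)) ω := by
  rw [Finset.sum_eq_single (fun a : A => ω a.1)]
  · have hmem : ω ∈ cyl A (extA A fun a : A => ω a.1) := by
      intro e he
      simp [extA, he]
    rw [Set.indicator_of_mem hmem, mul_one]
    refine hφ _ _ fun e he => ?_
    simp [extA, he]
  · intro σ _ hσ
    have hnot : ω ∉ cyl A (extA A σ) := by
      intro hmem
      apply hσ
      funext a
      have := hmem a.1 a.2
      simp only [extA, a.2, dite_true] at this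
      simpa using this.symm
    rw [Set.indicator_of_notMem hnot, mul_zero]
  · simp

lemma integral_phi (μ : Measure (G.edgeSet → Bool)) [IsProbabilityMeasure μ] (A : Finset G.edgeSet)
    {φ : (G.edgeSet → Bool) → ℝ}
    (hφ : ∀ ω ω' : G.edgeSet → Bool, (∀ e ∈ A, ω e = ω' e) → φ ω = φ ω') :
    ∫ ω, φ ω ∂μ = ∑ σ : A → Bool, φ (extA A σ) * μ.real (cyl A (extA A σ)) := by
  have h1 : ∀ ω, φ ω = ∑ σ : A → Bool,
      φ (extA A σ) * (cyl A (extA A σ)).indicator (fun _ => (1 : ℝ)) ω :=
    phi_decomp A hφ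
  have h2 : ∫ ω, φ ω ∂μ = ∫ ω, ∑ σ : A → Bool,
      φ (extA A σ) * (cyl A (extA A σ)).indicator (fun _ => (1 : ℝ)) ω ∂μ :=
    integral_congr_ae (Eventually.of_forall h1)
  rw [h2, integral_finsetSum]
  · refine Finset.sum_congr rfl fun σ _ => ?_
    rw [integral_const_mul, integral_indicator (measurableSet_cyl _ _)]
    simp
  · intro σ _
    refine Integrable.const_mul ?_ _
    exact (integrable_const (1 : ℝ)).indicator (measurableSet_cyl _ _)

lemma ustProb_eq_indicator (H : G.Subgraph) (hfin : {T : Set (Sym2 V) | IsSpanningTreeOf H T}.Finite)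
    (A : Finset G.edgeSet) (σ : G.edgeSet → Bool) :
    ustProb H A σ =
      (∑ T ∈ stF H, (cyl A σ).indicator (fun _ => (1 : ℝ)) (treeCfg T)) / ((stF H).card : ℝ) := by
  unfold ustProb
  congr 1
  · have hset : {T : Set (Sym2 V) | IsSpanningTreeOf H T ∧ ∀ e ∈ A, (e.1 ∈ T ↔ σ e = true)} =
        ↑((stF H).filter fun T => treeCfg T ∈ cyl A σ) := by
      ext T
      simp only [Set.mem_ofPred_eq, Finset.coe_filter, mem_stF hfin]
      refine and_congr_right fun _ => forall₂_congr fun e _ => ?_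
      unfold treeCfg
      cases h : σ e <;> simp
    rw [hset, Set.ncard_coe_finset, Finset.card_filter]
    push_cast
    refine Finset.sum_congr rfl fun T _ => ?_
    simp [Set.indicator]
  · have hset : {T : Set (Sym2 V) | IsSpanningTreeOf H T} = ↑(stF H) := by
      ext T
      simp [mem_stF hfin]
    rw [hset, Set.ncard_coe_finset]

/-- Averages over spanning trees of a cylinder function. -/
lemma avg_eq (H : G.Subgraph) (hfin : {T : Set (Sym2 V) | IsSpanningTreeOf H T}.Finite)
    (A : Finset G.edgeSet) {φ : (G.edgeSet → Bool) → ℝ}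
    (hφ : ∀ ω ω' : G.edgeSet → Bool, (∀ e ∈ A, ω e = ω' e) → φ ω = φ ω') :
    (∑ T ∈ stF H, φ (treeCfg T)) / ((stF H).card : ℝ) =
      ∑ σ : A → Bool, φ (extA A σ) * ustProb H A (extA A σ) := by
  have h1 : ∀ ω, φ ω = ∑ σ : A → Bool,
      φ (extA A σ) * (cyl A (extA A σ)).indicator (fun _ => (1 : ℝ)) ω :=
    phi_decomp A hφ
  simp_rw [ustProb_eq_indicator H hfin A]
  have h2 : ∑ T ∈ stF H, φ (treeCfg T) = ∑ T ∈ stF H, ∑ σ : A → Bool,
      φ (extA A σ) * (cyl A (extA A σ)).indicator (fun _ => (1 : ℝ)) (treeCfg T) :=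
    Finset.sum_congr rfl fun T _ => h1 (treeCfg T)
  rw [h2, Finset.sum_comm, Finset.sum_div]
  refine Finset.sum_congr rfl fun σ _ => ?_
  rw [← Finset.mul_sum, mul_div_assoc]

/-- Convergence of averages over spanning trees to integrals against the limit. -/
lemma tendsto_avg {H : ℕ → G.Subgraph} (hH : IsExhaustion H) {μ : Measure (G.edgeSet → Bool)}
    [IsProbabilityMeasure μ] (hμ : IsFUSF G μ) (A : Finset G.edgeSet)
    {φ : (G.edgeSet → Bool) → ℝ}
    (hφ : ∀ ω ω' : G.edgeSet → Bool, (∀ e ∈ A, ω e = ω' e) → φ ω = φ ω') :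
    Tendsto (fun n => (∑ T ∈ stF (H n), φ (treeCfg T)) / ((stF (H n)).card : ℝ)) atTop
      (𝓝 (∫ ω, φ ω ∂μ)) := by
  rw [integral_phi μ A hφ]
  have : (fun n => (∑ T ∈ stF (H n), φ (treeCfg T)) / ((stF (H n)).card : ℝ)) =
      fun n => ∑ σ : A → Bool, φ (extA A σ) * ustProb (H n) A (extA A σ) := by
    funext n
    exact avg_eq (H n) (stF_finite _ (hH.finite n)) A hφ
  rw [this]
  refine tendsto_finsetSum _ fun σ _ => Tendsto.const_mul _ ?_
  exact hμ H hH A _

lemma expTilt_dep (F : Finset G.edgeSet) (X : G.edgeSet → ℝ) (ω ω' : G.edgeSet → Bool)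
    (h : ∀ e ∈ F, ω e = ω' e) : expTilt F X ω = expTilt F X ω' := by
  unfold expTilt
  congr 1
  exact Finset.sum_congr rfl fun f hf => by rw [h f hf]

/-- Convergence of the tilted means. -/
lemma tendsto_ustM {H : ℕ → G.Subgraph} (hH : IsExhaustion H) {μ : Measure (G.edgeSet → Bool)}
    [IsProbabilityMeasure μ] (hμ : IsFUSF G μ) (e : G.edgeSet) (F : Finset G.edgeSet) (he : e ∈ F)
    (X : G.edgeSet → ℝ) :
    Tendsto (fun n => ustM (H n) e F X) atTop (𝓝 (tiltM μ e F X)) := by
  have h1 := tendsto_avg hH hμ F (φ := expTilt F X) (expTilt_dep F X)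
  have h2 := tendsto_avg hH hμ F (φ := fun ω => sg (ω e) * expTilt F X ω) (by
    intro ω ω' hωω
    rw [hωω e he, expTilt_dep F X ω ω' hωω])
  have h3 := h2.div h1 (tiltZ_pos μ F X).ne'
  refine h3.congr fun n => ?_
  have hc : ((stF (H n)).card : ℝ) ≠ 0 := by
    have := (stF_nonempty (H n) (hH.finite n) (hH.connected n)).card_pos
    positivity
  unfold ustM ustN ustZ
  simp only [Pi.div_apply]
  field_simp

/-- The limit law satisfies the dimension free Lipschitz bound. -/
theorem tiltLipschitz_of_isFUSF {H : ℕ → G.Subgraph} (hH : IsExhaustion H)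
    {μ : Measure (G.edgeSet → Bool)} [IsProbabilityMeasure μ] (hμ : IsFUSF G μ) :
    TiltLipschitz μ := by
  intro F e he X X' D hD
  have hlim := ((tendsto_ustM hH hμ e F he X).sub (tendsto_ustM hH hμ e F he X')).abs
  refine le_of_tendsto hlim ?_
  have hev : ∀ᶠ n in atTop, ∀ f ∈ F, f.1 ∈ (H n).edgeSet := by
    rw [Filter.eventually_all_finset]
    intro f _
    obtain ⟨n, hn⟩ := hH.edges_union f.1 f.2
    filter_upwards [eventually_ge_atTop n] with m hm
    exact SimpleGraph.Subgraph.edgeSet_mono (hH.mono hm) hn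
  filter_upwards [hev] with n hn
  exact ustM_lip (H n) (hH.finite n) (hH.connected n) F hn e he X X' D hD

end

end Vale.Agent.Lib.P143
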