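import Vale.Agent.Lib.P143.Canon
import Vale.Agent.Lib.P143.Ball
import Vale.Agent.Lib.P143.Limit

/-!
# P143: the free spanning forest as a law on subsets of all pairs
-/

namespace Vale.Agent.Lib.P143

open MeasureTheory Filter Topology Finset

open scoped Classical

noncomputable section

variable {G : SimpleGraph ℕ}

/-- Extension of a configuration by `false` off the edges. -/
def extCfg (G : SimpleGraph ℕ) (ω : G.edgeSet → Bool) (e : Sym2 ℕ) : Bool :=
  if h : e ∈ G.edgeSet then ω ⟨e, h⟩ else false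

lemma extCfg_coe (ω : G.edgeSet → Bool) (e : G.edgeSet) : extCfg G ω e.1 = ω e := by
  simp [extCfg, e.2]

lemma extCfg_of_not_mem (ω : G.edgeSet → Bool) {e : Sym2 ℕ} (he : e ∉ G.edgeSet) :
    extCfg G ω e = false := by
  simp [extCfg, he]

lemma measurable_extCfg : Measurable (extCfg G) := by
  refine measurable_pi_iff.mpr fun e => ?_
  unfold extCfg
  by_cases he : e ∈ G.edgeSet
  · simp only [he, dite_true]
    exact measurable_pi_apply _
  · simp only [he, dite_false]
    exact measurable_const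

/-- The law on subsets of all pairs. -/
def extLaw (μ : Measure (G.edgeSet → Bool)) : Measure (Sym2 ℕ → Bool) := μ.map (extCfg G)

instance (μ : Measure (G.edgeSet → Bool)) [IsProbabilityMeasure μ] :
    IsProbabilityMeasure (extLaw μ) :=
  Measure.isProbabilityMeasure_map measurable_extCfg.aemeasurable

/-- Restriction to the edges. -/
def restrCfg (G : SimpleGraph ℕ) (ω : Sym2 ℕ → Bool) (e : G.edgeSet) : Bool := ω e.1

lemma measurable_restrCfg : Measurable (restrCfg G) :=
  measurable_pi_iff.mpr fun _ => measurable_pi_apply _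

lemma restrCfg_extCfg (ω : G.edgeSet → Bool) : restrCfg G (extCfg G ω) = ω := by
  funext e
  exact extCfg_coe ω e

lemma map_restr_extLaw (μ : Measure (G.edgeSet → Bool)) : (extLaw μ).map (restrCfg G) = μ := by
  unfold extLaw
  rw [Measure.map_map measurable_restrCfg measurable_extCfg]
  have : restrCfg G ∘ extCfg G = id := by
    funext ω
    exact restrCfg_extCfg ω
  rw [this, Measure.map_id]

/-- The edges in a finite set of pairs. -/
def edgesOf (G : SimpleGraph ℕ) (F : Finset (Sym2 ℕ)) : Finset G.edgeSet :=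
  F.subtype (· ∈ G.edgeSet)

lemma mem_edgesOf {F : Finset (Sym2 ℕ)} {e : G.edgeSet} : e ∈ edgesOf G F ↔ e.1 ∈ F := by
  simp [edgesOf]

/-- The constant by which the tilt of the non-edges scales. -/
def offC (G : SimpleGraph ℕ) (F : Finset (Sym2 ℕ)) (X : Sym2 ℕ → ℝ) : ℝ :=
  Real.exp (-∑ f ∈ F with f ∉ G.edgeSet, X f)

lemma offC_pos (F : Finset (Sym2 ℕ)) (X : Sym2 ℕ → ℝ) : 0 < offC G F X := Real.exp_pos _

lemma expTilt_extCfg (F : Finset (Sym2 ℕ)) (X : Sym2 ℕ → ℝ) (ω : G.edgeSet → Bool) :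
    expTilt F X (extCfg G ω) = offC G F X * expTilt (edgesOf G F) (fun f => X f.1) ω := by
  unfold offC expTilt
  rw [← Real.exp_add]
  congr 1
  rw [← Finset.sum_filter_add_sum_filter_not F (· ∈ G.edgeSet)]
  have h1 : ∑ f ∈ F with f ∉ G.edgeSet, X f * sg (extCfg G ω f) =
      -∑ f ∈ F with f ∉ G.edgeSet, X f := by
    rw [← Finset.sum_neg_distrib]
    refine Finset.sum_congr rfl fun f hf => ?_
    rw [extCfg_of_not_mem ω (Finset.mem_filter.mp hf).2]
    simp
  have h2 : ∑ f ∈ F with f ∈ G.edgeSet, X f * sg (extCfg G ω f) =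
      ∑ f ∈ edgesOf G F, X f.1 * sg (ω f) := by
    unfold edgesOf
    rw [← Finset.sum_subtype_eq_sum_filter]
    refine Finset.sum_congr rfl fun f _ => ?_
    rw [extCfg_coe]
  rw [h1, h2]
  ring

lemma integral_extLaw {φ : (Sym2 ℕ → Bool) → ℝ} (hφ : Measurable φ) (μ : Measure (G.edgeSet → Bool)) :
    ∫ ω, φ ω ∂(extLaw μ) = ∫ ω, φ (extCfg G ω) ∂μ := by
  unfold extLaw
  exact integral_map measurable_extCfg.aemeasurable hφ.aestronglyMeasurable

/-- Tilted means of the extended law at an edge. -/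
lemma tiltM_extLaw_edge (μ : Measure (G.edgeSet → Bool)) [IsProbabilityMeasure μ] (e : G.edgeSet)
    (F : Finset (Sym2 ℕ)) (X : Sym2 ℕ → ℝ) :
    tiltM (extLaw μ) e.1 F X = tiltM μ e (edgesOf G F) (fun f => X f.1) := by
  unfold tiltM tiltN tiltZ
  have hmeas : Measurable fun ω : Sym2 ℕ → Bool => sg (ω e.1) * expTilt F X ω :=
    (measurable_sg.comp (measurable_pi_apply e.1)).mul (measurable_expTilt F X)
  rw [integral_extLaw (measurable_expTilt F X), integral_extLaw hmeas]
  simp only [expTilt_extCfg, extCfg_coe]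
  have e1 : ∀ ω, sg (ω e) * (offC G F X * expTilt (edgesOf G F) (fun f => X f.1) ω) =
      offC G F X * (sg (ω e) * expTilt (edgesOf G F) (fun f => X f.1) ω) := fun ω => by ring
  simp only [e1]
  rw [integral_const_mul, integral_const_mul]
  have := (offC_pos (G := G) F X).ne'
  rw [mul_div_mul_left _ _ this]

/-- Tilted means of the extended law off the edges. -/
lemma tiltM_extLaw_off (μ : Measure (G.edgeSet → Bool)) [IsProbabilityMeasure μ] {e : Sym2 ℕ}
    (he : e ∉ G.edgeSet) (F : Finset (Sym2 ℕ)) (X : Sym2 ℕ → ℝ) :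
    tiltM (extLaw μ) e F X = -1 := by
  have hZ := (tiltZ_pos (extLaw μ) F X).ne'
  unfold tiltM
  rw [div_eq_iff hZ]
  unfold tiltN tiltZ
  have hmeas : Measurable fun ω : Sym2 ℕ → Bool => sg (ω e) * expTilt F X ω :=
    (measurable_sg.comp (measurable_pi_apply e)).mul (measurable_expTilt F X)
  rw [integral_extLaw (measurable_expTilt F X), integral_extLaw hmeas]
  simp only [extCfg_of_not_mem _ he, sg_false]
  rw [← integral_const_mul]

/-- The extended law inherits the Lipschitz bound. -/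
lemma tiltLipschitz_extLaw {μ : Measure (G.edgeSet → Bool)} [IsProbabilityMeasure μ]
    (hL : TiltLipschitz μ) : TiltLipschitz (extLaw μ) := by
  intro F e he X X' D hD
  by_cases hedge : e ∈ G.edgeSet
  · have h1 := tiltM_extLaw_edge μ ⟨e, hedge⟩ F X
    have h2 := tiltM_extLaw_edge μ ⟨e, hedge⟩ F X'
    simp only at h1 h2
    rw [h1, h2]
    exact hL _ _ (mem_edgesOf.mpr he) _ _ D fun f hf => hD f.1 (mem_edgesOf.mp hf)
  · rw [tiltM_extLaw_off μ hedge, tiltM_extLaw_off μ hedge]
    have := (abs_nonneg _).trans (hD e he)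
    simpa using this

/-- Tilted means of the extended law see only the edges. -/
lemma tiltM_extLaw_congr (μ : Measure (G.edgeSet → Bool)) [IsProbabilityMeasure μ] (e : Sym2 ℕ)
    (F : Finset (Sym2 ℕ)) {X X' : Sym2 ℕ → ℝ} (h : ∀ f ∈ G.edgeSet, X f = X' f) :
    tiltM (extLaw μ) e F X = tiltM (extLaw μ) e F X' := by
  by_cases hedge : e ∈ G.edgeSet
  · have h1 := tiltM_extLaw_edge μ ⟨e, hedge⟩ F X
    have h2 := tiltM_extLaw_edge μ ⟨e, hedge⟩ F X'
    simp only at h1 h2
    rw [h1, h2]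
    refine tiltM_congr μ _ _ fun f _ => h f.1 f.2
  · rw [tiltM_extLaw_off μ hedge, tiltM_extLaw_off μ hedge]

/-! ### Finite volume -/

lemma treeCfgS_eq {H : G.Subgraph} {T : Set (Sym2 ℕ)} (hT : IsSpanningTreeOf H T) :
    treeCfgS T = extCfg G (treeCfg T) := by
  funext e
  unfold treeCfgS treeCfg extCfg
  by_cases he : e ∈ G.edgeSet
  · simp [he]
  · have : e ∉ T := fun h => he (H.edgeSet_subset (hT.1 h))
    simp [he, this]

/-- Limit of the tilted means along an exhaustion. -/
lemma tendsto_fmM {H : ℕ → G.Subgraph} (hH : IsExhaustion H) {μ : Measure (G.edgeSet → Bool)}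
    [IsProbabilityMeasure μ] (hμ : IsFUSF G μ) (e : Sym2 ℕ) (F : Finset (Sym2 ℕ)) (he : e ∈ F)
    (X : Sym2 ℕ → ℝ) :
    Tendsto (fun n => fmM (stF (H n)) e F X) atTop (𝓝 (tiltM (extLaw μ) e F X)) := by
  have hdep : ∀ ω ω' : G.edgeSet → Bool, (∀ f ∈ edgesOf G F, ω f = ω' f) →
      ∀ f ∈ F, extCfg G ω f = extCfg G ω' f := by
    intro ω ω' h f hf
    by_cases hfe : f ∈ G.edgeSet
    · have := h ⟨f, hfe⟩ (mem_edgesOf.mpr hf)
      simp [extCfg, hfe, this]
    · rw [extCfg_of_not_mem _ hfe, extCfg_of_not_mem _ hfe]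
  have hdepE : ∀ ω ω' : G.edgeSet → Bool, (∀ f ∈ edgesOf G F, ω f = ω' f) →
      expTilt F X (extCfg G ω) = expTilt F X (extCfg G ω') := by
    intro ω ω' h
    unfold expTilt
    congr 1
    exact Finset.sum_congr rfl fun f hf => by rw [hdep ω ω' h f hf]
  have h1 := tendsto_avg hH hμ (edgesOf G F) (φ := fun ω => expTilt F X (extCfg G ω)) hdepE
  have h2 := tendsto_avg hH hμ (edgesOf G F)
    (φ := fun ω => sg (extCfg G ω e) * expTilt F X (extCfg G ω)) (by
      intro ω ω' h
      rw [hdep ω ω' h e he, hdepE ω ω' h])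
  have hmeas : Measurable fun ω : Sym2 ℕ → Bool => sg (ω e) * expTilt F X ω :=
    (measurable_sg.comp (measurable_pi_apply e)).mul (measurable_expTilt F X)
  rw [← integral_extLaw (measurable_expTilt F X)] at h1
  rw [← integral_extLaw hmeas] at h2
  have h3 := h2.div h1 (tiltZ_pos (extLaw μ) F X).ne'
  refine h3.congr fun n => ?_
  have hfin := stF_finite (H n) (hH.finite n)
  have hc : ((stF (H n)).card : ℝ) ≠ 0 := by
    have := (stF_nonempty (H n) (hH.finite n) (hH.connected n)).card_pos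
    positivity
  simp only [Pi.div_apply]
  unfold fmM
  have e1 : ∑ T ∈ stF (H n), sg (treeCfgS T e) * expTilt F X (treeCfgS T) =
      ∑ T ∈ stF (H n), sg (extCfg G (treeCfg T) e) * expTilt F X (extCfg G (treeCfg T)) :=
    Finset.sum_congr rfl fun T hT => by rw [treeCfgS_eq ((mem_stF hfin).mp hT)]
  have e2 : ∑ T ∈ stF (H n), expTilt F X (treeCfgS T) =
      ∑ T ∈ stF (H n), expTilt F X (extCfg G (treeCfg T)) :=
    Finset.sum_congr rfl fun T hT => by rw [treeCfgS_eq ((mem_stF hfin).mp hT)]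
  rw [e1, e2]
  field_simp

end

end Vale.Agent.Lib.P143
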