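import Vale.Agent.Lib.P143.FUSFMono

/-!
# P143: existence of the free uniform spanning forest

For every graph `G` admitting an exhaustion by finite connected subgraphs, the uniform spanning
trees of the exhaustion converge on cylinder events; the limit does not depend on the exhaustion
and is given by a probability measure on `{0,1}^E(G)`.
-/

namespace Vale.Agent.Lib.P143

open MeasureTheory Filter Topology

open scoped Classical

noncomputable section

set_option linter.style.haveILetI false

variable {V : Type*} {G : SimpleGraph V}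

/-- The limiting inclusion probability, as an infimum over all finite connected subgraphs
containing `B`. -/
def lB (G : SimpleGraph V) (B : Set (Sym2 V)) : ℝ :=
  sInf {x | ∃ K : G.Subgraph, K.verts.Finite ∧ K.Connected ∧ B ⊆ K.edgeSet ∧ x = pB K B}

lemma eventually_le_exhaustion {H : ℕ → G.Subgraph} (hH : IsExhaustion H) (K : G.Subgraph)
    (hK : K.verts.Finite) : ∀ᶠ n in atTop, K ≤ H n := by
  have h1 : ∀ᶠ n in atTop, ∀ v ∈ K.verts, v ∈ (H n).verts := by
    refine (Filter.eventually_all_finite hK).mpr fun v _ => ?_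
    obtain ⟨n, hn⟩ := hH.verts_union v
    exact eventually_atTop.mpr ⟨n, fun m hm => (hH.mono hm).1 hn⟩
  have h2 : ∀ᶠ n in atTop, ∀ z ∈ K.edgeSet, z ∈ (H n).edgeSet := by
    refine (Filter.eventually_all_finite (edgeSet_finite K hK)).mpr fun z hz => ?_
    obtain ⟨n, hn⟩ := hH.edges_union z (K.edgeSet_subset hz)
    exact eventually_atTop.mpr ⟨n, fun m hm => SimpleGraph.Subgraph.edgeSet_mono (hH.mono hm) hn⟩
  filter_upwards [h1, h2] with n h1 h2
  exact ⟨h1, fun x y hxy => h2 s(x, y) hxy⟩

theorem tendsto_pB {H : ℕ → G.Subgraph} (hH : IsExhaustion H) {B : Set (Sym2 V)}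
    (hBfin : B.Finite) (hB : B ⊆ G.edgeSet) :
    Tendsto (fun n => pB (H n) B) atTop (𝓝 (lB G B)) := by
  have hev : ∀ᶠ n in atTop, B ⊆ (H n).edgeSet := by
    have : ∀ᶠ n in atTop, ∀ z ∈ B, z ∈ (H n).edgeSet := by
      refine (Filter.eventually_all_finite hBfin).mpr fun z hz => ?_
      obtain ⟨n, hn⟩ := hH.edges_union z (hB hz)
      exact eventually_atTop.mpr ⟨n, fun m hm => SimpleGraph.Subgraph.edgeSet_mono (hH.mono hm) hn⟩
    exact this
  have hbdd : BddBelow {x | ∃ K : G.Subgraph, K.verts.Finite ∧ K.Connected ∧ B ⊆ K.edgeSet ∧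
      x = pB K B} := ⟨0, by
    rintro x ⟨K, -, -, -, rfl⟩
    exact pB_nonneg K B⟩
  have hmem : ∀ᶠ n in atTop, pB (H n) B ∈ {x | ∃ K : G.Subgraph, K.verts.Finite ∧ K.Connected ∧
      B ⊆ K.edgeSet ∧ x = pB K B} := by
    filter_upwards [hev] with n hn
    exact ⟨H n, hH.finite n, hH.connected n, hn, rfl⟩
  refine tendsto_order.mpr ⟨fun a ha => ?_, fun a ha => ?_⟩
  · filter_upwards [hmem] with n hn
    exact lt_of_lt_of_le ha (csInf_le hbdd hn)
  · have hne : {x | ∃ K : G.Subgraph, K.verts.Finite ∧ K.Connected ∧ B ⊆ K.edgeSet ∧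
        x = pB K B}.Nonempty := by
      obtain ⟨n, hn⟩ := hmem.exists
      exact ⟨_, hn⟩
    obtain ⟨x, ⟨K, hKf, hKc, hKB, rfl⟩, hx⟩ := exists_lt_of_csInf_lt hne ha
    filter_upwards [eventually_le_exhaustion hH K hKf] with n hn
    exact lt_of_le_of_lt (pB_anti hn (hH.finite n) hKc (hH.connected n) hKB) hx

/-- The cylinder event, as a set of spanning trees. -/
def cylT (H : G.Subgraph) (A : Finset G.edgeSet) (σ : G.edgeSet → Bool) : Set (Set (Sym2 V)) :=
  {T | IsSpanningTreeOf H T ∧ ∀ e ∈ A, (e.1 ∈ T ↔ σ e = true)}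

lemma ustProb_eq (H : G.Subgraph) (A : Finset G.edgeSet) (σ : G.edgeSet → Bool) :
    ustProb H A σ = ((cylT H A σ).ncard : ℝ) / (Set.ncard {T | IsSpanningTreeOf H T} : ℝ) := rfl

lemma ncard_tree_eq (H : G.Subgraph) (hfin : H.verts.Finite) :
    Set.ncard {T | IsSpanningTreeOf H T} = nB H.verts H.edgeSet ∅ := by
  unfold nB
  congr 1
  ext T
  simp [isSpanningTreeOf_iff H hfin T]

lemma ustProb_all_true (H : G.Subgraph) (hfin : H.verts.Finite) (A : Finset G.edgeSet)
    (σ : G.edgeSet → Bool) (hσ : ∀ e ∈ A, σ e = true) :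
    ustProb H A σ = pB H (Subtype.val '' (A : Set G.edgeSet)) := by
  rw [ustProb_eq, ncard_tree_eq H hfin]
  unfold pB nB
  congr 3
  ext T
  unfold cylT
  simp only [Set.mem_ofPred_eq, isSpanningTreeOf_iff H hfin T]
  refine and_congr_right fun _ => ?_
  constructor
  · rintro h _ ⟨e, he, rfl⟩
    exact (h e (by exact_mod_cast he)).mpr (hσ e (by exact_mod_cast he))
  · intro h e he
    have h1 : e.1 ∈ T := h ⟨e, by exact_mod_cast he, rfl⟩
    exact ⟨fun _ => hσ e he, fun _ => h1⟩

lemma cylT_finite (H : G.Subgraph) (hfin : H.verts.Finite) (A : Finset G.edgeSet)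
    (σ : G.edgeSet → Bool) : (cylT H A σ).Finite :=
  (stF_finite H hfin).subset fun _ hT => hT.1

lemma ustProb_split (H : G.Subgraph) (hfin : H.verts.Finite) (A : Finset G.edgeSet)
    (σ : G.edgeSet → Bool) {e : G.edgeSet} (he : e ∈ A) (hσ : σ e = false) :
    ustProb H A σ = ustProb H (A.erase e) σ - ustProb H A (Function.update σ e true) := by
  have hunion : cylT H (A.erase e) σ = cylT H A σ ∪ cylT H A (Function.update σ e true) := by
    ext T
    constructor
    · rintro ⟨h1, h2⟩
      by_cases heT : e.1 ∈ T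
      · right
        refine ⟨h1, fun g hg => ?_⟩
        by_cases hge : g = e
        · subst hge
          simp [heT]
        · rw [Function.update_of_ne hge]
          exact h2 g (Finset.mem_erase.mpr ⟨hge, hg⟩)
      · left
        refine ⟨h1, fun g hg => ?_⟩
        by_cases hge : g = e
        · subst hge
          simp [heT, hσ]
        · exact h2 g (Finset.mem_erase.mpr ⟨hge, hg⟩)
    · rintro (⟨h1, h2⟩ | ⟨h1, h2⟩)
      · exact ⟨h1, fun g hg => h2 g (Finset.mem_of_mem_erase hg)⟩
      · refine ⟨h1, fun g hg => ?_⟩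
        have hge : g ≠ e := Finset.ne_of_mem_erase hg
        have := h2 g (Finset.mem_of_mem_erase hg)
        rwa [Function.update_of_ne hge] at this
  have hdisj : Disjoint (cylT H A σ) (cylT H A (Function.update σ e true)) := by
    rw [Set.disjoint_left]
    rintro T ⟨_, h2⟩ ⟨_, h4⟩
    have h5 := (h4 e he).mpr (by simp)
    have h6 := (h2 e he).mp h5
    rw [hσ] at h6
    exact Bool.noConfusion h6
  have hcard := Set.ncard_union_eq hdisj (cylT_finite H hfin A σ) (cylT_finite H hfin A _)
  rw [ustProb_eq, ustProb_eq, ustProb_eq, hunion, hcard]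
  push_cast
  ring

/-- Limits of cylinder probabilities exist and do not depend on the exhaustion. -/
theorem exists_limit_cyl (A : Finset G.edgeSet) (σ : G.edgeSet → Bool) :
    ∃ l : ℝ, ∀ H : ℕ → G.Subgraph, IsExhaustion H →
      Tendsto (fun n => ustProb (H n) A σ) atTop (𝓝 l) := by
  suffices hgen : ∀ (k : ℕ) (A : Finset G.edgeSet) (σ : G.edgeSet → Bool),
      (A.filter (fun e => σ e = false)).card = k →
      ∃ l : ℝ, ∀ H : ℕ → G.Subgraph, IsExhaustion H →
        Tendsto (fun n => ustProb (H n) A σ) atTop (𝓝 l) from hgen _ A σ rfl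
  intro k
  induction k with
  | zero =>
    intro A σ hk
    refine ⟨lB G (Subtype.val '' (A : Set G.edgeSet)), fun H hH => ?_⟩
    have hσ : ∀ e ∈ A, σ e = true := by
      intro e he
      rw [Finset.card_eq_zero] at hk
      by_contra h
      have : e ∈ A.filter (fun e => σ e = false) := by
        simp only [Finset.mem_filter]
        exact ⟨he, by simpa using h⟩
      rw [hk] at this
      simp at this
    have := tendsto_pB hH (B := Subtype.val '' (A : Set G.edgeSet))
      ((A.finite_toSet).image _) (by rintro _ ⟨e, _, rfl⟩; exact e.2)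
    refine this.congr fun n => ?_
    rw [ustProb_all_true (H n) (hH.finite n) A σ hσ]
  | succ k ih =>
    intro A σ hk
    have hne : (A.filter (fun e => σ e = false)).Nonempty := by
      rw [← Finset.card_pos]
      omega
    obtain ⟨e, he⟩ := hne
    obtain ⟨heA, heσ⟩ := Finset.mem_filter.mp he
    have h1 : ((A.erase e).filter (fun g => σ g = false)).card = k := by
      have : (A.erase e).filter (fun g => σ g = false)
          = (A.filter (fun g => σ g = false)).erase e := by
        ext g
        simp only [Finset.mem_filter, Finset.mem_erase]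
        tauto
      rw [this, Finset.card_erase_of_mem he, hk]
      rfl
    have h2 : (A.filter (fun g => Function.update σ e true g = false)).card = k := by
      have : A.filter (fun g => Function.update σ e true g = false)
          = (A.filter (fun g => σ g = false)).erase e := by
        ext g
        simp only [Finset.mem_filter, Finset.mem_erase]
        by_cases hge : g = e
        · subst hge
          simp
        · rw [Function.update_of_ne hge]
          tauto
      rw [this, Finset.card_erase_of_mem he, hk]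
      rfl
    obtain ⟨l1, hl1⟩ := ih _ _ h1
    obtain ⟨l2, hl2⟩ := ih _ _ h2
    refine ⟨l1 - l2, fun H hH => ?_⟩
    refine ((hl1 H hH).sub (hl2 H hH)).congr fun n => ?_
    rw [ustProb_split (H n) (hH.finite n) A σ heA heσ]

/-- The uniform measure on spanning trees of `H`, as a measure on configurations. -/
def ustLaw (H : G.Subgraph) : Measure (G.edgeSet → Bool) :=
  (((stF H).card : ENNReal)⁻¹) • ∑ T ∈ stF H, Measure.dirac (treeCfg T)

lemma ustLaw_apply (H : G.Subgraph) {C : Set (G.edgeSet → Bool)} (hC : MeasurableSet C) :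
    ustLaw H C = (((stF H).card : ENNReal)⁻¹) * (((stF H).filter (fun T => treeCfg T ∈ C)).card) := by
  unfold ustLaw
  rw [Measure.smul_apply, Measure.finsetSum_apply, smul_eq_mul]
  congr 1
  simp only [Measure.dirac_apply' _ hC]
  rw [Finset.card_filter]
  push_cast
  refine Finset.sum_congr rfl fun T _ => ?_
  by_cases h : treeCfg T ∈ C <;> simp [h]

lemma ustLaw_prob (H : G.Subgraph) (hfin : H.verts.Finite) (hc : H.Connected) :
    IsProbabilityMeasure (ustLaw H) := by
  constructor
  rw [ustLaw_apply H MeasurableSet.univ]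
  simp only [Set.mem_univ, Finset.filter_true]
  refine ENNReal.inv_mul_cancel ?_ (by simp)
  have := (stF_nonempty H hfin hc).card_pos
  simp only [ne_eq, Nat.cast_eq_zero]
  omega

/-- The cylinder set of configurations. -/
def cylC (A : Finset G.edgeSet) (σ : G.edgeSet → Bool) : Set (G.edgeSet → Bool) :=
  {ω | ∀ e ∈ A, ω e = σ e}

lemma cylC_clopen (A : Finset G.edgeSet) (σ : G.edgeSet → Bool) : IsClopen (cylC A σ) := by
  have : cylC A σ = ⋂ e ∈ A, (fun ω : G.edgeSet → Bool => ω e) ⁻¹' {σ e} := by
    ext ω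
    simp [cylC]
  rw [this]
  exact isClopen_biInter_finset fun e _ => (isClopen_discrete {σ e}).preimage (continuous_apply e)

lemma cylC_meas (A : Finset G.edgeSet) (σ : G.edgeSet → Bool) : MeasurableSet (cylC A σ) := by
  have : cylC A σ = ⋂ e ∈ A, (fun ω : G.edgeSet → Bool => ω e) ⁻¹' {σ e} := by
    ext ω
    simp [cylC]
  rw [this]
  exact Finset.measurableSet_biInter _ fun e _ =>
    (measurable_pi_apply e) (measurableSet_singleton _)

lemma ustLaw_cyl (H : G.Subgraph) (hfin : H.verts.Finite) (A : Finset G.edgeSet)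
    (σ : G.edgeSet → Bool) : (ustLaw H).real (cylC A σ) = ustProb H A σ := by
  have hset : (((stF H).filter (fun T => treeCfg T ∈ cylC A σ)) : Set (Set (Sym2 V)))
      = cylT H A σ := by
    ext T
    simp only [Finset.coe_filter, Set.mem_ofPred_eq, mem_stF (stF_finite H hfin), cylT]
    refine and_congr_right fun _ => ?_
    refine forall₂_congr fun e _ => ?_
    unfold treeCfg
    cases h : σ e <;> simp
  have hcard : ((stF H).filter (fun T => treeCfg T ∈ cylC A σ)).card = (cylT H A σ).ncard := by
    rw [← hset, Set.ncard_coe_finset]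
  have hstF : (stF H).card = Set.ncard {T | IsSpanningTreeOf H T} := by
    rw [← Set.ncard_coe_finset]
    congr 1
    ext T
    simp [mem_stF (stF_finite H hfin)]
  rw [measureReal_def, ustLaw_apply H (cylC_meas A σ), hcard, ustProb_eq, hstF]
  rw [ENNReal.toReal_mul, ENNReal.toReal_inv, ENNReal.toReal_natCast, ENNReal.toReal_natCast]
  rw [div_eq_inv_mul]

/-- **Existence of the free uniform spanning forest.**  No assumption on `G` is needed: if `G`
has no exhaustion the condition is empty, and otherwise the edge set of `G` is countable. -/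
theorem exists_isFUSF (G : SimpleGraph V) :
    ∃ μ : Measure (G.edgeSet → Bool), IsProbabilityMeasure μ ∧ IsFUSF G μ := by
  by_cases hex : ∃ H : ℕ → G.Subgraph, IsExhaustion H
  swap
  · exact ⟨Measure.dirac (fun _ => false), inferInstance, fun H hH => absurd ⟨H, hH⟩ hex⟩
  obtain ⟨H₀, hH₀⟩ := hex
  haveI hcount : Countable G.edgeSet := by
    have h1 : G.edgeSet ⊆ ⋃ n, (H₀ n).edgeSet := by
      intro z hz
      obtain ⟨n, hn⟩ := hH₀.edges_union z hz
      exact Set.mem_iUnion.mpr ⟨n, hn⟩
    exact ((Set.countable_iUnion fun n => (edgeSet_finite _ (hH₀.finite n)).countable).mono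
      h1).to_subtype
  let ν : ℕ → ProbabilityMeasure (G.edgeSet → Bool) := fun n =>
    ⟨ustLaw (H₀ n), ustLaw_prob _ (hH₀.finite n) (hH₀.connected n)⟩
  let U : Ultrafilter (ProbabilityMeasure (G.edgeSet → Bool)) :=
    (Filter.hyperfilter ℕ).map ν
  have hU : Tendsto ν (Filter.hyperfilter ℕ : Ultrafilter ℕ) (𝓝 U.lim) := U.le_nhds_lim
  refine ⟨(U.lim : Measure (G.edgeSet → Bool)), inferInstance, fun H hH A σ => ?_⟩
  obtain ⟨l, hl⟩ := exists_limit_cyl A σ
  have h1 := ProbabilityMeasure.tendsto_measure_of_isClopen_of_tendsto hU (cylC_clopen A σ)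
  have h2 : Tendsto (fun n => (ν n) (cylC A σ)) (Filter.hyperfilter ℕ : Ultrafilter ℕ)
      (𝓝 (U.lim (cylC A σ))) := h1
  have h3 := NNReal.tendsto_coe.mpr h2
  have h4 : Tendsto (fun n => ustProb (H₀ n) A σ) (Filter.hyperfilter ℕ : Ultrafilter ℕ) (𝓝 l) :=
    (hl H₀ hH₀).mono_left Nat.hyperfilter_le_atTop
  have h5 : ∀ n, (((ν n) (cylC A σ) : NNReal) : ℝ) = ustProb (H₀ n) A σ := by
    intro n
    rw [← ustLaw_cyl (H₀ n) (hH₀.finite n) A σ]
    rfl
  simp only [h5] at h3
  have h6 := tendsto_nhds_unique h3 h4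
  have h7 : (U.lim : Measure (G.edgeSet → Bool)).real {ω | ∀ e ∈ A, ω e = σ e} = l := by
    rw [← h6]
    rfl
  rw [h7]
  exact hl H hH

end

end Vale.Agent.Lib.P143
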