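import Vale.Agent.Lib.P143.Core

/-!
# P143: complements on the Picard iteration (two drifts, active coordinates, parameters)
-/

namespace Vale.Agent.Lib.P143

open MeasureTheory Filter Topology Finset

open scoped Classical

noncomputable section

variable {E J : Type*}

/-! ### Two drifts -/

section Two

variable {π : J → E} {fib : E → Finset J} {Ψ Ψ' : E → (E → ℝ) → ℝ} (a : J ≃ J) (b : E ≃ E)

lemma Tmap_map₂ (hπ : ∀ j, π (a j) = b (π j)) (hfib : ∀ f, fib (b f) = (fib f).map a.toEmbedding)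
    (hΨ : ∀ e X, Ψ' (b e) X = Ψ e (fun f => X (b f))) (τ : J → ℝ) (R y : ℕ × J → ℝ) :
    Tmap π fib Ψ (τ ∘ a) (R ∘ stepMap a) (y ∘ stepMap a) =
      (Tmap π fib Ψ' τ R y) ∘ stepMap a := by
  funext k
  simp only [Tmap, Function.comp]
  have h1 : Ψ (π k.2) (Xprior fib (τ ∘ a) (y ∘ stepMap a) k) =
      Ψ' (π (stepMap a k).2) (Xprior fib τ y (stepMap a k)) := by
    have e1 : (stepMap a k).2 = a k.2 := rfl
    rw [e1, hπ, hΨ]
    congr 1
    funext f
    exact Xprior_map a b hfib τ y k f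
  rw [h1]

lemma iter_map₂ (hπ : ∀ j, π (a j) = b (π j)) (hfib : ∀ f, fib (b f) = (fib f).map a.toEmbedding)
    (hΨ : ∀ e X, Ψ' (b e) X = Ψ e (fun f => X (b f))) (τ : J → ℝ) (R : ℕ × J → ℝ) (m : ℕ) :
    iter π fib Ψ (τ ∘ a) (R ∘ stepMap a) m = (iter π fib Ψ' τ R m) ∘ stepMap a := by
  induction m with
  | zero => rfl
  | succ m ih =>
    rw [iter_succ, iter_succ, ih, Tmap_map₂ a b hπ hfib hΨ]

end Two

/-! ### Limit by limsup -/

/-- The solution as a limsup of the Picard iterates. -/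
def GsolL (π : J → E) (fib : E → Finset J) (Ψ : E → (E → ℝ) → ℝ) (τ : J → ℝ) (R : ℕ × J → ℝ)
    (k : ℕ × J) : ℝ :=
  limsup (fun m => iter π fib Ψ τ R m k) atTop

lemma GsolL_eq_Gsol {π : J → E} {fib : E → Finset J} {Ψ : E → (E → ℝ) → ℝ} (hd : DriftOK Ψ)
    (hfib : ∀ f, (fib f).card ≤ 2) (τ : J → ℝ) (R : ℕ × J → ℝ) :
    GsolL π fib Ψ τ R = Gsol π fib Ψ τ R := by
  funext k
  exact (iter_tendsto hd hfib τ R k).limsup_eq

/-- The factor map built with `GsolL`. -/
def ThetaL (π : J → E) (fib : E → Finset J) (Ψ : E → (E → ℝ) → ℝ) (τ : J → ℝ) (R : ℕ × J → ℝ) :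
    E → Bool :=
  recS fib (GsolL π fib Ψ τ R)

lemma ThetaL_eq_Theta {π : J → E} {fib : E → Finset J} {Ψ : E → (E → ℝ) → ℝ} (hd : DriftOK Ψ)
    (hfib : ∀ f, (fib f).card ≤ 2) (τ : J → ℝ) (R : ℕ × J → ℝ) :
    ThetaL π fib Ψ τ R = Theta π fib Ψ (τ, R) := by
  unfold ThetaL Theta
  rw [GsolL_eq_Gsol hd hfib]

lemma GsolL_map₂ {π : J → E} {fib : E → Finset J} {Ψ Ψ' : E → (E → ℝ) → ℝ} (a : J ≃ J) (b : E ≃ E)
    (hπ : ∀ j, π (a j) = b (π j)) (hfib : ∀ f, fib (b f) = (fib f).map a.toEmbedding)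
    (hΨ : ∀ e X, Ψ' (b e) X = Ψ e (fun f => X (b f))) (τ : J → ℝ) (R : ℕ × J → ℝ) :
    GsolL π fib Ψ (τ ∘ a) (R ∘ stepMap a) = (GsolL π fib Ψ' τ R) ∘ stepMap a := by
  funext k
  unfold GsolL
  simp only [iter_map₂ a b hπ hfib hΨ, Function.comp]

lemma ThetaL_map₂ {π : J → E} {fib : E → Finset J} {Ψ Ψ' : E → (E → ℝ) → ℝ} (a : J ≃ J) (b : E ≃ E)
    (hπ : ∀ j, π (a j) = b (π j)) (hfib : ∀ f, fib (b f) = (fib f).map a.toEmbedding)
    (hΨ : ∀ e X, Ψ' (b e) X = Ψ e (fun f => X (b f))) (τ : J → ℝ) (R : ℕ × J → ℝ) (e : E) :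
    ThetaL π fib Ψ (τ ∘ a) (R ∘ stepMap a) e = ThetaL π fib Ψ' τ R (b e) := by
  unfold ThetaL
  rw [GsolL_map₂ a b hπ hfib hΨ, recS_map fib a b hfib]

/-! ### Active coordinates -/

section Active

variable {π : J → E} {fib : E → Finset J} {Ψ : E → (E → ℝ) → ℝ} (Act : E → Prop)

lemma Xprior_congr_active (hfib : ∀ f j, j ∈ fib f ↔ π j = f) {τ τ' : J → ℝ}
    (hτ : ∀ j, Act (π j) → τ j = τ' j) {y y' : ℕ × J → ℝ}
    (hy : ∀ k : ℕ × J, Act (π k.2) → y k = y' k) {k : ℕ × J} (hk : Act (π k.2)) {f : E}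
    (hf : Act f) : Xprior fib τ y k f = Xprior fib τ' y' k f := by
  unfold Xprior
  refine Finset.sum_congr rfl fun i _ => Finset.sum_congr rfl fun j hj => ?_
  have hjf : π j = f := (hfib f j).mp hj
  have hj' : Act (π j) := hjf ▸ hf
  have h1 : prec τ (i, j) k ↔ prec τ' (i, j) k := by
    unfold prec
    simp only [hτ j hj', hτ k.2 hk]
  have h2 : y (i, j) = y' (i, j) := hy (i, j) hj'
  simp only [h1, h2]

lemma iter_congr_active (hfib : ∀ f j, j ∈ fib f ↔ π j = f)
    (hΨ : ∀ e X X', Act e → (∀ f, Act f → X f = X' f) → Ψ e X = Ψ e X') {τ τ' : J → ℝ}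
    (hτ : ∀ j, Act (π j) → τ j = τ' j) {R R' : ℕ × J → ℝ}
    (hR : ∀ k : ℕ × J, Act (π k.2) → R k = R' k) (m : ℕ) :
    ∀ k : ℕ × J, Act (π k.2) → iter π fib Ψ τ R m k = iter π fib Ψ τ' R' m k := by
  induction m with
  | zero => exact fun _ _ => rfl
  | succ m ih =>
    intro k hk
    rw [iter_succ, iter_succ]
    unfold Tmap
    rw [hR k hk, ih k hk,
      hΨ (π k.2) _ _ hk fun f hf => Xprior_congr_active Act hfib hτ ih hk hf]

lemma ThetaL_congr_active (hfib : ∀ f j, j ∈ fib f ↔ π j = f)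
    (hΨ : ∀ e X X', Act e → (∀ f, Act f → X f = X' f) → Ψ e X = Ψ e X') {τ τ' : J → ℝ}
    (hτ : ∀ j, Act (π j) → τ j = τ' j) {R R' : ℕ × J → ℝ}
    (hR : ∀ k : ℕ × J, Act (π k.2) → R k = R' k) {e : E} (he : Act e) :
    ThetaL π fib Ψ τ R e = ThetaL π fib Ψ τ' R' e := by
  unfold ThetaL recS
  have key : ∀ j ∈ fib e, ∀ n, avgSeq (GsolL π fib Ψ τ R) j n = avgSeq (GsolL π fib Ψ τ' R') j n := by
    intro j hj n
    have hj' : Act (π j) := ((hfib e j).mp hj) ▸ he
    unfold avgSeq GsolL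
    congr 1
    refine Finset.sum_congr rfl fun i _ => ?_
    congr 1
    funext m
    exact iter_congr_active Act hfib hΨ hτ hR m (i, j) hj'
  rw [decide_eq_decide]
  constructor
  · rintro ⟨j, hj, h⟩
    refine ⟨j, hj, ?_⟩
    simpa only [funext (key j hj)] using h
  · rintro ⟨j, hj, h⟩
    refine ⟨j, hj, ?_⟩
    simpa only [funext (key j hj)] using h

end Active

/-! ### Measurability with parameters -/

section Param

variable {π : J → E} {fib : E → Finset J} {A : Type*} [MeasurableSpace A]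
  {Ψ : A → E → (E → ℝ) → ℝ}

lemma measurable_Tmap_param (hΨ : ∀ e, Measurable fun q : A × (E → ℝ) => Ψ q.1 e q.2)
    {t : A → J → ℝ} (ht : ∀ j, Measurable fun a => t a j) {r g : A → ℕ × J → ℝ}
    (hr : ∀ l, Measurable fun a => r a l) (hg : ∀ l, Measurable fun a => g a l) (k : ℕ × J) :
    Measurable fun a => Tmap π fib (Ψ a) (t a) (r a) (g a) k := by
  unfold Tmap
  refine measurable_clip.comp ?_
  have h1 : Measurable fun a => Ψ a (π k.2) (Xprior fib (t a) (g a) k) :=
    (hΨ (π k.2)).comp (measurable_id.prodMk (measurable_Xprior ht hg k))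
  exact (hr k).sub ((h1.const_mul eps).mul (((hg k).pow_const 2).sub (hg k)))

lemma measurable_iter_param (hΨ : ∀ e, Measurable fun q : A × (E → ℝ) => Ψ q.1 e q.2)
    {t : A → J → ℝ} (ht : ∀ j, Measurable fun a => t a j) {r : A → ℕ × J → ℝ}
    (hr : ∀ l, Measurable fun a => r a l) (m : ℕ) (k : ℕ × J) :
    Measurable fun a => iter π fib (Ψ a) (t a) (r a) m k := by
  induction m generalizing k with
  | zero => simp [iter]
  | succ m ih =>
    simp only [iter_succ]
    exact measurable_Tmap_param hΨ ht hr (fun l => ih l) k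

lemma measurable_GsolL_param (hΨ : ∀ e, Measurable fun q : A × (E → ℝ) => Ψ q.1 e q.2)
    {t : A → J → ℝ} (ht : ∀ j, Measurable fun a => t a j) {r : A → ℕ × J → ℝ}
    (hr : ∀ l, Measurable fun a => r a l) (k : ℕ × J) :
    Measurable fun a => GsolL π fib (Ψ a) (t a) (r a) k := by
  unfold GsolL
  exact Measurable.limsup fun m => measurable_iter_param hΨ ht hr m k

lemma measurable_ThetaL_param (hΨ : ∀ e, Measurable fun q : A × (E → ℝ) => Ψ q.1 e q.2)
    {t : A → J → ℝ} (ht : ∀ j, Measurable fun a => t a j) {r : A → ℕ × J → ℝ}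
    (hr : ∀ l, Measurable fun a => r a l) (e : E) :
    Measurable fun a => ThetaL π fib (Ψ a) (t a) (r a) e := by
  have h1 : Measurable fun a => GsolL π fib (Ψ a) (t a) (r a) :=
    measurable_pi_iff.mpr fun k => measurable_GsolL_param hΨ ht hr k
  exact (measurable_pi_apply e).comp ((measurable_recS fib).comp h1)

end Param

/-! ### Countable case analysis -/

/-- Gluing countably many measurable functions along a measurable countable partition. -/
lemma measurable_of_countable_cases {A B C : Type*} [MeasurableSpace A] [MeasurableSpace B]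
    [Countable C] {h : A → C} (hh : ∀ c, MeasurableSet {x | h x = c}) {g : C → A → B}
    (hg : ∀ c, Measurable (g c)) : Measurable fun x => g (h x) x := by
  intro S hS
  have : (fun x => g (h x) x) ⁻¹' S = ⋃ c, ({x | h x = c} ∩ g c ⁻¹' S) := by
    ext x
    simp only [Set.mem_preimage, Set.mem_iUnion, Set.mem_inter_iff, Set.mem_ofPred_eq,
      exists_eq_left']
  rw [this]
  exact MeasurableSet.iUnion fun c => (hh c).inter (hg c hS)

/-- Level sets of a function of a random subset of `ℕ` which is constant on infinite sets. -/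
lemma measurableSet_fn_set {A C : Type*} [MeasurableSpace A] {S : A → Set ℕ}
    (hS : ∀ x, MeasurableSet {a | x ∈ S a}) (f : Set ℕ → C) (c0 : C)
    (hf : ∀ s : Set ℕ, s.Infinite → f s = c0) (c : C) : MeasurableSet {a | f (S a) = c} := by
  have hW : ∀ W : Set ℕ, MeasurableSet {a | S a = W} := by
    intro W
    have : {a | S a = W} = ⋂ x, {a | x ∈ S a ↔ x ∈ W} := by
      ext a
      simp [Set.ext_iff]
    rw [this]
    refine MeasurableSet.iInter fun x => ?_
    by_cases hx : x ∈ W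
    · have e : {a | x ∈ S a ↔ x ∈ W} = {a | x ∈ S a} := by
        ext a
        simp [hx]
      rw [e]
      exact hS x
    · have e : {a | x ∈ S a ↔ x ∈ W} = {a | x ∈ S a}ᶜ := by
        ext a
        simp [hx]
      rw [e]
      exact (hS x).compl
  have hfin : MeasurableSet {a | (S a).Finite} := by
    have : {a | (S a).Finite} = ⋃ W : Finset ℕ, {a | S a = (W : Set ℕ)} := by
      ext a
      simp only [Set.mem_ofPred_eq, Set.mem_iUnion]
      constructor
      · intro h
        exact ⟨h.toFinset, by simp⟩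
      · rintro ⟨W, hW⟩
        rw [hW]
        exact W.finite_toSet
    rw [this]
    exact MeasurableSet.iUnion fun W => hW _
  have : {a | f (S a) = c} =
      (⋃ W : Finset ℕ, {a | S a = (W : Set ℕ) ∧ f (W : Set ℕ) = c}) ∪
        {a | ¬ (S a).Finite ∧ c0 = c} := by
    ext a
    simp only [Set.mem_ofPred_eq, Set.mem_union, Set.mem_iUnion]
    constructor
    · intro h
      by_cases ha : (S a).Finite
      · left
        refine ⟨ha.toFinset, by simp, ?_⟩
        simpa using h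
      · right
        exact ⟨ha, by rw [← hf _ ha]; exact h⟩
    · rintro (⟨W, hW, hc⟩ | ⟨ha, hc⟩)
      · rw [hW]
        exact hc
      · rw [hf _ ha]
        exact hc
  rw [this]
  refine MeasurableSet.union (MeasurableSet.iUnion fun W => ?_) ?_
  · by_cases hc : f (W : Set ℕ) = c
    · simpa [hc] using hW _
    · simp [hc]
  · by_cases hc : c0 = c
    · have e : {a | ¬ (S a).Finite ∧ c0 = c} = {a | (S a).Finite}ᶜ := by
        ext a
        simp [hc]
      rw [e]
      exact hfin.compl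
    · simp [hc]

end

end Vale.Agent.Lib.P143
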