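import Vale.Agent.Lib.P143.ExtLaw
import Vale.Agent.Lib.P143.Invariance2
import Vale.Agent.Lib.P143.PicardExt
import Vale.Agent.Lib.P143.FUSFExists

/-!
# P143: the drift as an explicit formula in the graph
-/

namespace Vale.Agent.Lib.P143

open MeasureTheory Filter Topology Finset

open scoped Classical

noncomputable section

/-- Oriented pairs to unordered pairs. -/
def piS (j : ℕ × ℕ) : Sym2 ℕ := s(j.1, j.2)

/-- The orientations of an unordered pair. -/
def fibS : Sym2 ℕ → Finset (ℕ × ℕ) :=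
  Sym2.lift ⟨fun u v => {(u, v), (v, u)}, by
    intro u v
    ext x
    simp only [Finset.mem_insert, Finset.mem_singleton]
    tauto⟩

lemma mem_fibS (f : Sym2 ℕ) (j : ℕ × ℕ) : j ∈ fibS f ↔ piS j = f := by
  induction f using Sym2.ind with
  | _ u v =>
    obtain ⟨a, b⟩ := j
    simp only [fibS, Sym2.lift_mk, Finset.mem_insert, Finset.mem_singleton, piS, Sym2.eq_iff,
      Prod.mk.injEq]

lemma card_fibS (f : Sym2 ℕ) : (fibS f).card ≤ 2 := by
  induction f using Sym2.ind with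
  | _ u v =>
    simp only [fibS, Sym2.lift_mk]
    exact Finset.card_le_two

lemma fibS_nonempty (f : Sym2 ℕ) : (fibS f).Nonempty := by
  induction f using Sym2.ind with
  | _ u v =>
    exact ⟨(u, v), (mem_fibS _ _).mpr rfl⟩

/-- A permutation of the vertices acting on unordered pairs. -/
def symEquiv (g : Equiv.Perm ℕ) : Sym2 ℕ ≃ Sym2 ℕ where
  toFun := Sym2.map g
  invFun := Sym2.map g.symm
  left_inv := fun z => by
    rw [Sym2.map_map]
    have : (g.symm ∘ g : ℕ → ℕ) = id := by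
      funext v
      simp
    rw [this, Sym2.map_id]
    rfl
  right_inv := fun z => by
    rw [Sym2.map_map]
    have : (g ∘ g.symm : ℕ → ℕ) = id := by
      funext v
      simp
    rw [this, Sym2.map_id]
    rfl

/-- A permutation of the vertices acting on ordered pairs. -/
def pairEquiv (g : Equiv.Perm ℕ) : ℕ × ℕ ≃ ℕ × ℕ := Equiv.prodCongr g g

lemma piS_pairEquiv (g : Equiv.Perm ℕ) (j : ℕ × ℕ) :
    piS (pairEquiv g j) = symEquiv g (piS j) := rfl

lemma fibS_symEquiv (g : Equiv.Perm ℕ) (f : Sym2 ℕ) :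
    fibS (symEquiv g f) = (fibS f).map (pairEquiv g).toEmbedding := by
  ext j
  rw [mem_fibS, Finset.mem_map]
  constructor
  · intro h
    refine ⟨(pairEquiv g).symm j, ?_, by simp⟩
    rw [mem_fibS]
    apply (symEquiv g).injective
    rw [← piS_pairEquiv, ← h]
    simp
  · rintro ⟨j', hj', rfl⟩
    have h := (mem_fibS _ _).mp hj'
    rw [Equiv.coe_toEmbedding, piS_pairEquiv, h]

/-- The tilted mean formula in infinite volume. -/
def Mform (G : SimpleGraph ℕ) (e : Sym2 ℕ) (F : Finset (Sym2 ℕ)) (X : Sym2 ℕ → ℝ) : ℝ :=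
  limsup (fun n => fmM (stF (Hcan G n)) e F X) atTop

/-- The drift, as a formula in the graph. -/
def PsiF (G : SimpleGraph ℕ) (e : Sym2 ℕ) (X : Sym2 ℕ → ℝ) : ℝ :=
  limsup (fun m => Mform G e (BG G e m) X) atTop

variable {G : SimpleGraph ℕ}

lemma Mform_eq (hG : IsGoodGraph G) {μ : Measure (G.edgeSet → Bool)} [IsProbabilityMeasure μ]
    (hμ : IsFUSF G μ) {e : Sym2 ℕ} {F : Finset (Sym2 ℕ)} (he : e ∈ F) (X : Sym2 ℕ → ℝ) :
    Mform G e F X = tiltM (extLaw μ) e F X :=
  (tendsto_fmM (Hcan_exhaustion G hG.1) hμ e F he X).limsup_eq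

lemma PsiF_eq (hG : IsGoodGraph G) {μ : Measure (G.edgeSet → Bool)} [IsProbabilityMeasure μ]
    (hμ : IsFUSF G μ) : PsiF G = Psi (extLaw μ) (BG G) := by
  funext e X
  unfold PsiF Psi
  congr 1
  funext m
  exact Mform_eq hG hμ (self_mem_BG hG.2 e m) X

lemma coreData_extLaw (hG : IsGoodGraph G) {μ : Measure (G.edgeSet → Bool)}
    [IsProbabilityMeasure μ] (hμ : IsFUSF G μ) : CoreData (extLaw μ) piS fibS (BG G) where
  hfib := mem_fibS
  hcard := card_fibS
  hne := fibS_nonempty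
  hBmono := BG_mono hG.2
  hBex := exists_mem_BG hG
  hBself := self_mem_BG hG.2
  hL := tiltLipschitz_extLaw (tiltLipschitz_of_isFUSF (Hcan_exhaustion G hG.1) hμ)

/-- The drift only sees the edges. -/
lemma PsiF_congr (hG : IsGoodGraph G) (e : Sym2 ℕ) {X X' : Sym2 ℕ → ℝ}
    (h : ∀ f ∈ G.edgeSet, X f = X' f) : PsiF G e X = PsiF G e X' := by
  obtain ⟨μ, hp, hμ⟩ := exists_isFUSF G
  rw [PsiF_eq hG hμ]
  unfold Psi
  congr 1
  funext m
  exact tiltM_extLaw_congr μ e _ h

/-! ### Relabelling -/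

lemma mem_edgeSet_relabel (g : Equiv.Perm ℕ) (G : SimpleGraph ℕ) (e : Sym2 ℕ) :
    Sym2.map g e ∈ (G.map g.toEmbedding).edgeSet ↔ e ∈ G.edgeSet := by
  induction e using Sym2.ind with
  | _ u v =>
    simp only [Sym2.map_mk, SimpleGraph.mem_edgeSet]
    exact relabel_adj g G u v

lemma extCfg_relabel (g : Equiv.Perm ℕ) (G : SimpleGraph ℕ)
    (ω : (G.map g.toEmbedding).edgeSet → Bool) :
    (fun e => extCfg (G.map g.toEmbedding) ω (Sym2.map g e)) =
      extCfg G (fun e => ω ((relabelIso g G).mapEdgeSet e)) := by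
  funext e
  by_cases he : e ∈ G.edgeSet
  · have he' := (mem_edgeSet_relabel g G e).mpr he
    simp only [extCfg, he, he', dite_true]
    rfl
  · have he' : Sym2.map g e ∉ (G.map g.toEmbedding).edgeSet :=
      fun h => he ((mem_edgeSet_relabel g G e).mp h)
    simp only [extCfg, he, he', dite_false]

lemma extLaw_relabel (g : Equiv.Perm ℕ) (hG : IsGoodGraph G) {μ : Measure (G.edgeSet → Bool)}
    [IsProbabilityMeasure μ] (hμ : IsFUSF G μ)
    {μ' : Measure ((G.map g.toEmbedding).edgeSet → Bool)} [IsProbabilityMeasure μ']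
    (hμ' : IsFUSF (G.map g.toEmbedding) μ') :
    (extLaw μ').map (fun ω e => ω (symEquiv g e)) = extLaw μ := by
  have hm1 : Measurable fun (ω : Sym2 ℕ → Bool) (e : Sym2 ℕ) => ω (symEquiv g e) :=
    measurable_pi_iff.mpr fun e => measurable_pi_apply _
  have hm2 : Measurable fun (ω : (G.map g.toEmbedding).edgeSet → Bool) (e : G.edgeSet) =>
      ω ((relabelIso g G).mapEdgeSet e) :=
    measurable_pi_iff.mpr fun e => measurable_pi_apply _
  have h := map_eq_of_isFUSF₂ (Hcan_exhaustion G hG.1) hμ hμ' (relabelIso g G)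
  unfold extLaw
  rw [Measure.map_map hm1 measurable_extCfg]
  conv_rhs => rw [← h]
  rw [Measure.map_map measurable_extCfg hm2]
  congr 1
  funext ω
  exact extCfg_relabel g G ω

lemma BG_symEquiv (g : Equiv.Perm ℕ) (hG : IsGoodGraph G) (e : Sym2 ℕ) (m : ℕ) :
    BG (G.map g.toEmbedding) (symEquiv g e) m = (BG G e m).map (symEquiv g).toEmbedding :=
  BG_relabel g hG e m

/-- Equivariance of the drift under relabelling. -/
lemma PsiF_relabel (g : Equiv.Perm ℕ) (hG : IsGoodGraph G) (e : Sym2 ℕ) (X : Sym2 ℕ → ℝ) :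
    PsiF (G.map g.toEmbedding) (symEquiv g e) X = PsiF G e (fun f => X (symEquiv g f)) := by
  obtain ⟨μ, hp, hμ⟩ := exists_isFUSF G
  obtain ⟨μ', hp', hμ'⟩ := exists_isFUSF (G.map g.toEmbedding)
  have hG' := goodGraph_relabel g hG
  rw [PsiF_eq hG hμ, PsiF_eq hG' hμ']
  unfold Psi
  congr 1
  funext m
  rw [BG_symEquiv g hG e m]
  exact tiltM_map₂ _ _ (symEquiv g) (extLaw_relabel g hG hμ hμ') e _ X

end

end Vale.Agent.Lib.P143
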