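import Vale.Agent.Lib.P143.Defs

/-!
# P143: definitions for the statement on graphs with vertex set `ℕ`
-/

namespace Vale.Agent.Lib.P143

/-- The graph on `ℕ` coded by adjacency bits: `u ~ v` iff `u ≠ v` and one of the bits of `(u,v)`
and `(v,u)` is set.  Every graph on `ℕ` arises in this way; the Borel structure on graphs is the
one of the Cantor space of bits. -/
def graphOfBits (a : ℕ × ℕ → Bool) : SimpleGraph ℕ :=
  SimpleGraph.fromRel fun u v => a (u, v) = true

/-- Connected and locally finite. -/
def IsGoodGraph (G : SimpleGraph ℕ) : Prop :=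
  G.Connected ∧ ∀ v, (G.neighborSet v).Finite

end Vale.Agent.Lib.P143
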