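import Vale.Agent.Lib.P143.RankNoise

/-!
# P143: measurability in the graph
-/

namespace Vale.Agent.Lib.P143

open MeasureTheory Filter Topology Finset

open scoped Classical

noncomputable section

/-- The bits of a graph. -/
def bitsOf (G : SimpleGraph ℕ) (p : ℕ × ℕ) : Bool := decide (G.Adj p.1 p.2)

lemma graphOfBits_bitsOf (G : SimpleGraph ℕ) : graphOfBits (bitsOf G) = G := by
  ext u v
  simp only [graphOfBits, SimpleGraph.fromRel_adj, bitsOf, decide_eq_true_eq]
  constructor
  · rintro ⟨_, h | h⟩
    · exact h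
    · exact h.symm
  · intro h
    exact ⟨h.ne, Or.inl h⟩

variable {A : Type*} [MeasurableSpace A]

lemma measurableSet_adj {α : A → ℕ × ℕ → Bool} (hα : Measurable α) (u v : ℕ) :
    MeasurableSet {x | (graphOfBits (α x)).Adj u v} := by
  have h : ∀ p : ℕ × ℕ, MeasurableSet {x | α x p = true} := fun p =>
    ((measurable_pi_apply p).comp hα) (measurableSet_singleton true)
  by_cases huv : u = v
  · have : {x | (graphOfBits (α x)).Adj u v} = ∅ := by
      ext x
      simp [graphOfBits, huv]
    rw [this]
    exact MeasurableSet.empty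
  · have : {x | (graphOfBits (α x)).Adj u v} = {x | α x (u, v) = true} ∪ {x | α x (v, u) = true} := by
      ext x
      simp [graphOfBits, SimpleGraph.fromRel_adj, huv]
    rw [this]
    exact (h _).union (h _)

lemma measurableSet_mem_ballV {α : A → ℕ × ℕ → Bool} (hα : Measurable α) (u x m : ℕ) :
    MeasurableSet {a | x ∈ ballV (graphOfBits (α a)) u m} := by
  induction m generalizing x with
  | zero =>
    by_cases h : x = u
    · simp [ballV, h]
    · simp [ballV, h]
  | succ m ih =>
    have : {a | x ∈ ballV (graphOfBits (α a)) u (m + 1)} =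
        {a | x ∈ ballV (graphOfBits (α a)) u m} ∪
          ⋃ w, ({a | w ∈ ballV (graphOfBits (α a)) u m} ∩ {a | (graphOfBits (α a)).Adj w x}) := by
      ext a
      simp [ballV]
    rw [this]
    exact (ih x).union (MeasurableSet.iUnion fun w => (ih w).inter (measurableSet_adj hα w x))

lemma measurableSet_mem_eBall {α : A → ℕ × ℕ → Bool} (hα : Measurable α) (e : Sym2 ℕ) (x m : ℕ) :
    MeasurableSet {a | x ∈ eBall (graphOfBits (α a)) e m} := by
  have : {a | x ∈ eBall (graphOfBits (α a)) e m} =
      ⋃ u, {a | u ∈ e ∧ x ∈ ballV (graphOfBits (α a)) u m} := by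
    ext a
    simp [eBall]
  rw [this]
  refine MeasurableSet.iUnion fun u => ?_
  by_cases hu : u ∈ e
  · simpa [hu] using measurableSet_mem_ballV hα u x m
  · simp [hu]

lemma measurableSet_BG_eq {α : A → ℕ × ℕ → Bool} (hα : Measurable α) (e : Sym2 ℕ) (m : ℕ)
    (c : Finset (Sym2 ℕ)) : MeasurableSet {a | BG (graphOfBits (α a)) e m = c} :=
  measurableSet_fn_set (S := fun a => eBall (graphOfBits (α a)) e m)
    (fun x => measurableSet_mem_eBall hα e x m)
    (fun s => if h : s.Finite then h.toFinset.sym2 else ∅) ∅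
    (fun _ hs => dif_neg hs) c

lemma measurable_PsiF (e : Sym2 ℕ) :
    Measurable fun p : (ℕ × ℕ → Bool) × (Sym2 ℕ → ℝ) => PsiF (graphOfBits p.1) e p.2 := by
  unfold PsiF Mform
  refine Measurable.limsup fun m => Measurable.limsup fun n => ?_
  exact measurable_of_countable_cases
    (h := fun p : (ℕ × ℕ → Bool) × (Sym2 ℕ → ℝ) => BG (graphOfBits p.1) e m)
    (g := fun c p => fmM (stF (Hcan (graphOfBits p.1) n)) e c p.2)
    (fun c => measurableSet_BG_eq measurable_fst e m c)
    (fun c => measurable_fmM_Hcan n e c)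

lemma measurable_PsiF_param {α : A → ℕ × ℕ → Bool} (hα : Measurable α) (e : Sym2 ℕ) :
    Measurable fun q : A × (Sym2 ℕ → ℝ) => PsiF (graphOfBits (α q.1)) e q.2 := by
  have h : Measurable fun q : A × (Sym2 ℕ → ℝ) => ((α q.1, q.2) : (ℕ × ℕ → Bool) × (Sym2 ℕ → ℝ)) :=
    (hα.comp measurable_fst).prodMk measurable_snd
  have h2 := (measurable_PsiF e).comp h
  exact h2

lemma measurableSet_rk_eq {α : A → ℕ × ℕ → Bool} (hα : Measurable α) {L : A → ℕ → ℝ}
    (hL : ∀ w, Measurable fun x => L x w) (u v r : ℕ) :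
    MeasurableSet {x | rk (graphOfBits (α x)) (L x) u v = r} :=
  measurableSet_fn_set (S := fun x => {w | (graphOfBits (α x)).Adj u w ∧ L x w < L x v})
    (fun w => (measurableSet_adj hα u w).inter (measurableSet_lt (hL w) (hL v)))
    Set.ncard 0 (fun _ hs => hs.ncard) r

lemma measurable_tauN_param {α : A → ℕ × ℕ → Bool} (hα : Measurable α) {L : A → ℕ → ℝ}
    (hL : ∀ w, Measurable fun x => L x w) {W : A → NoiseIdx → ℝ}
    (hW : ∀ i, Measurable fun x => W x i) (j : ℕ × ℕ) :
    Measurable fun x => tauN (graphOfBits (α x)) (L x) (W x) j := by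
  unfold tauN
  refine Measurable.ite (measurableSet_adj hα j.1 j.2) ?_ measurable_const
  exact measurable_of_countable_cases (h := fun x => rk (graphOfBits (α x)) (L x) j.1 j.2)
    (g := fun r x => W x (j.1, r, none)) (measurableSet_rk_eq hα hL j.1 j.2) (fun r => hW _)

lemma measurable_RN_param {α : A → ℕ × ℕ → Bool} (hα : Measurable α) {L : A → ℕ → ℝ}
    (hL : ∀ w, Measurable fun x => L x w) {W : A → NoiseIdx → ℝ}
    (hW : ∀ i, Measurable fun x => W x i) (k : ℕ × (ℕ × ℕ)) :
    Measurable fun x => RN (graphOfBits (α x)) (L x) (W x) k := by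
  unfold RN
  refine Measurable.ite (measurableSet_adj hα k.2.1 k.2.2) ?_ measurable_const
  exact measurable_of_countable_cases (h := fun x => rk (graphOfBits (α x)) (L x) k.2.1 k.2.2)
    (g := fun r x => W x (k.2.1, r, some k.1)) (measurableSet_rk_eq hα hL k.2.1 k.2.2)
    (fun r => hW _)

/-- The factor map of a graph, from the labels `L` and the noise `W`. -/
def PhiLW (G : SimpleGraph ℕ) (L : ℕ → ℝ) (W : NoiseIdx → ℝ) : Sym2 ℕ → Bool :=
  ThetaL piS fibS (PsiF G) (tauN G L W) (RN G L W)

lemma measurable_PhiLW_param {α : A → ℕ × ℕ → Bool} (hα : Measurable α) {L : A → ℕ → ℝ}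
    (hL : ∀ w, Measurable fun x => L x w) {W : A → NoiseIdx → ℝ}
    (hW : ∀ i, Measurable fun x => W x i) (e : Sym2 ℕ) :
    Measurable fun x => PhiLW (graphOfBits (α x)) (L x) (W x) e :=
  measurable_ThetaL_param (π := piS) (fib := fibS)
    (Ψ := fun x => PsiF (graphOfBits (α x))) (fun e => measurable_PsiF_param hα e)
    (measurable_tauN_param hα hL hW) (measurable_RN_param hα hL hW) e

/-- The factor map of a fixed graph is jointly measurable. -/
lemma measurable_PhiLW (G : SimpleGraph ℕ) :
    Measurable fun q : (ℕ → ℝ) × (NoiseIdx → ℝ) => restrCfg G (PhiLW G q.1 q.2) := by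
  refine measurable_pi_iff.mpr fun e => ?_
  have h := measurable_PhiLW_param (A := (ℕ → ℝ) × (NoiseIdx → ℝ))
    (α := fun _ => bitsOf G) measurable_const
    (L := fun q => q.1) (fun w => (measurable_pi_apply w).comp measurable_fst)
    (W := fun q => q.2) (fun i => (measurable_pi_apply i).comp measurable_snd) e.1
  simp only [graphOfBits_bitsOf] at h
  exact h

/-- The law of the factor map for fixed injective labels. -/
theorem law_fixed_L {G : SimpleGraph ℕ} (hG : IsGoodGraph G) {μ : Measure (G.edgeSet → Bool)}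
    [IsProbabilityMeasure μ] (hμ : IsFUSF G μ) {L : ℕ → ℝ} (hL : Function.Injective L) :
    (Measure.infinitePi (fun _ : NoiseIdx => unit)).map
      (fun W => restrCfg G (PhiLW G L W)) = μ := by
  have hcore := coreData_extLaw hG hμ
  have hd : DriftOK (PsiF G) := by
    rw [PsiF_eq hG hμ]
    exact hcore.drift
  have hT := law_Theta hcore
  rw [← PsiF_eq hG hμ] at hT
  have hF := law_fullN hG.2 hL
  have hTm : Measurable (Theta piS fibS (PsiF G)) := by
    have := measurable_Theta hcore
    rwa [← PsiF_eq hG hμ] at this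
  have hFm := measurable_fullN G L
  have hWm : Measurable fun W : NoiseIdx → ℝ => restrCfg G (PhiLW G L W) := by
    have h := measurable_PhiLW G
    have hc : Measurable fun W : NoiseIdx → ℝ => ((L, W) : (ℕ → ℝ) × (NoiseIdx → ℝ)) :=
      measurable_const.prodMk measurable_id
    have h2 := h.comp hc
    exact h2
  have key : ∀ q, restrCfg G (Theta piS fibS (PsiF G) (fullN G L q)) =
      restrCfg G (PhiLW G L q.1) := by
    intro q
    funext e
    unfold restrCfg PhiLW
    rw [← ThetaL_eq_Theta hd card_fibS]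
    exact ThetaL_congr_active (fun f => f ∈ G.edgeSet) mem_fibS
      (fun e X X' _ hX => PsiF_congr hG e hX) (fun j hj => fullN_fst_active L q j hj)
      (fun k hk => fullN_snd_active L q k hk) e.2
  have e1 : ((Measure.infinitePi (fun _ : NoiseIdx => unit)).prod
      (Measure.infinitePi (fun _ : (ℕ × ℕ) ⊕ (ℕ × (ℕ × ℕ)) => unit))).map Prod.fst =
      Measure.infinitePi (fun _ : NoiseIdx => unit) := by
    rw [Measure.map_fst_prod]
    simp
  calc _ = (((Measure.infinitePi (fun _ : NoiseIdx => unit)).prod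
        (Measure.infinitePi (fun _ : (ℕ × ℕ) ⊕ (ℕ × (ℕ × ℕ)) => unit))).map Prod.fst).map
          (fun W => restrCfg G (PhiLW G L W)) := by rw [e1]
    _ = ((Measure.infinitePi (fun _ : NoiseIdx => unit)).prod
        (Measure.infinitePi (fun _ : (ℕ × ℕ) ⊕ (ℕ × (ℕ × ℕ)) => unit))).map
          (fun q => restrCfg G (PhiLW G L q.1)) := by
        rw [Measure.map_map hWm measurable_fst]
        rfl
    _ = ((Measure.infinitePi (fun _ : NoiseIdx => unit)).prod
        (Measure.infinitePi (fun _ : (ℕ × ℕ) ⊕ (ℕ × (ℕ × ℕ)) => unit))).map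
          (fun q => restrCfg G (Theta piS fibS (PsiF G) (fullN G L q))) := by
        simp only [key]
    _ = ((((Measure.infinitePi (fun _ : NoiseIdx => unit)).prod
        (Measure.infinitePi (fun _ : (ℕ × ℕ) ⊕ (ℕ × (ℕ × ℕ)) => unit))).map (fullN G L)).map
          (Theta piS fibS (PsiF G))).map (restrCfg G) := by
        rw [Measure.map_map hTm hFm, Measure.map_map measurable_restrCfg (hTm.comp hFm)]
        rfl
    _ = μ := by
        rw [hF, hT]
        exact map_restr_extLaw μ

/-- The law of the factor map for random labels. -/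
theorem law_PhiLW {G : SimpleGraph ℕ} (hG : IsGoodGraph G) {μ : Measure (G.edgeSet → Bool)}
    [IsProbabilityMeasure μ] (hμ : IsFUSF G μ) :
    ((Measure.infinitePi (fun _ : ℕ => unit)).prod
      (Measure.infinitePi (fun _ : NoiseIdx => unit))).map
        (fun q => restrCfg G (PhiLW G q.1 q.2)) = μ := by
  have hT := measurable_PhiLW G
  ext S hS
  rw [Measure.map_apply hT hS, Measure.prod_apply (hT hS)]
  have hae : ∀ᵐ L ∂(Measure.infinitePi (fun _ : ℕ => unit)),
      (Measure.infinitePi (fun _ : NoiseIdx => unit))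
        (Prod.mk L ⁻¹' ((fun q : (ℕ → ℝ) × (NoiseIdx → ℝ) => restrCfg G (PhiLW G q.1 q.2)) ⁻¹' S))
        = μ S := by
    filter_upwards [ae_injective] with L hL
    have h1 := law_fixed_L hG hμ hL
    have hc : Measurable fun W : NoiseIdx → ℝ => ((L, W) : (ℕ → ℝ) × (NoiseIdx → ℝ)) :=
      measurable_const.prodMk measurable_id
    have hmeasR : Measurable fun W : NoiseIdx → ℝ => restrCfg G (PhiLW G L W) := by
      have h2 := hT.comp hc
      exact h2
    conv_rhs => rw [← h1]
    rw [Measure.map_apply hmeasR hS]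
    rfl
  rw [lintegral_congr_ae hae]
  simp

end

end Vale.Agent.Lib.P143
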