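import Vale.Agent.Lib.P143.Levy

/-!
# P143: the innovations are iid uniform
-/

namespace Vale.Agent.Lib.P143

open MeasureTheory Filter Topology Finset ProbabilityTheory

open scoped Classical ENNReal

noncomputable section

variable {E J : Type*}

lemma prec_irrefl (τ : J → ℝ) (k : ℕ × J) : ¬ prec τ k k := by
  simp [prec]

lemma prec_trans {τ : J → ℝ} {l m k : ℕ × J} (h1 : prec τ l m) (h2 : prec τ m k) : prec τ l k := by
  unfold prec at *
  rcases h1 with h1 | ⟨h1, h1'⟩ <;> rcases h2 with h2 | ⟨h2, h2'⟩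
  · left; omega
  · left; omega
  · left; omega
  · right; exact ⟨by omega, h1'.trans h2'⟩

lemma Xprior_dep (fib : E → Finset J) (τ : J → ℝ) (k : ℕ × J) : DepPrior τ k (fun y => Xprior fib τ y k) := by
  intro y y' h
  funext f
  unfold Xprior
  refine Finset.sum_congr rfl fun i _ => Finset.sum_congr rfl fun j _ => ?_
  by_cases hp : prec τ (i, j) k
  · rw [if_pos hp, if_pos hp, h _ hp]
  · rw [if_neg hp, if_neg hp]

lemma Xprior_dep' (fib : E → Finset J) {τ : J → ℝ} {k : ℕ × J} {y y' : ℕ × J → ℝ}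
    (h : ∀ l, prec τ l k → y l = y' l) : Xprior fib τ y k = Xprior fib τ y' k :=
  Xprior_dep fib τ k y y' h

/-- The integrals `A` and `B` of the transported indicator. -/
def Aint (t : Set ℝ) (c : ℝ) : ℝ := ∫ v, t.indicator (fun _ => (1 : ℝ)) (Tc c v) ∂unit

/-- See `Aint`. -/
def Bint (t : Set ℝ) (c : ℝ) : ℝ := ∫ v, t.indicator (fun _ => (1 : ℝ)) (Tc c v) * (2 * v - 1) ∂unit

lemma measurable_ind_Tc {t : Set ℝ} (ht : MeasurableSet t) :
    Measurable fun p : ℝ × ℝ => t.indicator (fun _ => (1 : ℝ)) (Tc p.1 p.2) :=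
  (measurable_const.indicator ht).comp measurable_Tc_joint

lemma measurable_Aint {t : Set ℝ} (ht : MeasurableSet t) : Measurable (Aint t) :=
  ((measurable_ind_Tc ht).stronglyMeasurable.integral_prod_right' (ν := unit)).measurable

lemma measurable_Bint {t : Set ℝ} (ht : MeasurableSet t) : Measurable (Bint t) := by
  have h : Measurable fun p : ℝ × ℝ => t.indicator (fun _ => (1 : ℝ)) (Tc p.1 p.2) * (2 * p.2 - 1) :=
    (measurable_ind_Tc ht).mul (by fun_prop)
  exact (h.stronglyMeasurable.integral_prod_right' (ν := unit)).measurable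

lemma abs_ind_le (t : Set ℝ) (x : ℝ) : |t.indicator (fun _ => (1 : ℝ)) x| ≤ 1 := by
  by_cases h : x ∈ t <;> simp [h]

lemma abs_Aint_le (t : Set ℝ) (c : ℝ) : |Aint t c| ≤ 1 := by
  have := norm_integral_le_of_norm_le_const (μ := unit) (C := 1)
    (f := fun v => t.indicator (fun _ => (1 : ℝ)) (Tc c v))
    (Eventually.of_forall fun v => by simpa using abs_ind_le t _)
  simpa [Aint] using this

lemma abs_Bint_le (t : Set ℝ) (c : ℝ) : |Bint t c| ≤ 1 := by
  have := norm_integral_le_of_norm_le_const (μ := unit) (C := 1)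
    (f := fun v => t.indicator (fun _ => (1 : ℝ)) (Tc c v) * (2 * v - 1)) (by
      filter_upwards [ae_unit_mem] with v hv
      rw [Real.norm_eq_abs, abs_mul]
      have h1 := abs_ind_le t (Tc c v)
      have h2 : |2 * v - 1| ≤ 1 := by
        rw [abs_le]
        constructor <;> linarith [hv.1, hv.2]
      calc _ ≤ (1 : ℝ) * 1 := mul_le_mul h1 h2 (abs_nonneg _) zero_le_one
        _ = 1 := one_mul 1)
  simpa [Bint] using this

lemma integrable_ind_Tc {t : Set ℝ} (ht : MeasurableSet t) (c : ℝ) :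
    Integrable (fun v => t.indicator (fun _ => (1 : ℝ)) (Tc c v)) unit :=
  Integrable.of_bound
    (((measurable_const.indicator ht).comp (measurable_Tc c)).aestronglyMeasurable) 1
    (Eventually.of_forall fun v => by simpa using abs_ind_le t _)

lemma integrable_ind_Tc_mul {t : Set ℝ} (ht : MeasurableSet t) (c : ℝ) :
    Integrable (fun v => t.indicator (fun _ => (1 : ℝ)) (Tc c v) * (2 * v - 1)) unit := by
  refine integrable_unit_of_bdd (C := 1)
    (((measurable_const.indicator ht).comp (measurable_Tc c)).mul (by fun_prop)) fun v hv => ?_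
  rw [abs_mul]
  have h1 := abs_ind_le t (Tc c v)
  have h2 : |2 * v - 1| ≤ 1 := by
    rw [abs_le]
    constructor <;> linarith [hv.1, hv.2]
  calc _ ≤ (1 : ℝ) * 1 := mul_le_mul h1 h2 (abs_nonneg _) zero_le_one
    _ = 1 := one_mul 1

/-- The expectation under `nu a` of the transported indicator. -/
lemma integral_nu_ind {t : Set ℝ} (ht : MeasurableSet t) (c a : ℝ) (ha : |a| ≤ 1) :
    ∫ v, t.indicator (fun _ => (1 : ℝ)) (Tc c v) ∂(nu a) = Aint t c + a * Bint t c := by
  rw [integral_nu a ha]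
  unfold Aint Bint
  rw [← integral_const_mul, ← integral_add (integrable_ind_Tc ht c)
    ((integrable_ind_Tc_mul ht c).const_mul a)]
  refine integral_congr_ae (Eventually.of_forall fun v => ?_)
  simp only [dens]
  ring

/-- Key identity from the transport. -/
lemma Aint_add {t : Set ℝ} (ht : MeasurableSet t) {c : ℝ} (hc : |c| ≤ 1) :
    Aint t c + c * Bint t c = unit.real t := by
  rw [← integral_nu_ind ht c c hc]
  have h := map_Tc_nu c hc
  have := isProb_nu c hc
  have h2 : ∫ x, t.indicator (fun _ => (1 : ℝ)) x ∂((nu c).map (Tc c)) =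
      ∫ v, t.indicator (fun _ => (1 : ℝ)) (Tc c v) ∂(nu c) :=
    integral_map (measurable_Tc c).aemeasurable (measurable_const.indicator ht).aestronglyMeasurable
  rw [← h2, h, integral_indicator ht]
  simp

variable {π : J → E} {fib : E → Finset J} {Ψ : E → (E → ℝ) → ℝ}

/-- One step: integrating the `k`-th observation. -/
lemma integral_Qs_step (hΨ : DriftOK Ψ) (τ : J → ℝ) (k : ℕ × J) (s : E → Bool)
    {h : (ℕ × J → ℝ) → ℝ} (hh : Measurable h) {C : ℝ} (hC : ∀ y, |h y| ≤ C)
    (hdep : DepPrior τ k h) {t : Set ℝ} (ht : MeasurableSet t) :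
    ∫ y, h y * t.indicator (fun _ => (1 : ℝ)) (Inn π fib Ψ τ y k) ∂(Qs π s) =
      ∫ y, h y * (Aint t (eps * Ψ (π k.2) (Xprior fib τ y k)) +
        eps * sg (s (π k.2)) * Bint t (eps * Ψ (π k.2) (Xprior fib τ y k))) ∂(Qs π s) := by
  have hC0 : 0 ≤ C := (abs_nonneg _).trans (hC (fun _ => 0))
  have hInn := measurable_Inn (π := π) (fib := fib) hΨ τ k
  have hF : Measurable fun y => h y * t.indicator (fun _ => (1 : ℝ)) (Inn π fib Ψ τ y k) :=
    hh.mul ((measurable_const.indicator ht).comp hInn)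
  have hbd : ∀ y, |h y * t.indicator (fun _ => (1 : ℝ)) (Inn π fib Ψ τ y k)| ≤ C := by
    intro y
    rw [abs_mul]
    calc _ ≤ C * 1 := mul_le_mul (hC y) (abs_ind_le _ _) (abs_nonneg _) hC0
      _ = C := mul_one C
  unfold Qs
  rw [integral_infinitePi_update (fun k : ℕ × J => nuB (s (π k.2))) k hF hbd]
  refine integral_congr_ae (Eventually.of_forall fun y => ?_)
  simp only
  have hup : ∀ v, ∀ l, prec τ l k → Function.update y k v l = y l := by
    intro v l hl
    have hne : l ≠ k := by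
      rintro rfl
      exact prec_irrefl τ _ hl
    exact Function.update_of_ne hne _ _
  have e1 : ∀ v, h (Function.update y k v) = h y := fun v => hdep _ _ (hup v)
  have e2 : ∀ v, Inn π fib Ψ τ (Function.update y k v) k =
      Tc (eps * Ψ (π k.2) (Xprior fib τ y k)) v := by
    intro v
    unfold Inn
    rw [Xprior_dep' fib (hup v), Function.update_self]
  simp only [e1, e2]
  rw [integral_const_mul]
  congr 1
  unfold nuB
  rw [integral_nu_ind ht _ _ (abs_eps_sg _)]

lemma measurable_drift (hΨ : DriftOK Ψ) (τ : J → ℝ) (k : ℕ × J) :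
    Measurable fun y : ℕ × J → ℝ => eps * Ψ (π k.2) (Xprior fib τ y k) :=
  ((hΨ.meas _).comp (measurable_Xprior (t := fun _ => τ) (fun _ => measurable_const)
    (fun l => measurable_pi_apply l) k)).const_mul eps

lemma abs_drift_le (hΨ : DriftOK Ψ) (e : E) (X : E → ℝ) : |eps * Ψ e X| ≤ 1 := by
  rw [abs_mul]
  have := hΨ.bdd e X
  have h2 : |eps| = 1 / 10 := by norm_num [eps]
  rw [h2]
  linarith

/-- The main step: the `k`-th innovation is uniform and independent of the past. -/
lemma integral_innovation_step (μ : Measure (E → Bool)) [IsProbabilityMeasure μ]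
    (hfib : ∀ f j, j ∈ fib f ↔ π j = f) (B : E → ℕ → Finset E)
    (hd : DriftOK (Psi μ B)) (τ : J → ℝ) (k : ℕ × J)
    (hB : Monotone (B (π k.2))) (hBex : ∀ f, ∃ n, f ∈ B (π k.2) n)
    {h : (ℕ × J → ℝ) → ℝ} (hh : Measurable h) {C : ℝ} (hC : ∀ y, |h y| ≤ C)
    (hdep : DepPrior τ k h) {t : Set ℝ} (ht : MeasurableSet t) :
    ∫ p, h p.2 * t.indicator (fun _ => (1 : ℝ)) (Inn π fib (Psi μ B) τ p.2 k) ∂(Pj μ π) =
      unit.real t * ∫ p, h p.2 ∂(Pj μ π) := by
  set Ψ := Psi μ B with hΨdef
  have hC0 : 0 ≤ C := (abs_nonneg _).trans (hC (fun _ => 0))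
  have hInn := measurable_Inn (π := π) (fib := fib) hd τ k
  have hc := measurable_drift (π := π) (fib := fib) hd τ k
  -- abbreviations
  have hF0 : Measurable fun p : (E → Bool) × (ℕ × J → ℝ) =>
      h p.2 * t.indicator (fun _ => (1 : ℝ)) (Inn π fib Ψ τ p.2 k) :=
    (hh.comp measurable_snd).mul (((measurable_const.indicator ht).comp hInn).comp measurable_snd)
  have hI0 : Integrable (fun p : (E → Bool) × (ℕ × J → ℝ) =>
      h p.2 * t.indicator (fun _ => (1 : ℝ)) (Inn π fib Ψ τ p.2 k)) (Pj μ π) := by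
    refine Integrable.of_bound hF0.aestronglyMeasurable C (Eventually.of_forall fun p => ?_)
    rw [Real.norm_eq_abs, abs_mul]
    calc _ ≤ C * 1 := mul_le_mul (hC _) (abs_ind_le _ _) (abs_nonneg _) hC0
      _ = C := mul_one C
  -- F1 and F2 are the two parts
  let c : (ℕ × J → ℝ) → ℝ := fun y => eps * Ψ (π k.2) (Xprior fib τ y k)
  have hcm : Measurable c := hc
  have hA : Measurable fun y => Aint t (c y) := (measurable_Aint ht).comp hcm
  have hB' : Measurable fun y => Bint t (c y) := (measurable_Bint ht).comp hcm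
  have hsgm : Measurable fun p : (E → Bool) × (ℕ × J → ℝ) => sg (p.1 (π k.2)) :=
    measurable_sg.comp ((measurable_pi_apply _).comp measurable_fst)
  have hI1 : Integrable (fun p : (E → Bool) × (ℕ × J → ℝ) => h p.2 * Aint t (c p.2)) (Pj μ π) := by
    refine Integrable.of_bound ((hh.comp measurable_snd).mul
      (hA.comp measurable_snd)).aestronglyMeasurable C (Eventually.of_forall fun p => ?_)
    rw [Real.norm_eq_abs, abs_mul]
    calc _ ≤ C * 1 := mul_le_mul (hC _) (abs_Aint_le _ _) (abs_nonneg _) hC0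
      _ = C := mul_one C
  have hI2 : Integrable (fun p : (E → Bool) × (ℕ × J → ℝ) =>
      sg (p.1 (π k.2)) * (h p.2 * Bint t (c p.2))) (Pj μ π) := by
    refine Integrable.of_bound (hsgm.mul ((hh.comp measurable_snd).mul
      (hB'.comp measurable_snd))).aestronglyMeasurable C (Eventually.of_forall fun p => ?_)
    rw [Real.norm_eq_abs, abs_mul, abs_mul, abs_sg, one_mul]
    calc _ ≤ C * 1 := mul_le_mul (hC _) (abs_Bint_le _ _) (abs_nonneg _) hC0
      _ = C := mul_one C
  have step1 : ∫ p, h p.2 * t.indicator (fun _ => (1 : ℝ)) (Inn π fib Ψ τ p.2 k) ∂(Pj μ π) =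
      ∫ p, (h p.2 * Aint t (c p.2) + eps * (sg (p.1 (π k.2)) * (h p.2 * Bint t (c p.2)))) ∂(Pj μ π) := by
    have hI12 : Integrable (fun p : (E → Bool) × (ℕ × J → ℝ) => h p.2 * Aint t (c p.2) +
        eps * (sg (p.1 (π k.2)) * (h p.2 * Bint t (c p.2)))) (Pj μ π) :=
      hI1.add (hI2.const_mul eps)
    rw [integral_Pj μ π hI0, integral_Pj μ π hI12]
    refine integral_congr_ae (Eventually.of_forall fun s => ?_)
    simp only
    rw [integral_Qs_step hd τ k s hh hC hdep ht]
    refine integral_congr_ae (Eventually.of_forall fun y => ?_)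
    simp only [c]
    ring
  -- the posterior identity
  have hdepB : DepPrior τ k fun y => h y * Bint t (c y) := by
    intro y y' hyy
    have : c y = c y' := by
      simp only [c]
      rw [Xprior_dep' fib hyy]
    simp only [this, hdep y y' hyy]
  have hpost := integral_sg_mul_eq (π := π) (fib := fib) μ hfib τ k (π k.2) B hB hBex
    (F := fun y => h y * Bint t (c y)) (hh.mul hB') (C := C) (fun y => by
      rw [abs_mul]
      calc _ ≤ C * 1 := mul_le_mul (hC _) (abs_Bint_le _ _) (abs_nonneg _) hC0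
        _ = C := mul_one C) hdepB
  rw [step1, integral_add hI1 (hI2.const_mul eps), integral_const_mul, hpost, ← integral_const_mul,
    ← integral_add hI1 ?_, ← integral_const_mul]
  · refine integral_congr_ae (Eventually.of_forall fun p => ?_)
    simp only
    have := Aint_add ht (abs_drift_le hd (π k.2) (Xprior fib τ p.2 k))
    have e : unit.real t = Aint t (c p.2) + c p.2 * Bint t (c p.2) := this.symm
    rw [e]
    simp only [c, ← hΨdef]
    ring
  · have hPm : Measurable fun p : (E → Bool) × (ℕ × J → ℝ) => eps * (Ψ (π k.2) (Xprior fib τ p.2 k) *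
        (h p.2 * Bint t (c p.2))) :=
      (((hd.meas _).comp (measurable_Xprior (t := fun _ => τ) (fun _ => measurable_const)
        (fun l => measurable_pi_apply l) k)).comp measurable_snd |>.mul
        ((hh.comp measurable_snd).mul (hB'.comp measurable_snd))).const_mul eps
    refine Integrable.of_bound hPm.aestronglyMeasurable C (Eventually.of_forall fun p => ?_)
    rw [Real.norm_eq_abs, abs_mul, abs_mul, abs_mul]
    have h1 := hd.bdd (π k.2) (Xprior fib τ p.2 k)
    have h2 : |eps| ≤ 1 := by norm_num [eps]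
    have h3 := hC p.2
    have h4 := abs_Bint_le t (c p.2)
    calc _ ≤ 1 * (1 * (C * 1)) := by gcongr
      _ = C := by ring

/-- Product of indicators of innovations. -/
def hprod (π : J → E) (fib : E → Finset J) (Ψ : E → (E → ℝ) → ℝ) (τ : J → ℝ)
    (t : ℕ × J → Set ℝ) (S : Finset (ℕ × J)) (y : ℕ × J → ℝ) : ℝ :=
  ∏ l ∈ S, (t l).indicator (fun _ => (1 : ℝ)) (Inn π fib Ψ τ y l)

lemma Inn_congr {τ : J → ℝ} {k : ℕ × J} {y y' : ℕ × J → ℝ}
    (h1 : ∀ l, prec τ l k → y l = y' l) (h2 : y k = y' k) :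
    Inn π fib Ψ τ y k = Inn π fib Ψ τ y' k := by
  unfold Inn
  rw [Xprior_dep' fib h1, h2]

lemma hprod_dep {τ : J → ℝ} {t : ℕ × J → Set ℝ} {S : Finset (ℕ × J)} {a : ℕ × J}
    (hS : ∀ l ∈ S, prec τ l a) : DepPrior τ a (hprod π fib Ψ τ t S) := by
  intro y y' hyy
  unfold hprod
  refine Finset.prod_congr rfl fun l hl => ?_
  rw [Inn_congr (fun l' hl' => hyy l' (prec_trans hl' (hS l hl))) (hyy l (hS l hl))]

lemma measurable_hprod (hΨ : DriftOK Ψ) (τ : J → ℝ) {t : ℕ × J → Set ℝ}
    (ht : ∀ l, MeasurableSet (t l)) (S : Finset (ℕ × J)) :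
    Measurable (hprod π fib Ψ τ t S) := by
  unfold hprod
  exact Finset.measurable_prod _ fun l _ =>
    (measurable_const.indicator (ht l)).comp (measurable_Inn hΨ τ l)

lemma abs_hprod_le (τ : J → ℝ) (t : ℕ × J → Set ℝ) (S : Finset (ℕ × J)) (y : ℕ × J → ℝ) :
    |hprod π fib Ψ τ t S y| ≤ 1 := by
  unfold hprod
  rw [Finset.abs_prod]
  exact Finset.prod_le_one (fun _ _ => abs_nonneg _) fun l _ => abs_ind_le _ _

/-- The lexicographic key of a step. -/
def lexKey (τ : J → ℝ) (k : ℕ × J) : ℕ ×ₗ ℝ := toLex (k.1, τ k.2)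

lemma prec_of_lexKey {τ : J → ℝ} (hτ : Function.Injective τ) {l k : ℕ × J}
    (h : lexKey τ l ≤ lexKey τ k) (hne : l ≠ k) : prec τ l k := by
  unfold lexKey at h
  rw [Prod.Lex.toLex_le_toLex] at h
  rcases h with h | ⟨h1, h2⟩
  · exact Or.inl h
  · refine Or.inr ⟨h1, lt_of_le_of_ne h2 fun h3 => hne ?_⟩
    exact Prod.ext h1 (hτ h3)

/-- Iterated innovation identity. -/
lemma integral_hprod (μ : Measure (E → Bool)) [IsProbabilityMeasure μ]
    (hfib : ∀ f j, j ∈ fib f ↔ π j = f) (B : E → ℕ → Finset E)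
    (hd : DriftOK (Psi μ B)) (hB : ∀ e, Monotone (B e)) (hBex : ∀ e f, ∃ n, f ∈ B e n)
    {τ : J → ℝ} (hτ : Function.Injective τ) {t : ℕ × J → Set ℝ}
    (ht : ∀ l, MeasurableSet (t l)) (S : Finset (ℕ × J)) :
    ∫ p, hprod π fib (Psi μ B) τ t S p.2 ∂(Pj μ π) = ∏ l ∈ S, unit.real (t l) := by
  induction S using Finset.induction_on_max_value (lexKey τ) with
  | empty => simp [hprod]
  | insert a S ha hmax ih =>
    have hS : ∀ l ∈ S, prec τ l a := fun l hl =>
      prec_of_lexKey hτ (hmax l hl) (fun h => ha (h ▸ hl))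
    have hstep := integral_innovation_step (π := π) (fib := fib) μ hfib B hd τ a (hB _) (hBex _)
      (h := hprod π fib (Psi μ B) τ t S) (measurable_hprod hd τ ht S) (C := 1)
      (abs_hprod_le τ t S) (hprod_dep hS) (ht a)
    have e : ∀ y, hprod π fib (Psi μ B) τ t (insert a S) y =
        hprod π fib (Psi μ B) τ t S y * (t a).indicator (fun _ => (1 : ℝ)) (Inn π fib (Psi μ B) τ y a) := by
      intro y
      unfold hprod
      rw [Finset.prod_insert ha, mul_comm]
    simp only [e]
    rw [hstep, ih, Finset.prod_insert ha]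

/-- The innovations are iid uniform under the true law, for every injective labelling. -/
theorem map_Inn_eq (μ : Measure (E → Bool)) [IsProbabilityMeasure μ]
    (hfib : ∀ f j, j ∈ fib f ↔ π j = f) (B : E → ℕ → Finset E)
    (hd : DriftOK (Psi μ B)) (hB : ∀ e, Monotone (B e)) (hBex : ∀ e f, ∃ n, f ∈ B e n)
    {τ : J → ℝ} (hτ : Function.Injective τ) :
    (Pj μ π).map (fun p => Inn π fib (Psi μ B) τ p.2) =
      Measure.infinitePi (fun _ : ℕ × J => unit) := by
  have hm : Measurable fun p : (E → Bool) × (ℕ × J → ℝ) => Inn π fib (Psi μ B) τ p.2 :=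
    measurable_pi_iff.mpr fun k => (measurable_Inn hd τ k).comp measurable_snd
  refine Measure.eq_infinitePi _ fun S t ht => ?_
  have hbox : MeasurableSet ((S : Set (ℕ × J)).pi t) :=
    MeasurableSet.pi S.countable_toSet fun i _ => ht i
  rw [Measure.map_apply hm hbox]
  have hpre : MeasurableSet ((fun p : (E → Bool) × (ℕ × J → ℝ) => Inn π fib (Psi μ B) τ p.2) ⁻¹'
      ((S : Set (ℕ × J)).pi t)) := hm hbox
  have hind : ((fun p : (E → Bool) × (ℕ × J → ℝ) => Inn π fib (Psi μ B) τ p.2) ⁻¹'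
      ((S : Set (ℕ × J)).pi t)).indicator (fun _ => (1 : ℝ)) =
      fun p => hprod π fib (Psi μ B) τ t S p.2 := by
    funext p
    unfold hprod
    by_cases hp : p ∈ ((fun p : (E → Bool) × (ℕ × J → ℝ) => Inn π fib (Psi μ B) τ p.2) ⁻¹'
      ((S : Set (ℕ × J)).pi t))
    · rw [Set.indicator_of_mem hp]
      symm
      refine Finset.prod_eq_one fun l hl => ?_
      rw [Set.indicator_of_mem (hp l hl)]
    · rw [Set.indicator_of_notMem hp]
      simp only [Set.mem_preimage, Set.mem_pi, Finset.mem_coe, not_forall] at hp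
      obtain ⟨l, hl, hl'⟩ := hp
      exact (Finset.prod_eq_zero hl (Set.indicator_of_notMem hl' _)).symm
  have hreal : (Pj μ π).real ((fun p : (E → Bool) × (ℕ × J → ℝ) => Inn π fib (Psi μ B) τ p.2) ⁻¹'
      ((S : Set (ℕ × J)).pi t)) = ∏ l ∈ S, unit.real (t l) := by
    rw [← integral_hprod μ hfib B hd hB hBex hτ ht S, ← hind, integral_indicator hpre]
    simp
  have h1 : (Pj μ π) ((fun p : (E → Bool) × (ℕ × J → ℝ) => Inn π fib (Psi μ B) τ p.2) ⁻¹'
      ((S : Set (ℕ × J)).pi t)) = ENNReal.ofReal (∏ l ∈ S, unit.real (t l)) := by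
    rw [← hreal, ofReal_measureReal]
  rw [h1, ENNReal.ofReal_prod_of_nonneg (fun _ _ => measureReal_nonneg)]
  exact Finset.prod_congr rfl fun l _ => ofReal_measureReal

end

end Vale.Agent.Lib.P143
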