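import Vale.Agent.Lib.P143.Limit

/-!
# P143: invariance of the free spanning forest under automorphisms
-/

namespace Vale.Agent.Lib.P143

open MeasureTheory Filter Topology Finset

open scoped Classical

noncomputable section

variable {V : Type*} {G : SimpleGraph V}

lemma sym2map_injective (φ : G ≃g G) : Function.Injective (Sym2.map φ) :=
  Sym2.map.injective φ.injective

lemma sym2map_symm_map (φ : G ≃g G) (z : Sym2 V) : Sym2.map φ.symm (Sym2.map φ z) = z := by
  rw [Sym2.map_map]
  have : (φ.symm ∘ φ : V → V) = id := by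
    funext v
    simp
  rw [this, Sym2.map_id]
  rfl

lemma sym2map_map_symm (φ : G ≃g G) (z : Sym2 V) : Sym2.map φ (Sym2.map φ.symm z) = z := by
  rw [Sym2.map_map]
  have : (φ ∘ φ.symm : V → V) = id := by
    funext v
    simp
  rw [this, Sym2.map_id]
  rfl

/-- Spanning trees are transported by automorphisms. -/
lemma isSpanningTreeOf_map (φ : G ≃g G) (H : G.Subgraph) (T : Set (Sym2 V)) :
    IsSpanningTreeOf (H.map φ.toHom) (Sym2.map φ '' T) ↔ IsSpanningTreeOf H T := by
  unfold IsSpanningTreeOf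
  refine and_congr ?_ ?_
  · rw [SimpleGraph.Subgraph.edgeSet_map]
    exact Set.image_subset_image_iff (sym2map_injective φ)
  · let e : H.verts ≃ (H.map φ.toHom).verts := Equiv.Set.image φ H.verts φ.injective
    have hiso : (SimpleGraph.fromEdgeSet (Sym2.map (Subtype.val : H.verts → V) ⁻¹' T)) ≃g
        (SimpleGraph.fromEdgeSet (Sym2.map (Subtype.val : (H.map φ.toHom).verts → V) ⁻¹'
          (Sym2.map φ '' T))) :=
      { toEquiv := e
        map_rel_iff' := by
          intro u v
          simp only [SimpleGraph.fromEdgeSet_adj, Set.mem_preimage, Sym2.map_mk]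
          have h1 : ((e u : (H.map φ.toHom).verts) : V) = φ u.1 := rfl
          have h2 : ((e v : (H.map φ.toHom).verts) : V) = φ v.1 := rfl
          have h3 : s(φ u.1, φ v.1) = Sym2.map φ s(u.1, v.1) := rfl
          rw [h1, h2, h3, (sym2map_injective φ).mem_set_image]
          simp only [ne_eq, EmbeddingLike.apply_eq_iff_eq] }
    exact (SimpleGraph.Iso.isTree_iff hiso).symm

lemma ncard_image_sym2 (φ : G ≃g G) {S S' : Set (Set (Sym2 V))}
    (h : ∀ T, Sym2.map φ '' T ∈ S' ↔ T ∈ S) : S'.ncard = S.ncard := by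
  have himg : S' = (fun T => Sym2.map φ '' T) '' S := by
    ext T'
    constructor
    · intro hT'
      refine ⟨Sym2.map φ.symm '' T', (h _).mp ?_, ?_⟩
      · rw [Set.image_image]
        simpa [sym2map_map_symm] using hT'
      · simp only
        rw [Set.image_image]
        simp [sym2map_map_symm]
    · rintro ⟨T, hT, rfl⟩
      exact (h T).mpr hT
  rw [himg]
  exact Set.ncard_image_of_injective _ (Set.image_injective.mpr (sym2map_injective φ))

/-- `ustProb` is transported by automorphisms. -/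
lemma ustProb_map (φ : G ≃g G) (H : G.Subgraph) (A : Finset G.edgeSet) (σ : G.edgeSet → Bool) :
    ustProb (H.map φ.toHom) (A.map φ.mapEdgeSet.toEmbedding) (fun e => σ (φ.mapEdgeSet.symm e)) =
      ustProb H A σ := by
  unfold ustProb
  congr 2
  · rw [ncard_image_sym2 φ (S := {T | IsSpanningTreeOf H T ∧ ∀ e ∈ A, (e.1 ∈ T ↔ σ e = true)})]
    intro T
    simp only [Set.mem_ofPred_eq, isSpanningTreeOf_map]
    refine and_congr_right fun _ => ?_
    simp only [Finset.mem_map, Equiv.coe_toEmbedding, forall_exists_index, and_imp,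
      forall_apply_eq_imp_iff₂, Equiv.symm_apply_apply]
    refine forall₂_congr fun e _ => ?_
    have h : ((φ.mapEdgeSet e : G.edgeSet) : Sym2 V) = Sym2.map φ e.1 := rfl
    rw [h, (sym2map_injective φ).mem_set_image]
  · rw [ncard_image_sym2 φ (S := {T | IsSpanningTreeOf H T})]
    intro T
    simp only [Set.mem_ofPred_eq, isSpanningTreeOf_map]

lemma IsExhaustion.map {H : ℕ → G.Subgraph} (hH : IsExhaustion H) (φ : G ≃g G) :
    IsExhaustion fun n => (H n).map φ.toHom where
  mono := fun m n hmn => SimpleGraph.Subgraph.map_monotone (hH.mono hmn)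
  finite := fun n => (hH.finite n).image _
  connected := fun n => by
    have hc := hH.connected n
    rw [SimpleGraph.Subgraph.connected_iff] at hc ⊢
    refine ⟨?_, hc.2.image _⟩
    rw [SimpleGraph.Subgraph.preconnected_iff] at hc ⊢
    obtain ⟨hc1, -⟩ := hc
    let f : (H n).coe →g ((H n).map φ.toHom).coe :=
      { toFun := fun u => ⟨φ u.1, Set.mem_image_of_mem _ u.2⟩
        map_rel' := by
          intro u v huv
          simp only [SimpleGraph.Subgraph.coe_adj] at huv ⊢
          exact (SimpleGraph.Subgraph.map_adj _ _ _ _).mpr ⟨u.1, v.1, huv, rfl, rfl⟩ }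
    rintro ⟨_, u, hu, rfl⟩ ⟨_, v, hv, rfl⟩
    exact (hc1 ⟨u, hu⟩ ⟨v, hv⟩).map f
  verts_union := fun v => by
    obtain ⟨n, hn⟩ := hH.verts_union (φ.symm v)
    exact ⟨n, φ.symm v, hn, by simp⟩
  edges_union := fun e he => by
    have he' : Sym2.map φ.symm e ∈ G.edgeSet := by
      have := (φ.symm.mapEdgeSet ⟨e, he⟩).2
      exact this
    obtain ⟨n, hn⟩ := hH.edges_union _ he'
    refine ⟨n, ?_⟩
    rw [SimpleGraph.Subgraph.edgeSet_map]
    exact ⟨_, hn, sym2map_map_symm φ e⟩

/-- Cylinders form a generating pi-system. -/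
lemma isPiSystem_cyl {E : Type*} : IsPiSystem {S : Set (E → Bool) | ∃ A σ, S = cyl A σ} := by
  rintro _ ⟨A, σ, rfl⟩ _ ⟨A', σ', rfl⟩ ⟨ω, hω, hω'⟩
  refine ⟨A ∪ A', ω, ?_⟩
  ext x
  simp only [cyl, Set.mem_inter_iff, Set.mem_ofPred_eq, Finset.mem_union]
  constructor
  · rintro ⟨h1, h2⟩ e (he | he)
    · rw [h1 e he, hω e he]
    · rw [h2 e he, hω' e he]
  · intro h
    refine ⟨fun e he => ?_, fun e he => ?_⟩
    · rw [h e (Or.inl he), hω e he]
    · rw [h e (Or.inr he), hω' e he]

lemma generateFrom_cyl {E : Type*} :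
    (inferInstance : MeasurableSpace (E → Bool)) =
      MeasurableSpace.generateFrom {S : Set (E → Bool) | ∃ A σ, S = cyl A σ} := by
  refine le_antisymm ?_ ?_
  · refine iSup_le fun e => ?_
    rw [← measurable_iff_comap_le]
    refine @measurable_to_bool _ (MeasurableSpace.generateFrom _) _ ?_
    refine MeasurableSpace.measurableSet_generateFrom ⟨{e}, fun _ => true, ?_⟩
    ext ω
    simp [cyl]
  · refine MeasurableSpace.generateFrom_le ?_
    rintro _ ⟨A, σ, rfl⟩
    exact measurableSet_cyl A σ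

/-- The limit law is invariant under automorphisms of `G`. -/
theorem map_eq_of_isFUSF {H : ℕ → G.Subgraph} (hH : IsExhaustion H)
    {μ : Measure (G.edgeSet → Bool)} [IsProbabilityMeasure μ] (hμ : IsFUSF G μ) (φ : G ≃g G) :
    μ.map (fun ω : G.edgeSet → Bool => fun e => ω (φ.mapEdgeSet e)) = μ := by
  have hm : Measurable (fun ω : G.edgeSet → Bool => fun e => ω (φ.mapEdgeSet e)) :=
    measurable_pi_iff.mpr fun e => measurable_pi_apply _
  have : IsProbabilityMeasure (μ.map (fun ω : G.edgeSet → Bool => fun e => ω (φ.mapEdgeSet e))) :=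
    Measure.isProbabilityMeasure_map hm.aemeasurable
  refine ext_of_generate_finite _ generateFrom_cyl isPiSystem_cyl ?_
    (by rw [measure_univ, measure_univ])
  rintro _ ⟨A, σ, rfl⟩
  rw [Measure.map_apply hm (measurableSet_cyl A σ)]
  have hpre : (fun ω : G.edgeSet → Bool => fun e => ω (φ.mapEdgeSet e)) ⁻¹' cyl A σ =
      cyl (A.map φ.mapEdgeSet.toEmbedding) (fun e => σ (φ.mapEdgeSet.symm e)) := by
    ext ω
    constructor
    · intro h e' he'
      obtain ⟨e, he, rfl⟩ := Finset.mem_map.mp he'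
      have hsymm : φ.mapEdgeSet.symm (φ.mapEdgeSet e) = e := φ.mapEdgeSet.symm_apply_apply e
      show ω (φ.mapEdgeSet e) = σ (φ.mapEdgeSet.symm (φ.mapEdgeSet e))
      rw [hsymm]
      exact h e he
    · intro h e he
      have hsymm : φ.mapEdgeSet.symm (φ.mapEdgeSet e) = e := φ.mapEdgeSet.symm_apply_apply e
      have h5 : ω (φ.mapEdgeSet e) = σ (φ.mapEdgeSet.symm (φ.mapEdgeSet e)) :=
        h (φ.mapEdgeSet e) (Finset.mem_map_of_mem _ he)
      rw [hsymm] at h5
      exact h5
  rw [hpre]
  have h1 := hμ H hH A σ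
  have h2 := hμ _ (hH.map φ) (A.map φ.mapEdgeSet.toEmbedding) (fun e => σ (φ.mapEdgeSet.symm e))
  simp only [ustProb_map] at h2
  have h3 := tendsto_nhds_unique h2 h1
  have hne1 : μ (cyl (A.map φ.mapEdgeSet.toEmbedding) (fun e => σ (φ.mapEdgeSet.symm e))) ≠ ⊤ :=
    measure_ne_top _ _
  have hne2 : μ (cyl A σ) ≠ ⊤ := measure_ne_top _ _
  exact (ENNReal.toReal_eq_toReal_iff' hne1 hne2).mp h3

end

end Vale.Agent.Lib.P143
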