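import Vale.Agent.Lib.P143.Bayes

/-!
# P143: the posterior mean of a spin given the prior observations
-/

namespace Vale.Agent.Lib.P143

open MeasureTheory Filter Topology Finset ProbabilityTheory

open scoped Classical ENNReal

noncomputable section

variable {E J : Type*}

/-- Steps prior to `k` over the edges of `B`. -/
def Lset (fib : E → Finset J) (τ : J → ℝ) (k : ℕ × J) (B : Finset E) : Finset (ℕ × J) :=
  ((range (k.1 + 1)) ×ˢ (B.biUnion fib)).filter fun l => prec τ l k

lemma mem_Lset {fib : E → Finset J} {τ : J → ℝ} {k : ℕ × J} {B : Finset E} {l : ℕ × J} :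
    l ∈ Lset fib τ k B ↔ (l.1 < k.1 + 1 ∧ ∃ f ∈ B, l.2 ∈ fib f) ∧ prec τ l k := by
  simp [Lset, Finset.mem_filter, Finset.mem_product]

/-- Extend an observation vector on L to all steps. -/
def fill (L : Finset (ℕ × J)) (z : L → ℝ) (l : ℕ × J) : ℝ :=
  if h : l ∈ L then z ⟨l, h⟩ else 1 / 2

lemma fill_restrict (L : Finset (ℕ × J)) (y : ℕ × J → ℝ) {l : ℕ × J} (hl : l ∈ L) :
    fill L (L.restrict y) l = y l := by
  simp [fill, hl, Finset.restrict]

lemma restrict_fill (L : Finset (ℕ × J)) (z : L → ℝ) : L.restrict (fill L z) = z := by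
  funext l
  simp [fill, Finset.restrict]

lemma fill_box (L : Finset (ℕ × J)) {z : L → ℝ} (hz : ∀ l, z l ∈ Set.Icc (0 : ℝ) 1) :
    Box (fill L z) := by
  intro l
  unfold fill
  split_ifs with h
  · exact hz _
  · norm_num

lemma measurable_fill (L : Finset (ℕ × J)) (l : ℕ × J) :
    Measurable fun z : L → ℝ => fill L z l := by
  unfold fill
  split_ifs with h
  · exact measurable_pi_apply _
  · exact measurable_const

/-- Normalising factor relating the density and the exponential tilt. -/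
def Afac (y : ℝ) : ℝ := (1 + eps * (2 * y - 1)) * Real.exp (-phi y)

lemma Afac_pos {y : ℝ} (hy : y ∈ Set.Icc (0 : ℝ) 1) : 0 < Afac y := by
  unfold Afac eps
  refine mul_pos ?_ (Real.exp_pos _)
  linarith [hy.1, hy.2]

lemma dens_eq_exp (b : Bool) {y : ℝ} (hy : y ∈ Set.Icc (0 : ℝ) 1) :
    dens (eps * sg b) y = Afac y * Real.exp (sg b * phi y) := by
  have h1 : 0 < 1 + eps * (2 * y - 1) := by
    unfold eps
    linarith [hy.1, hy.2]
  have h2 : 0 < 1 - eps * (2 * y - 1) := by
    unfold eps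
    linarith [hy.1, hy.2]
  unfold Afac
  cases b with
  | true =>
    simp only [sg_true, mul_one, one_mul, dens]
    have h5 : Real.exp (-phi y) * Real.exp (phi y) = 1 := by
      rw [← Real.exp_add]
      simp
    rw [mul_assoc (1 + eps * (2 * y - 1)), h5, mul_one]
  | false =>
    simp only [sg_false, dens]
    have h5 : Real.exp (-phi y) * Real.exp (-1 * phi y) = Real.exp (-(2 * phi y)) := by
      rw [← Real.exp_add]
      congr 1
      ring
    have h4 : 2 * phi y = Real.log ((1 + eps * (2 * y - 1)) / (1 - eps * (2 * y - 1))) := by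
      unfold phi
      ring
    rw [mul_assoc (1 + eps * (2 * y - 1)), h5, Real.exp_neg, h4, Real.exp_log (div_pos h1 h2)]
    field_simp
    ring

variable {π : J → E} {fib : E → Finset J}

lemma Xprior_sum (hfib : ∀ f j, j ∈ fib f ↔ π j = f) (τ : J → ℝ) (y : ℕ × J → ℝ) (k : ℕ × J)
    (B : Finset E) (s : E → Bool) :
    ∑ f ∈ B, Xprior fib τ y k f * sg (s f) =
      ∑ l ∈ Lset fib τ k B, sg (s (π l.2)) * phi (y l) := by
  have hdisj : Set.PairwiseDisjoint (B : Set E) fib := by
    intro f _ f' _ hne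
    refine Finset.disjoint_left.mpr fun j hj hj' => hne ?_
    rw [← (hfib f j).mp hj, (hfib f' j).mp hj']
  unfold Lset
  rw [Finset.sum_filter, Finset.sum_product]
  simp only [Finset.sum_biUnion hdisj]
  rw [Finset.sum_comm]
  refine Finset.sum_congr rfl fun f _ => ?_
  unfold Xprior
  rw [Finset.sum_mul]
  refine Finset.sum_congr rfl fun i _ => ?_
  rw [Finset.sum_mul]
  refine Finset.sum_congr rfl fun j hj => ?_
  have hπ : π j = f := (hfib f j).mp hj
  by_cases hp : prec τ (i, j) k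
  · rw [if_pos hp, if_pos hp]
    simp only [hπ]
    ring
  · rw [if_neg hp, if_neg hp, zero_mul]

lemma gd_eq (hfib : ∀ f j, j ∈ fib f ↔ π j = f) (τ : J → ℝ) {y : ℕ × J → ℝ} (hy : Box y)
    (k : ℕ × J) (B : Finset E) (s : E → Bool) :
    gd π (Lset fib τ k B) s ((Lset fib τ k B).restrict y) =
      (∏ l ∈ Lset fib τ k B, Afac (y l)) * expTilt B (Xprior fib τ y k) s := by
  unfold gd prodD expTilt
  rw [Xprior_sum hfib, Real.exp_sum, ← Finset.prod_mul_distrib]
  rw [← Finset.prod_coe_sort (Lset fib τ k B)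
    (fun l => Afac (y l) * Real.exp (sg (s (π l.2)) * phi (y l)))]
  refine Finset.prod_congr rfl fun l _ => ?_
  simp only [densC, Finset.restrict]
  rw [clip_of_mem (hy _), dens_eq_exp _ (hy _)]

/-- The tilted mean as a function of the observations in `L`. -/
def Mt (μ : Measure (E → Bool)) (fib : E → Finset J) (τ : J → ℝ) (k : ℕ × J) (e : E)
    (B : Finset E) (L : Finset (ℕ × J)) (z : L → ℝ) : ℝ :=
  tiltM μ e B (Xprior fib τ (fill L z) k)

lemma Mt_restrict (μ : Measure (E → Bool)) (τ : J → ℝ) (k : ℕ × J) (e : E) (B : Finset E)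
    (y : ℕ × J → ℝ) :
    Mt μ fib τ k e B (Lset fib τ k B) ((Lset fib τ k B).restrict y) =
      tiltM μ e B (Xprior fib τ y k) := by
  unfold Mt
  refine tiltM_congr μ e B fun f hf => ?_
  unfold Xprior
  refine Finset.sum_congr rfl fun i hi => Finset.sum_congr rfl fun j hj => ?_
  by_cases hp : prec τ (i, j) k
  · rw [if_pos hp, if_pos hp, fill_restrict]
    exact mem_Lset.mpr ⟨⟨Finset.mem_range.mp hi, f, hf, hj⟩, hp⟩
  · rw [if_neg hp, if_neg hp]

lemma measurable_Mt (μ : Measure (E → Bool)) [IsProbabilityMeasure μ] (τ : J → ℝ) (k : ℕ × J)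
    (e : E) (B : Finset E) (L : Finset (ℕ × J)) : Measurable (Mt μ fib τ k e B L) := by
  unfold Mt
  refine (measurable_tiltM μ e B).comp ?_
  exact measurable_Xprior (A := L → ℝ) (t := fun _ => τ) (fun _ => measurable_const)
    (g := fun z => fill L z) (fun l => measurable_fill L l) k

lemma abs_Mt_le (μ : Measure (E → Bool)) [IsProbabilityMeasure μ] (τ : J → ℝ) (k : ℕ × J)
    (e : E) (B : Finset E) (L : Finset (ℕ × J)) (z : L → ℝ) : |Mt μ fib τ k e B L z| ≤ 1 :=
  abs_tiltM_le μ e B _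

lemma ae_pi_box (L : Finset (ℕ × J)) :
    ∀ᵐ z ∂(Measure.pi fun _ : L => unit), ∀ l, z l ∈ Set.Icc (0 : ℝ) 1 := by
  refine ae_all_iff.mpr fun l => ?_
  exact (measurePreserving_eval (fun _ : L => unit) l).quasiMeasurePreserving.ae ae_unit_mem

lemma avgD_id (μ : Measure (E → Bool)) [IsProbabilityMeasure μ]
    (hfib : ∀ f j, j ∈ fib f ↔ π j = f) (τ : J → ℝ) (k : ℕ × J) (e : E) (B : Finset E)
    {z : (Lset fib τ k B) → ℝ} (hz : ∀ l, z l ∈ Set.Icc (0 : ℝ) 1) :
    avgD μ π (Lset fib τ k B) (fun s => sg (s e)) z =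
      Mt μ fib τ k e B (Lset fib τ k B) z * avgD μ π (Lset fib τ k B) (fun _ => 1) z := by
  obtain ⟨y, hy⟩ : ∃ y, y = fill (Lset fib τ k B) z := ⟨_, rfl⟩
  have hbox : Box y := hy ▸ fill_box _ hz
  have hgd : ∀ s, gd π (Lset fib τ k B) s z =
      (∏ l ∈ Lset fib τ k B, Afac (y l)) * expTilt B (Xprior fib τ y k) s := by
    intro s
    have := gd_eq (π := π) hfib τ hbox k B s
    rw [hy, restrict_fill] at this
    rw [hy]
    exact this
  obtain ⟨C, hC⟩ : ∃ C, C = ∏ l ∈ Lset fib τ k B, Afac (y l) := ⟨_, rfl⟩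
  rw [← hC] at hgd
  have e1 : avgD μ π (Lset fib τ k B) (fun s => sg (s e)) z =
      C * tiltN μ e B (Xprior fib τ y k) := by
    unfold avgD tiltN
    rw [← integral_const_mul]
    refine integral_congr_ae (Eventually.of_forall fun s => ?_)
    simp only [hgd]
    ring
  have e2 : avgD μ π (Lset fib τ k B) (fun _ => 1) z = C * tiltZ μ B (Xprior fib τ y k) := by
    unfold avgD tiltZ
    rw [← integral_const_mul]
    refine integral_congr_ae (Eventually.of_forall fun s => ?_)
    simp only [hgd]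
    ring
  rw [e1, e2]
  unfold Mt tiltM
  rw [← hy]
  have := (tiltZ_pos μ B (Xprior fib τ y k)).ne'
  field_simp

/-- Bayes formula for the tilted mean. -/
lemma tiltM_ae_condExp (μ : Measure (E → Bool)) [IsProbabilityMeasure μ]
    (hfib : ∀ f j, j ∈ fib f ↔ π j = f) (τ : J → ℝ) (k : ℕ × J) (e : E) (B : Finset E) :
    (fun p : (E → Bool) × (ℕ × J → ℝ) => tiltM μ e B (Xprior fib τ p.2 k)) =ᵐ[Pj μ π]
      (Pj μ π)[fun p => sg (p.1 e)|sigL (Lset fib τ k B) E] := by
  have := condExp_eq_of_ratio μ π (Lset fib τ k B) e (measurable_Mt μ τ k e B (Lset fib τ k B))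
    (abs_Mt_le μ τ k e B (Lset fib τ k B)) (by
      filter_upwards [ae_pi_box (Lset fib τ k B)] with z hz
      exact avgD_id μ hfib τ k e B hz)
  simpa only [Mt_restrict] using this

lemma sigL_mono {L L' : Finset (ℕ × J)} (h : L ⊆ L') : sigL L E ≤ sigL L' E := by
  unfold sigL
  have : (fun p : (E → Bool) × (ℕ × J → ℝ) => L.restrict p.2) =
      (Finset.restrict₂ h) ∘ fun p : (E → Bool) × (ℕ × J → ℝ) => L'.restrict p.2 := by
    funext p
    rfl
  rw [this, ← MeasurableSpace.comap_comp]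
  exact MeasurableSpace.comap_mono (Finset.measurable_restrict₂ h).comap_le

lemma Lset_mono (τ : J → ℝ) (k : ℕ × J) {B B' : Finset E} (h : B ⊆ B') :
    Lset fib τ k B ⊆ Lset fib τ k B' := by
  intro l hl
  obtain ⟨⟨h1, f, hf, hj⟩, h2⟩ := mem_Lset.mp hl
  exact mem_Lset.mpr ⟨⟨h1, f, h hf, hj⟩, h2⟩

/-- The filtration of observations prior to `k` over the edges of `B n`. -/
def Fn (fib : E → Finset J) (τ : J → ℝ) (k : ℕ × J) (B : ℕ → Finset E) (hB : Monotone B) :
    MeasureTheory.Filtration ℕ (inferInstance : MeasurableSpace ((E → Bool) × (ℕ × J → ℝ))) where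
  seq n := sigL (Lset fib τ k (B n)) E
  mono' := fun _ _ h => sigL_mono (Lset_mono τ k (hB h))
  le' _ := sigL_le _ E

/-- Lévy upward: the limit of tilted means is the conditional expectation given all prior
observations. -/
lemma Psi_ae_condExp (μ : Measure (E → Bool)) [IsProbabilityMeasure μ]
    (hfib : ∀ f j, j ∈ fib f ↔ π j = f) (τ : J → ℝ) (k : ℕ × J) (e : E) (B : E → ℕ → Finset E)
    (hB : Monotone (B e)) :
    (fun p : (E → Bool) × (ℕ × J → ℝ) => Psi μ B e (Xprior fib τ p.2 k)) =ᵐ[Pj μ π]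
      (Pj μ π)[fun p => sg (p.1 e)|⨆ n, sigL (Lset fib τ k (B e n)) E] := by
  have h1 := tendsto_ae_condExp (μ := Pj μ π) (ℱ := Fn fib τ k (B e) hB)
    (fun p : (E → Bool) × (ℕ × J → ℝ) => sg (p.1 e))
  have h2 : ∀ᵐ p ∂(Pj μ π), ∀ n, tiltM μ e (B e n) (Xprior fib τ p.2 k) =
      ((Pj μ π)[fun p => sg (p.1 e)|sigL (Lset fib τ k (B e n)) E]) p :=
    ae_all_iff.mpr fun n => tiltM_ae_condExp μ hfib τ k e (B e n)
  filter_upwards [h1, h2] with p hp1 hp2
  have h3 : Tendsto (fun n => tiltM μ e (B e n) (Xprior fib τ p.2 k)) atTop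
      (𝓝 (((Pj μ π)[fun p => sg (p.1 e)|⨆ n, sigL (Lset fib τ k (B e n)) E]) p)) := by
    simp only [hp2]
    exact hp1
  exact h3.limsup_eq

/-- All observations prior to `k`, along the exhaustion `B`. -/
@[instance_reducible] def supSig (fib : E → Finset J) (τ : J → ℝ) (k : ℕ × J) (B : ℕ → Finset E) :
    MeasurableSpace ((E → Bool) × (ℕ × J → ℝ)) := ⨆ n, sigL (Lset fib τ k (B n)) E

/-- `F` depends only on the observations prior to `k`. -/
def DepPrior (τ : J → ℝ) (k : ℕ × J) {β : Type*} (F : (ℕ × J → ℝ) → β) : Prop :=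
  ∀ y y' : ℕ × J → ℝ, (∀ l, prec τ l k → y l = y' l) → F y = F y'

/-- The posterior identity: for bounded `F` depending only on prior observations, the spin and the
tilted limit have the same correlation with `F`. -/
lemma integral_sg_mul_eq (μ : Measure (E → Bool)) [IsProbabilityMeasure μ]
    (hfib : ∀ f j, j ∈ fib f ↔ π j = f) (τ : J → ℝ) (k : ℕ × J) (e : E) (B : E → ℕ → Finset E)
    (hB : Monotone (B e)) (hBex : ∀ f, ∃ n, f ∈ B e n)
    {F : (ℕ × J → ℝ) → ℝ} (hF : Measurable F) {C : ℝ} (hC : ∀ y, |F y| ≤ C)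
    (hdep : DepPrior τ k F) :
    ∫ p, sg (p.1 e) * F p.2 ∂(Pj μ π) =
      ∫ p, Psi μ B e (Xprior fib τ p.2 k) * F p.2 ∂(Pj μ π) := by
  have hmle : supSig fib τ k (B e) ≤ (inferInstance : MeasurableSpace ((E → Bool) × (ℕ × J → ℝ))) :=
    iSup_le fun n => sigL_le _ E
  -- measurability of `F` with respect to `m`
  have hcoord : ∀ l : ℕ × J, prec τ l k →
      Measurable[supSig fib τ k (B e)] fun p : (E → Bool) × (ℕ × J → ℝ) => p.2 l := by
    intro l hl
    obtain ⟨n, hn⟩ := hBex (π l.2)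
    have hlL : l ∈ Lset fib τ k (B e n) := by
      refine mem_Lset.mpr ⟨⟨?_, π l.2, hn, (hfib _ _).mpr rfl⟩, hl⟩
      rcases hl with h | h
      · omega
      · omega
    have h1 : Measurable[sigL (Lset fib τ k (B e n)) E]
        fun p : (E → Bool) × (ℕ × J → ℝ) => p.2 l := by
      have h2 : Measurable[sigL (Lset fib τ k (B e n)) E]
          fun p : (E → Bool) × (ℕ × J → ℝ) => (Lset fib τ k (B e n)).restrict p.2 :=
        comap_measurable _
      exact (measurable_pi_apply (⟨l, hlL⟩ : Lset fib τ k (B e n))).comp h2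
    exact h1.mono (le_iSup (fun n => sigL (Lset fib τ k (B e n)) E) n) le_rfl
  have hFm : Measurable[supSig fib τ k (B e)] fun p : (E → Bool) × (ℕ × J → ℝ) => F p.2 := by
    let fp : (E → Bool) × (ℕ × J → ℝ) → (ℕ × J → ℝ) := fun p l => if prec τ l k then p.2 l else 0
    have hfp : Measurable[supSig fib τ k (B e)] fp := by
      refine @measurable_pi_lambda _ _ _ (supSig fib τ k (B e)) _ _ fun l => ?_
      by_cases hl : prec τ l k
      · simp only [fp, if_pos hl]
        exact hcoord l hl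
      · simp only [fp, if_neg hl]
        exact @measurable_const _ _ _ (supSig fib τ k (B e)) _
    have : (fun p : (E → Bool) × (ℕ × J → ℝ) => F p.2) = F ∘ fp := by
      funext p
      refine hdep _ _ fun l hl => ?_
      simp [fp, hl]
    rw [this]
    exact hF.comp hfp
  have hg : Measurable fun p : (E → Bool) × (ℕ × J → ℝ) => sg (p.1 e) :=
    measurable_sg.comp ((measurable_pi_apply e).comp measurable_fst)
  have hgI : Integrable (fun p : (E → Bool) × (ℕ × J → ℝ) => sg (p.1 e)) (Pj μ π) := by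
    refine Integrable.of_bound hg.aestronglyMeasurable 1 (Eventually.of_forall fun p => ?_)
    rw [Real.norm_eq_abs, abs_sg]
  have hF2 : Measurable fun p : (E → Bool) × (ℕ × J → ℝ) => F p.2 := hF.comp measurable_snd
  have hgF : Integrable (fun p : (E → Bool) × (ℕ × J → ℝ) => F p.2 * sg (p.1 e)) (Pj μ π) := by
    refine Integrable.of_bound (hF2.mul hg).aestronglyMeasurable C
      (Eventually.of_forall fun p => ?_)
    rw [Real.norm_eq_abs, abs_mul, abs_sg, mul_one]
    exact hC _
  have hpull := condExp_mul_of_aestronglyMeasurable_left (μ := Pj μ π)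
    (m := supSig fib τ k (B e)) (hFm.stronglyMeasurable.aestronglyMeasurable) hgF hgI
  have hae := Psi_ae_condExp μ hfib τ k e B hB
  calc ∫ p, sg (p.1 e) * F p.2 ∂(Pj μ π)
      = ∫ p, F p.2 * sg (p.1 e) ∂(Pj μ π) := by simp only [mul_comm]
    _ = ∫ p, ((Pj μ π)[fun p => F p.2 * sg (p.1 e)|supSig fib τ k (B e)]) p ∂(Pj μ π) :=
        (integral_condExp hmle).symm
    _ = ∫ p, F p.2 * ((Pj μ π)[fun p => sg (p.1 e)|supSig fib τ k (B e)]) p ∂(Pj μ π) :=
        integral_congr_ae hpull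
    _ = ∫ p, Psi μ B e (Xprior fib τ p.2 k) * F p.2 ∂(Pj μ π) := by
        refine integral_congr_ae ?_
        filter_upwards [hae] with p hp
        rw [hp, mul_comm]
        rfl

end

end Vale.Agent.Lib.P143
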