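import Vale.Agent.Lib.P143.CauchyBinet

/-!
# Weighted matrix-tree theorem for an edge-indexed finite multigraph

Vertices `V`, edges `E`, endpoints `src tgt : E → V`, root `r`.
A spanning tree is an edge set `S` with `|S| + 1 = |V|` connecting every vertex to `r`.
-/

namespace P143

open Finset Matrix

set_option linter.unusedSectionVars false

variable {V E : Type*} [Fintype V] [DecidableEq V] [Fintype E] [DecidableEq E]

/-- One step along an edge of `S`, in either direction. -/
def adjS (src tgt : E → V) (S : Finset E) (x y : V) : Prop :=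
  ∃ e ∈ S, (src e = x ∧ tgt e = y) ∨ (src e = y ∧ tgt e = x)

/-- Every vertex is joined to the root using edges of `S`. -/
def Conn (src tgt : E → V) (r : V) (S : Finset E) : Prop :=
  ∀ v, Relation.ReflTransGen (adjS src tgt S) r v

/-- `S` is a spanning tree. -/
def IsST (src tgt : E → V) (r : V) (S : Finset E) : Prop :=
  S.card + 1 = Fintype.card V ∧ Conn src tgt r S

/-- The unit vector of a vertex, with the root coordinate removed. -/
def uVec (r : V) (v : V) : {x : V // x ≠ r} → ℤ := fun i => if i.1 = v then 1 else 0

/-- The reduced incidence matrix over the integers. -/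
def incZ (src tgt : E → V) (r : V) : Matrix {x : V // x ≠ r} E ℤ :=
  fun i e => uVec r (src e) i - uVec r (tgt e) i

/-- The reduced incidence matrix over the reals. -/
noncomputable def incR (src tgt : E → V) (r : V) : Matrix {x : V // x ≠ r} E ℝ :=
  (incZ src tgt r).map (Int.castRingHom ℝ)

theorem uVec_root (r : V) : uVec r r = 0 := by
  funext i
  simp [uVec, i.2]

section minors

variable (src tgt : E → V) (r : V)

/-- A connected edge set with the right number of edges has a unimodular minor. -/
theorem det_sq_of_conn (g : {x : V // x ≠ r} → E) (S : Finset E)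
    (hg : ∀ e ∈ S, ∃ j, g j = e) (hc : Conn src tgt r S) :
    ((incR src tgt r).submatrix id g).det ^ 2 = 1 := by
  classical
  set Mz : Matrix {x : V // x ≠ r} {x : V // x ≠ r} ℤ := (incZ src tgt r).submatrix id g with hMz
  have hM : (incR src tgt r).submatrix id g = Mz.map (Int.castRingHom ℝ) := by
    ext i j; simp [incR, hMz]
  -- all unit vectors lie in the span of the columns
  let N : Submodule ℤ ({x : V // x ≠ r} → ℤ) := Submodule.span ℤ (Set.range Mz.col)
  have hcol : ∀ e ∈ S, (fun i => uVec r (src e) i - uVec r (tgt e) i) ∈ N := by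
    intro e he
    obtain ⟨j, rfl⟩ := hg e he
    apply Submodule.subset_span
    exact ⟨j, by ext i; simp [hMz, incZ, Matrix.col_apply]⟩
  have hu : ∀ v, uVec r v ∈ N := by
    intro v
    have := hc v
    induction this with
    | refl => rw [uVec_root]; exact N.zero_mem
    | @tail x y _ hstep ih =>
      obtain ⟨e, he, h | h⟩ := hstep
      · obtain ⟨h1, h2⟩ := h
        have h3 := hcol e he
        rw [h1, h2] at h3
        have h4 : uVec r y = uVec r x - (fun i => uVec r x i - uVec r y i) := by
          funext i; simp
        rw [h4]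
        exact N.sub_mem ih h3
      · obtain ⟨h1, h2⟩ := h
        have h3 := hcol e he
        rw [h1, h2] at h3
        have h4 : uVec r y = uVec r x + (fun i => uVec r y i - uVec r x i) := by
          funext i; simp
        rw [h4]
        exact N.add_mem ih h3
  -- build a right inverse
  have hex : ∀ i : {x : V // x ≠ r}, ∃ c : {x : V // x ≠ r} → ℤ,
      ∑ j, c j • Mz.col j = uVec r i.1 := by
    intro i
    exact (Submodule.mem_span_range_iff_exists_fun ℤ).mp (hu i.1)
  choose c hc' using hex
  let Y : Matrix {x : V // x ≠ r} {x : V // x ≠ r} ℤ := fun j i => c i j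
  have hY : Mz * Y = 1 := by
    ext i' i
    have h5 := congrFun (hc' i) i'
    simp only [Finset.sum_apply, Pi.smul_apply, Matrix.col_apply, smul_eq_mul] at h5
    rw [Matrix.mul_apply, Matrix.one_apply]
    have h6 : uVec r i.1 i' = if i' = i then 1 else 0 := by
      simp [uVec, Subtype.ext_iff]
    rw [← h6, ← h5]
    refine Finset.sum_congr rfl fun j _ => ?_
    ring
  have hdet : Mz.det * Y.det = 1 := by
    rw [← Matrix.det_mul, hY, Matrix.det_one]
  have hunit : IsUnit Mz.det := IsUnit.of_mul_eq_one _ hdet
  have hsq : Mz.det ^ 2 = 1 := by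
    rcases Int.isUnit_iff.mp hunit with h | h <;> rw [h] <;> norm_num
  rw [hM]
  have h7 : (Mz.map (Int.castRingHom ℝ)).det = ((Mz.det : ℤ) : ℝ) := by
    have := (Int.castRingHom ℝ).map_det Mz
    simpa using this.symm
  rw [h7]
  exact_mod_cast hsq

/-- A disconnected edge set has a vanishing minor. -/
theorem det_zero_of_not_conn (g : {x : V // x ≠ r} → E) (S : Finset E)
    (hg : ∀ j, g j ∈ S) (hc : ¬ Conn src tgt r S) :
    ((incR src tgt r).submatrix id g).det = 0 := by
  classical
  unfold Conn at hc
  push Not at hc
  obtain ⟨v, hv⟩ := hc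
  let R : V → Prop := fun x => Relation.ReflTransGen (adjS src tgt S) r x
  have hvr : v ≠ r := by
    rintro rfl
    exact hv Relation.ReflTransGen.refl
  let ŷ : V → ℝ := fun x => if R x then 0 else 1
  let y : {x : V // x ≠ r} → ℝ := fun i => ŷ i.1
  have hy0 : y ≠ 0 := by
    intro h
    have := congrFun h ⟨v, hvr⟩
    simp [y, ŷ, R, hv] at this
  apply (Matrix.exists_vecMul_eq_zero_iff).mp
  refine ⟨y, hy0, ?_⟩
  ext j
  set e := g j with he
  have hsum : ∀ x : V, ∑ i : {x : V // x ≠ r}, y i * ((uVec r x i : ℤ) : ℝ) = ŷ x := by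
    intro x
    by_cases hx : x = r
    · subst hx
      rw [uVec_root]
      have : ŷ x = 0 := by simp [ŷ, R, Relation.ReflTransGen.refl]
      simp [this]
    · rw [Finset.sum_eq_single (⟨x, hx⟩ : {x : V // x ≠ r})]
      · simp [uVec, y]
      · intro i _ hi
        have : i.1 ≠ x := fun h => hi (Subtype.ext h)
        simp [uVec, this]
      · simp
  have hedge : ŷ (src e) = ŷ (tgt e) := by
    have heS : e ∈ S := hg j
    have h1 : R (src e) ↔ R (tgt e) := by
      constructor
      · intro h
        exact Relation.ReflTransGen.tail h ⟨e, heS, Or.inl ⟨rfl, rfl⟩⟩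
      · intro h
        exact Relation.ReflTransGen.tail h ⟨e, heS, Or.inr ⟨rfl, rfl⟩⟩
    simp only [ŷ]
    by_cases h : R (src e)
    · simp [h, h1.mp h]
    · have h' : ¬ R (tgt e) := fun h2 => h (h1.mpr h2)
      simp [h, h']
  change ∑ i, y i * incR src tgt r i e = 0
  have h8 : ∀ i, y i * incR src tgt r i e
      = y i * ((uVec r (src e) i : ℤ) : ℝ) - y i * ((uVec r (tgt e) i : ℤ) : ℝ) := by
    intro i
    have : incR src tgt r i e = ((uVec r (src e) i : ℤ) : ℝ) - ((uVec r (tgt e) i : ℤ) : ℝ) := by
      simp [incR, incZ, Matrix.map_apply]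
    rw [this]
    ring
  simp only [h8]
  rw [Finset.sum_sub_distrib, hsum, hsum, hedge]
  ring

end minors

section tree

variable (src tgt : E → V) (r : V)

theorem card_ne_root : Fintype.card {x : V // x ≠ r} + 1 = Fintype.card V := by
  have h : Fintype.card {x : V // x ≠ r} = Fintype.card V - 1 := by
    simp [Fintype.card_subtype_compl]
  have h2 : 0 < Fintype.card V := Fintype.card_pos_iff.mpr ⟨r⟩
  omega

open Classical in
/-- Value of the squared minors. -/
theorem minorSq_incR (S : Finset E) (hS : S.card = Fintype.card {x : V // x ≠ r}) :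
    minorSq (incR src tgt r) S = if Conn src tgt r S then 1 else 0 := by
  classical
  unfold minorSq
  rw [dif_pos hS]
  set g : {x : V // x ≠ r} → E := fun i => ((enumOf S hS i : S) : E) with hgdef
  by_cases hc : Conn src tgt r S
  · rw [if_pos hc]
    apply det_sq_of_conn src tgt r g S _ hc
    intro e he
    exact ⟨(enumOf S hS).symm ⟨e, he⟩, by simp [hgdef]⟩
  · rw [if_neg hc, det_zero_of_not_conn src tgt r g S (fun j => (enumOf S hS j).2) hc]
    simp

/-- The tree partition function, summed over all spanning trees. -/
noncomputable def treeSum (w : E → ℝ) : ℝ :=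
  open Classical in
  ∑ S ∈ (univ : Finset E).powerset.filter (IsST src tgt r), ∏ e ∈ S, w e

/-- **Weighted matrix-tree theorem.** -/
theorem matrix_tree (w : E → ℝ) :
    (incR src tgt r * Matrix.diagonal w * (incR src tgt r)ᵀ).det = treeSum src tgt r w := by
  classical
  rw [cauchy_binet_sym]
  unfold treeSum
  have hcard := card_ne_root (V := V) r
  have h1 : ∑ S ∈ (univ : Finset E).powersetCard (Fintype.card {x : V // x ≠ r}),
        (∏ e ∈ S, w e) * minorSq (incR src tgt r) S
      = ∑ S ∈ ((univ : Finset E).powersetCard (Fintype.card {x : V // x ≠ r})).filter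
          (Conn src tgt r), ∏ e ∈ S, w e := by
    rw [Finset.sum_filter]
    refine Finset.sum_congr rfl fun S hS => ?_
    have hS' := (Finset.mem_powersetCard.mp hS).2
    rw [minorSq_incR src tgt r S hS']
    by_cases hc : Conn src tgt r S
    · simp [hc]
    · simp [hc]
  rw [h1]
  refine Finset.sum_congr ?_ fun _ _ => rfl
  ext S
  simp only [Finset.mem_filter, Finset.mem_powersetCard, Finset.mem_powerset, Finset.subset_univ,
    true_and, IsST]
  constructor
  · rintro ⟨h1, h2⟩
    exact ⟨by omega, h2⟩
  · rintro ⟨h1, h2⟩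
    exact ⟨by omega, h2⟩

end tree

end P143
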