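import Vale.Agent.Lib.P143.Formula
import Vale.Agent.Lib.P143.Noise

/-!
# P143: noise attached to the darts of a graph through the ranks of the neighbours
-/

namespace Vale.Agent.Lib.P143

open MeasureTheory Filter Topology Finset

open scoped Classical

noncomputable section

/-- Rank of `v` among the neighbours of `u`, with respect to the labels `L`. -/
def rk (G : SimpleGraph ℕ) (L : ℕ → ℝ) (u v : ℕ) : ℕ := Set.ncard {w | G.Adj u w ∧ L w < L v}

/-- Indices of the noise of the vertices: vertex, rank and stream. -/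
abbrev NoiseIdx := ℕ × (ℕ × Option ℕ)

/-- The labels of the darts. -/
def tauN (G : SimpleGraph ℕ) (L : ℕ → ℝ) (W : NoiseIdx → ℝ) (j : ℕ × ℕ) : ℝ :=
  if G.Adj j.1 j.2 then W (j.1, rk G L j.1 j.2, none) else 1 / 2

/-- The noise of the steps. -/
def RN (G : SimpleGraph ℕ) (L : ℕ → ℝ) (W : NoiseIdx → ℝ) (k : ℕ × (ℕ × ℕ)) : ℝ :=
  if G.Adj k.2.1 k.2.2 then W (k.2.1, rk G L k.2.1 k.2.2, some k.1) else 1 / 2

lemma rk_lt {G : SimpleGraph ℕ} (hG : ∀ v, (G.neighborSet v).Finite) {L : ℕ → ℝ} {u v v' : ℕ}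
    (h : G.Adj u v) (hlt : L v < L v') : rk G L u v < rk G L u v' := by
  unfold rk
  refine Set.ncard_lt_ncard ?_ ?_
  · constructor
    · rintro w ⟨hw, hlw⟩
      exact ⟨hw, hlw.trans hlt⟩
    · intro hsub
      have := hsub ⟨h, hlt⟩
      exact lt_irrefl _ this.2
  · exact (hG u).subset fun w hw => hw.1

lemma rk_inj {G : SimpleGraph ℕ} (hG : ∀ v, (G.neighborSet v).Finite) {L : ℕ → ℝ}
    (hL : Function.Injective L) {u v v' : ℕ} (h : G.Adj u v) (h' : G.Adj u v')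
    (hr : rk G L u v = rk G L u v') : v = v' := by
  by_contra hne
  rcases lt_or_gt_of_ne (fun hh => hne (hL hh)) with hlt | hlt
  · exact absurd hr (rk_lt hG h hlt).ne
  · exact absurd hr (rk_lt hG h' hlt).ne'

/-- Placing the indices of the darts and steps in the noise. -/
def idxN (G : SimpleGraph ℕ) (L : ℕ → ℝ) :
    (ℕ × ℕ) ⊕ (ℕ × (ℕ × ℕ)) → NoiseIdx ⊕ ((ℕ × ℕ) ⊕ (ℕ × (ℕ × ℕ)))
  | Sum.inl j => if G.Adj j.1 j.2 then Sum.inl (j.1, rk G L j.1 j.2, none) else Sum.inr (Sum.inl j)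
  | Sum.inr k => if G.Adj k.2.1 k.2.2 then Sum.inl (k.2.1, rk G L k.2.1 k.2.2, some k.1)
      else Sum.inr (Sum.inr k)

lemma idxN_injective {G : SimpleGraph ℕ} (hG : ∀ v, (G.neighborSet v).Finite) {L : ℕ → ℝ}
    (hL : Function.Injective L) : Function.Injective (idxN G L) := by
  rintro (⟨u, v⟩ | ⟨i, u, v⟩) (⟨u', v'⟩ | ⟨i', u', v'⟩) h <;> simp only [idxN] at h
  · split_ifs at h with h1 h2 h2
    · simp only [Sum.inl.injEq, Prod.mk.injEq, and_true] at h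
      obtain ⟨rfl, hr⟩ := h
      rw [rk_inj hG hL h1 h2 hr]
    · simp only [Sum.inr.injEq, Sum.inl.injEq] at h
      rw [h]
  · split_ifs at h with h1 h2 h2
    · simp at h
    · simp at h
  · split_ifs at h with h1 h2 h2
    · simp at h
    · simp at h
  · split_ifs at h with h1 h2 h2
    · simp only [Sum.inl.injEq, Prod.mk.injEq, Option.some.injEq] at h
      obtain ⟨rfl, hr, rfl⟩ := h
      rw [rk_inj hG hL h1 h2 hr]
    · simp only [Sum.inr.injEq, Sum.inr.injEq] at h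
      rw [h]

/-- The noise of all darts and steps, built from the noise of the vertices and extra noise. -/
def fullN (G : SimpleGraph ℕ) (L : ℕ → ℝ)
    (q : (NoiseIdx → ℝ) × ((ℕ × ℕ) ⊕ (ℕ × (ℕ × ℕ)) → ℝ)) : (ℕ × ℕ → ℝ) × (ℕ × (ℕ × ℕ) → ℝ) :=
  (fun j => Sum.elim q.1 q.2 (idxN G L (Sum.inl j)), fun k => Sum.elim q.1 q.2 (idxN G L (Sum.inr k)))

lemma measurable_fullN (G : SimpleGraph ℕ) (L : ℕ → ℝ) : Measurable (fullN G L) := by
  have h : ∀ x : NoiseIdx ⊕ ((ℕ × ℕ) ⊕ (ℕ × (ℕ × ℕ))),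
      Measurable fun q : (NoiseIdx → ℝ) × ((ℕ × ℕ) ⊕ (ℕ × (ℕ × ℕ)) → ℝ) => Sum.elim q.1 q.2 x := by
    intro x
    cases x with
    | inl a => exact (measurable_pi_apply a).comp measurable_fst
    | inr b => exact (measurable_pi_apply b).comp measurable_snd
  exact (measurable_pi_iff.mpr fun j => h _).prodMk (measurable_pi_iff.mpr fun k => h _)

lemma law_fullN {G : SimpleGraph ℕ} (hG : ∀ v, (G.neighborSet v).Finite) {L : ℕ → ℝ}
    (hL : Function.Injective L) :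
    ((Measure.infinitePi (fun _ : NoiseIdx => unit)).prod
      (Measure.infinitePi (fun _ : (ℕ × ℕ) ⊕ (ℕ × (ℕ × ℕ)) => unit))).map (fullN G L) =
    (Measure.infinitePi (fun _ : ℕ × ℕ => unit)).prod
      (Measure.infinitePi (fun _ : ℕ × (ℕ × ℕ) => unit)) := by
  have h1 := prod_map_merge (J := NoiseIdx) (K := (ℕ × ℕ) ⊕ (ℕ × (ℕ × ℕ))) unit
  have h2 := infinitePi_comp_inj unit (idxN G L) (idxN_injective hG hL)
  have h3 := infinitePi_map_split (J := ℕ × ℕ) (K := ℕ × (ℕ × ℕ)) unit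
  have hm1 : Measurable fun q : (NoiseIdx → ℝ) × ((ℕ × ℕ) ⊕ (ℕ × (ℕ × ℕ)) → ℝ) =>
      (Sum.elim q.1 q.2 : NoiseIdx ⊕ ((ℕ × ℕ) ⊕ (ℕ × (ℕ × ℕ))) → ℝ) := by
    refine measurable_pi_iff.mpr fun i => ?_
    cases i with
    | inl a => exact (measurable_pi_apply a).comp measurable_fst
    | inr b => exact (measurable_pi_apply b).comp measurable_snd
  have hm2 : Measurable fun x : NoiseIdx ⊕ ((ℕ × ℕ) ⊕ (ℕ × (ℕ × ℕ))) → ℝ => x ∘ idxN G L :=
    measurable_pi_iff.mpr fun a => measurable_pi_apply _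
  have hm3 : Measurable fun x : (ℕ × ℕ) ⊕ (ℕ × (ℕ × ℕ)) → ℝ =>
      ((fun a => x (Sum.inl a), fun b => x (Sum.inr b)) : (ℕ × ℕ → ℝ) × (ℕ × (ℕ × ℕ) → ℝ)) :=
    (measurable_pi_iff.mpr fun a => measurable_pi_apply _).prodMk
      (measurable_pi_iff.mpr fun b => measurable_pi_apply _)
  calc _ = ((((Measure.infinitePi (fun _ : NoiseIdx => unit)).prod
        (Measure.infinitePi (fun _ : (ℕ × ℕ) ⊕ (ℕ × (ℕ × ℕ)) => unit))).map
          (fun q => Sum.elim q.1 q.2)).map (fun x => x ∘ idxN G L)).map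
            (fun x => (fun a => x (Sum.inl a), fun b => x (Sum.inr b))) := by
        rw [Measure.map_map hm2 hm1, Measure.map_map hm3 (hm2.comp hm1)]
        rfl
    _ = _ := by rw [h1, h2, h3]

/-- On active indices, `fullN` is given by `tauN`. -/
lemma fullN_fst_active {G : SimpleGraph ℕ} (L : ℕ → ℝ)
    (q : (NoiseIdx → ℝ) × ((ℕ × ℕ) ⊕ (ℕ × (ℕ × ℕ)) → ℝ)) (j : ℕ × ℕ)
    (hj : piS j ∈ G.edgeSet) : (fullN G L q).1 j = tauN G L q.1 j := by
  have hj' : G.Adj j.1 j.2 := hj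
  simp [fullN, idxN, tauN, hj']

lemma fullN_snd_active {G : SimpleGraph ℕ} (L : ℕ → ℝ)
    (q : (NoiseIdx → ℝ) × ((ℕ × ℕ) ⊕ (ℕ × (ℕ × ℕ)) → ℝ)) (k : ℕ × (ℕ × ℕ))
    (hk : piS k.2 ∈ G.edgeSet) : (fullN G L q).2 k = RN G L q.1 k := by
  have hk' : G.Adj k.2.1 k.2.2 := hk
  simp [fullN, idxN, RN, hk']

end

end Vale.Agent.Lib.P143
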