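import Vale.Agent.Lib.P143.MatrixTree

/-!
# Rayleigh inequality (negative correlation) for weighted spanning trees
-/

namespace P143

open Finset Matrix

set_option linter.unusedSectionVars false

variable {V E : Type*} [Fintype V] [DecidableEq V] [Fintype E] [DecidableEq E]

section

variable (src tgt : E → V) (r : V)

open Classical in
/-- The set of spanning trees. -/
noncomputable def stSet : Finset (Finset E) :=
  (univ : Finset E).powerset.filter (IsST src tgt r)

theorem treeSum_eq (w : E → ℝ) : treeSum src tgt r w = ∑ S ∈ stSet src tgt r, ∏ x ∈ S, w x := rfl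

open Classical in
/-- Sum of the tree weights over the trees with prescribed membership of `e` and `f`. -/
noncomputable def zPart (w : E → ℝ) (e f : E) (pe pf : Prop) : ℝ :=
  ∑ S ∈ (stSet src tgt r).filter (fun S => (e ∈ S ↔ pe) ∧ (f ∈ S ↔ pf)), ∏ x ∈ S, w x

/-- Weights scaled by `s` at `e` and by `t` at `f`. -/
def wst (w : E → ℝ) (e f : E) (s t : ℝ) : E → ℝ :=
  fun x => w x * ((if x = e then s else 1) * (if x = f then t else 1))

theorem prod_wst (w : E → ℝ) (e f : E) (s t : ℝ) (S : Finset E) :
    ∏ x ∈ S, wst w e f s t x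
      = (∏ x ∈ S, w x) * ((if e ∈ S then s else 1) * (if f ∈ S then t else 1)) := by
  unfold wst
  rw [Finset.prod_mul_distrib, Finset.prod_mul_distrib]
  congr 2
  · exact Finset.prod_ite_eq' S e (fun _ => s)
  · exact Finset.prod_ite_eq' S f (fun _ => t)

theorem treeSum_wst (w : E → ℝ) (e f : E) (s t : ℝ) :
    treeSum src tgt r (wst w e f s t)
      = zPart src tgt r w e f False False + s * zPart src tgt r w e f True False
        + t * zPart src tgt r w e f False True + s * t * zPart src tgt r w e f True True := by
  classical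
  rw [treeSum_eq]
  simp only [prod_wst]
  unfold zPart
  simp only [Finset.mul_sum]
  rw [Finset.sum_filter, Finset.sum_filter, Finset.sum_filter, Finset.sum_filter,
    ← Finset.sum_add_distrib, ← Finset.sum_add_distrib, ← Finset.sum_add_distrib]
  refine Finset.sum_congr rfl fun S _ => ?_
  by_cases h1 : e ∈ S <;> by_cases h2 : f ∈ S <;> simp [h1, h2] <;> ring

theorem zPart_nonneg (w : E → ℝ) (hw : ∀ x, 0 < w x) (e f : E) (pe pf : Prop) :
    0 ≤ zPart src tgt r w e f pe pf := by
  classical
  unfold zPart
  exact Finset.sum_nonneg fun S _ => Finset.prod_nonneg fun x _ => (hw x).le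

/-- A column of the reduced incidence matrix. -/
noncomputable def bCol (e : E) : {x : V // x ≠ r} → ℝ := fun i => incR src tgt r i e

/-- The weighted Laplacian. -/
noncomputable def lap (w : E → ℝ) : Matrix {x : V // x ≠ r} {x : V // x ≠ r} ℝ :=
  incR src tgt r * Matrix.diagonal w * (incR src tgt r)ᵀ

theorem lap_apply (w : E → ℝ) (i j : {x : V // x ≠ r}) :
    lap src tgt r w i j = ∑ x, incR src tgt r i x * w x * incR src tgt r j x := by
  unfold lap
  rw [Matrix.mul_apply]
  refine Finset.sum_congr rfl fun x _ => ?_
  rw [Matrix.mul_diagonal, Matrix.transpose_apply]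

theorem lap_transpose (w : E → ℝ) : (lap src tgt r w)ᵀ = lap src tgt r w := by
  ext i j
  rw [Matrix.transpose_apply, lap_apply, lap_apply]
  refine Finset.sum_congr rfl fun x _ => ?_
  ring

theorem det_lap (w : E → ℝ) : (lap src tgt r w).det = treeSum src tgt r w :=
  matrix_tree src tgt r w

/-- The two-column matrix of incidence vectors. -/
noncomputable def uMat (e f : E) : Matrix {x : V // x ≠ r} (Fin 2) ℝ :=
  fun i k => if k = 0 then bCol src tgt r e i else bCol src tgt r f i

/-- The two-row matrix of scaled incidence vectors. -/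
noncomputable def vMat (e f : E) (a b : ℝ) : Matrix (Fin 2) {x : V // x ≠ r} ℝ :=
  fun k j => if k = 0 then a * bCol src tgt r e j else b * bCol src tgt r f j

theorem lap_wst (w : E → ℝ) (e f : E) (hef : e ≠ f) (s t : ℝ) :
    lap src tgt r (wst w e f s t)
      = lap src tgt r (wst w e f 0 0) + uMat src tgt r e f * vMat src tgt r e f (s * w e) (t * w f) := by
  ext i j
  rw [Matrix.add_apply, lap_apply, lap_apply, Matrix.mul_apply, Fin.sum_univ_two]
  simp only [uMat, vMat, bCol, if_true, one_ne_zero, if_false, Fin.isValue]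
  have h1 : ∀ x, incR src tgt r i x * wst w e f s t x * incR src tgt r j x
      = incR src tgt r i x * wst w e f 0 0 x * incR src tgt r j x
        + (if x = e then incR src tgt r i e * (s * w e) * incR src tgt r j e else 0)
        + (if x = f then incR src tgt r i f * (t * w f) * incR src tgt r j f else 0) := by
    intro x
    by_cases h1 : x = e
    · subst h1
      have h2 : wst w x f s t x = w x * s := by simp [wst, hef]
      have h3 : wst w x f 0 0 x = 0 := by simp [wst]
      rw [h2, h3, if_pos rfl, if_neg hef]
      ring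
    · by_cases h2 : x = f
      · subst h2
        have h3 : wst w e x s t x = w x * t := by simp [wst, h1]
        have h4 : wst w e x 0 0 x = 0 := by simp [wst]
        rw [h3, h4, if_neg h1, if_pos rfl]
        ring
      · have h3 : wst w e f s t x = wst w e f 0 0 x := by simp [wst, h1, h2]
        rw [h3, if_neg h1, if_neg h2]
        ring
  simp only [h1, Finset.sum_add_distrib, Finset.sum_ite_eq', Finset.mem_univ, if_true]
  ring

/-- The quadratic form of the inverse matrix. -/
noncomputable def qForm (Q : Matrix {x : V // x ≠ r} {x : V // x ≠ r} ℝ)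
    (u v : {x : V // x ≠ r} → ℝ) : ℝ := u ⬝ᵥ (Q *ᵥ v)

theorem qForm_symm (Q : Matrix {x : V // x ≠ r} {x : V // x ≠ r} ℝ) (hQ : Qᵀ = Q)
    (u v : {x : V // x ≠ r} → ℝ) : qForm r Q u v = qForm r Q v u := by
  unfold qForm
  rw [Matrix.dotProduct_mulVec, ← Matrix.mulVec_transpose, hQ, dotProduct_comm]

theorem det_two_update (Q : Matrix {x : V // x ≠ r} {x : V // x ≠ r} ℝ) (e f : E) (a b : ℝ) :
    ((1 : Matrix (Fin 2) (Fin 2) ℝ) + vMat src tgt r e f a b * Q * uMat src tgt r e f).det
      = (1 + a * qForm r Q (bCol src tgt r e) (bCol src tgt r e))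
          * (1 + b * qForm r Q (bCol src tgt r f) (bCol src tgt r f))
        - (a * qForm r Q (bCol src tgt r e) (bCol src tgt r f))
          * (b * qForm r Q (bCol src tgt r f) (bCol src tgt r e)) := by
  have hentry : ∀ k l : Fin 2, (vMat src tgt r e f a b * Q * uMat src tgt r e f) k l
      = (if k = 0 then a else b)
        * qForm r Q (if k = 0 then bCol src tgt r e else bCol src tgt r f)
            (if l = 0 then bCol src tgt r e else bCol src tgt r f) := by
    intro k l
    rw [Matrix.mul_apply]
    unfold qForm
    simp only [Matrix.mul_apply, dotProduct, Matrix.mulVec, Finset.mul_sum, Finset.sum_mul]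
    rw [Finset.sum_comm]
    refine Finset.sum_congr rfl fun i _ => ?_
    refine Finset.sum_congr rfl fun j _ => ?_
    unfold uMat vMat
    by_cases hk : k = 0 <;> by_cases hl : l = 0 <;> simp [hk, hl] <;> ring
  rw [Matrix.det_fin_two]
  simp only [Matrix.add_apply, Matrix.one_apply, hentry]
  simp

/-- **Rayleigh inequality for spanning trees.** -/
theorem rayleigh (w : E → ℝ) (hw : ∀ x, 0 < w x) (e f : E) (hef : e ≠ f) :
    zPart src tgt r w e f True True * zPart src tgt r w e f False False
      ≤ zPart src tgt r w e f True False * zPart src tgt r w e f False True := by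
  set A := zPart src tgt r w e f False False with hA
  set Ze := zPart src tgt r w e f True False with hZe
  set Zf := zPart src tgt r w e f False True with hZf
  set Zb := zPart src tgt r w e f True True with hZb
  have hZe0 : 0 ≤ Ze := zPart_nonneg src tgt r w hw e f _ _
  have hZf0 : 0 ≤ Zf := zPart_nonneg src tgt r w hw e f _ _
  set M := lap src tgt r (wst w e f 0 0) with hM
  have hdetM : M.det = A := by
    rw [hM, det_lap, treeSum_wst]; simp [hA]
  by_cases hA0 : A = 0
  · rw [hA0, mul_zero]
    exact mul_nonneg hZe0 hZf0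
  have hunit : IsUnit M.det := by
    rw [hdetM]; exact isUnit_iff_ne_zero.mpr hA0
  set Q := M⁻¹ with hQ
  have hQsymm : Qᵀ = Q := by
    rw [hQ, Matrix.transpose_nonsing_inv, hM, lap_transpose]
  set a := qForm r Q (bCol src tgt r e) (bCol src tgt r e) with ha
  set d := qForm r Q (bCol src tgt r f) (bCol src tgt r f) with hd
  set c := qForm r Q (bCol src tgt r e) (bCol src tgt r f) with hc
  have hc' : qForm r Q (bCol src tgt r f) (bCol src tgt r e) = c := by
    rw [hc]; exact qForm_symm r Q hQsymm _ _
  have key : ∀ s t : ℝ, A + s * Ze + t * Zf + s * t * Zb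
      = A * ((1 + s * w e * a) * (1 + t * w f * d) - (s * w e * c) * (t * w f * c)) := by
    intro s t
    have h1 := treeSum_wst src tgt r w e f s t
    rw [← det_lap, lap_wst src tgt r w e f hef s t, Matrix.det_add_mul _ _ hunit, hdetM,
      det_two_update, hc'] at h1
    rw [← h1]
  have k1 := key 1 0
  have k2 := key 0 1
  have k3 := key 1 1
  have h1 : Ze = A * (w e * a) := by linarith
  have h2 : Zf = A * (w f * d) := by linarith
  have h3 : Zb = A * (w e * w f * (a * d - c ^ 2)) := by
    have : A + 1 * Ze + 1 * Zf + 1 * 1 * Zb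
        = A * ((1 + 1 * w e * a) * (1 + 1 * w f * d) - (1 * w e * c) * (1 * w f * c)) := k3
    rw [h1, h2] at this
    nlinarith [this]
  rw [h1, h2, h3]
  have h4 : 0 ≤ A ^ 2 * (w e * w f * c ^ 2) :=
    mul_nonneg (sq_nonneg _) (mul_nonneg (mul_nonneg (hw e).le (hw f).le) (sq_nonneg _))
  nlinarith [h4]

end

end P143
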