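import Mathlib

/-!
# P143: tilted means of a law on spins
-/

namespace Vale.Agent.Lib.P143

open MeasureTheory Filter Topology Finset

noncomputable section

variable {E : Type*}

/-- Spin of a Boolean. -/
def sg (b : Bool) : ℝ := if b then 1 else -1

@[simp] lemma sg_true : sg true = 1 := by simp [sg]
@[simp] lemma sg_false : sg false = -1 := by simp [sg]

lemma abs_sg (b : Bool) : |sg b| = 1 := by cases b <;> simp

lemma measurable_sg : Measurable sg := measurable_of_countable _

/-- Exponential tilt of the finite set `F`. -/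
def expTilt (F : Finset E) (X : E → ℝ) (ω : E → Bool) : ℝ :=
  Real.exp (∑ f ∈ F, X f * sg (ω f))

lemma expTilt_pos (F : Finset E) (X : E → ℝ) (ω : E → Bool) : 0 < expTilt F X ω := Real.exp_pos _

lemma measurable_expTilt_joint (F : Finset E) :
    Measurable (fun p : (E → ℝ) × (E → Bool) => expTilt F p.1 p.2) := by
  unfold expTilt
  refine Real.measurable_exp.comp (Finset.measurable_sum _ fun f _ => ?_)
  have h1 : Measurable fun p : (E → ℝ) × (E → Bool) => p.1 f :=
    (measurable_pi_apply f).comp measurable_fst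
  have h2 : Measurable fun p : (E → ℝ) × (E → Bool) => sg (p.2 f) :=
    measurable_sg.comp ((measurable_pi_apply f).comp measurable_snd)
  exact h1.mul h2

lemma measurable_expTilt (F : Finset E) (X : E → ℝ) : Measurable (expTilt F X) :=
  (measurable_expTilt_joint F).comp (measurable_const.prodMk measurable_id)

lemma expTilt_le (F : Finset E) (X : E → ℝ) (ω : E → Bool) :
    expTilt F X ω ≤ Real.exp (∑ f ∈ F, |X f|) := by
  unfold expTilt
  refine Real.exp_le_exp.mpr (Finset.sum_le_sum fun f _ => ?_)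
  calc X f * sg (ω f) ≤ |X f * sg (ω f)| := le_abs_self _
    _ = |X f| := by rw [abs_mul, abs_sg, mul_one]

lemma integrable_expTilt (μ : Measure (E → Bool)) [IsFiniteMeasure μ] (F : Finset E) (X : E → ℝ) :
    Integrable (expTilt F X) μ := by
  refine Integrable.of_bound (measurable_expTilt F X).aestronglyMeasurable
    (Real.exp (∑ f ∈ F, |X f|)) (Eventually.of_forall fun ω => ?_)
  rw [Real.norm_eq_abs, abs_of_pos (expTilt_pos F X ω)]
  exact expTilt_le F X ω

lemma integrable_sg_mul_expTilt (μ : Measure (E → Bool)) [IsFiniteMeasure μ] (e : E) (F : Finset E)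
    (X : E → ℝ) : Integrable (fun ω => sg (ω e) * expTilt F X ω) μ := by
  refine Integrable.bdd_mul (c := 1) (integrable_expTilt μ F X)
    (measurable_sg.comp (measurable_pi_apply e)).aestronglyMeasurable
    (Eventually.of_forall fun ω => ?_)
  simp [abs_sg]

/-- Partition function of the tilted measure. -/
def tiltZ (μ : Measure (E → Bool)) (F : Finset E) (X : E → ℝ) : ℝ := ∫ ω, expTilt F X ω ∂μ

/-- Numerator of the tilted mean. -/
def tiltN (μ : Measure (E → Bool)) (e : E) (F : Finset E) (X : E → ℝ) : ℝ :=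
  ∫ ω, sg (ω e) * expTilt F X ω ∂μ

/-- Mean of the spin at `e` under `μ` tilted by `X` on `F`. -/
def tiltM (μ : Measure (E → Bool)) (e : E) (F : Finset E) (X : E → ℝ) : ℝ :=
  tiltN μ e F X / tiltZ μ F X

lemma tiltZ_pos (μ : Measure (E → Bool)) [IsProbabilityMeasure μ] (F : Finset E) (X : E → ℝ) :
    0 < tiltZ μ F X := by
  have h : Integrable (fun ω => Real.exp (∑ f ∈ F, X f * sg (ω f))) μ := integrable_expTilt μ F X
  exact integral_exp_pos h

lemma abs_tiltN_le (μ : Measure (E → Bool)) [IsProbabilityMeasure μ] (e : E) (F : Finset E)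
    (X : E → ℝ) : |tiltN μ e F X| ≤ tiltZ μ F X := by
  unfold tiltN tiltZ
  calc |∫ ω, sg (ω e) * expTilt F X ω ∂μ| ≤ ∫ ω, |sg (ω e) * expTilt F X ω| ∂μ :=
        abs_integral_le_integral_abs
    _ = ∫ ω, expTilt F X ω ∂μ := by
        refine integral_congr_ae (Eventually.of_forall fun ω => ?_)
        simp only [abs_mul, abs_sg, one_mul, abs_of_pos (expTilt_pos F X ω)]

lemma abs_tiltM_le (μ : Measure (E → Bool)) [IsProbabilityMeasure μ] (e : E) (F : Finset E)
    (X : E → ℝ) : |tiltM μ e F X| ≤ 1 := by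
  unfold tiltM
  rw [abs_div, abs_of_pos (tiltZ_pos μ F X)]
  exact (div_le_one (tiltZ_pos μ F X)).mpr (abs_tiltN_le μ e F X)

lemma measurable_tiltZ (μ : Measure (E → Bool)) [IsFiniteMeasure μ] (F : Finset E) :
    Measurable (tiltZ μ F) := by
  have h := (measurable_expTilt_joint F).stronglyMeasurable
  exact (h.integral_prod_right' (ν := μ)).measurable

lemma measurable_tiltN (μ : Measure (E → Bool)) [IsFiniteMeasure μ] (e : E) (F : Finset E) :
    Measurable (tiltN μ e F) := by
  have h1 : Measurable fun p : (E → ℝ) × (E → Bool) => sg (p.2 e) :=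
    measurable_sg.comp ((measurable_pi_apply e).comp measurable_snd)
  have h := (h1.mul (measurable_expTilt_joint F)).stronglyMeasurable
  exact (h.integral_prod_right' (ν := μ)).measurable

lemma measurable_tiltM (μ : Measure (E → Bool)) [IsFiniteMeasure μ] (e : E) (F : Finset E) :
    Measurable (tiltM μ e F) :=
  (measurable_tiltN μ e F).div (measurable_tiltZ μ F)

/-- `tiltM` only depends on `X` on `F`. -/
lemma tiltM_congr (μ : Measure (E → Bool)) (e : E) (F : Finset E) {X X' : E → ℝ}
    (h : ∀ f ∈ F, X f = X' f) : tiltM μ e F X = tiltM μ e F X' := by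
  have : expTilt F X = expTilt F X' := by
    funext ω
    unfold expTilt
    congr 1
    exact Finset.sum_congr rfl fun f hf => by rw [h f hf]
  unfold tiltM tiltN tiltZ
  simp only [this]

/-- Transport of tilted means under a relabelling `a` of the edges which preserves `μ`. -/
lemma tiltM_map [DecidableEq E] (μ : Measure (E → Bool)) (a : E ≃ E)
    (hμ : μ.map (fun ω : E → Bool => fun e => ω (a e)) = μ) (e : E) (F : Finset E) (X : E → ℝ) :
    tiltM μ (a e) (F.map a.toEmbedding) X = tiltM μ e F (fun f => X (a f)) := by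
  have hm : Measurable (fun ω : E → Bool => fun e => ω (a e)) :=
    measurable_pi_iff.mpr fun e => measurable_pi_apply _
  have key : ∀ ω : E → Bool, expTilt (F.map a.toEmbedding) X ω =
      expTilt F (fun f => X (a f)) (fun e => ω (a e)) := by
    intro ω
    unfold expTilt
    simp [Finset.sum_map]
  have hZ : tiltZ μ (F.map a.toEmbedding) X = tiltZ μ F (fun f => X (a f)) := by
    unfold tiltZ
    conv_rhs => rw [← hμ]
    rw [integral_map hm.aemeasurable (measurable_expTilt _ _).aestronglyMeasurable]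
    simp only [key]
  have hN : tiltN μ (a e) (F.map a.toEmbedding) X = tiltN μ e F (fun f => X (a f)) := by
    unfold tiltN
    conv_rhs => rw [← hμ]
    have hmeas : Measurable (fun ω : E → Bool => sg (ω e) * expTilt F (fun f => X (a f)) ω) :=
      (measurable_sg.comp (measurable_pi_apply e)).mul (measurable_expTilt _ _)
    rw [integral_map hm.aemeasurable hmeas.aestronglyMeasurable]
    simp only [key]
  unfold tiltM
  rw [hZ, hN]

/-- General limsup comparison. -/
lemma abs_limsup_sub_limsup_le {a b : ℕ → ℝ} {C : ℝ} (ha : ∀ n, |a n| ≤ C) (hb : ∀ n, |b n| ≤ C)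
    {D : ℝ} (h : ∀ n, |a n - b n| ≤ D) :
    |limsup a atTop - limsup b atTop| ≤ D := by
  have bddA : IsBoundedUnder (· ≤ ·) atTop a :=
    isBoundedUnder_of ⟨C, fun n => (abs_le.mp (ha n)).2⟩
  have bddB : IsBoundedUnder (· ≤ ·) atTop b :=
    isBoundedUnder_of ⟨C, fun n => (abs_le.mp (hb n)).2⟩
  have cobddA : IsCoboundedUnder (· ≤ ·) atTop a :=
    (isBoundedUnder_of ⟨-C, fun n => (abs_le.mp (ha n)).1⟩ :
      IsBoundedUnder (· ≥ ·) atTop a).isCoboundedUnder_le
  have cobddB : IsCoboundedUnder (· ≤ ·) atTop b :=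
    (isBoundedUnder_of ⟨-C, fun n => (abs_le.mp (hb n)).1⟩ :
      IsBoundedUnder (· ≥ ·) atTop b).isCoboundedUnder_le
  have one : ∀ {u v : ℕ → ℝ}, IsBoundedUnder (· ≤ ·) atTop v → IsCoboundedUnder (· ≤ ·) atTop u →
      (∀ n, |u n - v n| ≤ D) → limsup u atTop ≤ limsup v atTop + D := by
    intro u v hv hu huv
    refine le_of_forall_pos_le_add fun δ hδ => ?_
    have hlt : limsup v atTop < limsup v atTop + δ := by linarith
    have ev := eventually_lt_of_limsup_lt hlt hv
    refine limsup_le_of_le hu ?_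
    filter_upwards [ev] with n hn
    have := (abs_le.mp (huv n)).2
    linarith
  rw [abs_le]
  constructor
  · have := one bddA cobddB (fun n => by rw [abs_sub_comm]; exact h n)
    linarith
  · have := one bddB cobddA h
    linarith

/-- The infinite volume tilted mean along the exhaustion `B e n`. -/
def Psi (μ : Measure (E → Bool)) (B : E → ℕ → Finset E) (e : E) (X : E → ℝ) : ℝ :=
  limsup (fun n => tiltM μ e (B e n) X) atTop

lemma abs_Psi_le (μ : Measure (E → Bool)) [IsProbabilityMeasure μ] (B : E → ℕ → Finset E) (e : E)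
    (X : E → ℝ) : |Psi μ B e X| ≤ 1 := by
  have h := abs_limsup_sub_limsup_le (a := fun n => tiltM μ e (B e n) X) (b := fun _ => 0)
    (C := 1) (fun _ => abs_tiltM_le μ e _ X) (fun _ => by simp) (D := 1)
    (fun _ => by simpa using abs_tiltM_le μ e _ X)
  simpa [Psi] using h

lemma measurable_Psi (μ : Measure (E → Bool)) [IsProbabilityMeasure μ] (B : E → ℕ → Finset E)
    (e : E) : Measurable (Psi μ B e) := by
  unfold Psi
  exact Measurable.limsup fun n => measurable_tiltM μ e (B e n)

/-- Hypothesis (L): tilted means are Lipschitz in the sup norm, with dimension free constant. -/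
def TiltLipschitz (μ : Measure (E → Bool)) : Prop :=
  ∀ (F : Finset E) (e : E), e ∈ F → ∀ (X X' : E → ℝ) (D : ℝ), (∀ f ∈ F, |X f - X' f| ≤ D) →
    |tiltM μ e F X - tiltM μ e F X'| ≤ 2 * D

lemma Psi_lip (μ : Measure (E → Bool)) [IsProbabilityMeasure μ] (hL : TiltLipschitz μ)
    (B : E → ℕ → Finset E) (hB : ∀ e n, e ∈ B e n) (e : E) (X X' : E → ℝ) (D : ℝ)
    (h : ∀ f, |X f - X' f| ≤ D) : |Psi μ B e X - Psi μ B e X'| ≤ 2 * D :=
  abs_limsup_sub_limsup_le (C := 1) (fun _ => abs_tiltM_le μ e _ X)
    (fun _ => abs_tiltM_le μ e _ X') (fun n => hL _ e (hB e n) X X' D fun f _ => h f)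

lemma Psi_map [DecidableEq E] (μ : Measure (E → Bool)) (a : E ≃ E)
    (hμ : μ.map (fun ω : E → Bool => fun e => ω (a e)) = μ)
    (B : E → ℕ → Finset E) (hB : ∀ e n, B (a e) n = (B e n).map a.toEmbedding) (e : E)
    (X : E → ℝ) : Psi μ B (a e) X = Psi μ B e (fun f => X (a f)) := by
  unfold Psi
  congr 1
  funext n
  rw [hB, tiltM_map μ a hμ]

end

end Vale.Agent.Lib.P143
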