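import Vale.Agent.Lib.P143.Rayleigh

/-!
# Lipschitz bound for the tilted spin expectation of the spanning tree measure

The tilted expectation of the spin `s_e` has an `ℓ¹`-gradient bounded by `2`, hence is
`2`-Lipschitz in the sup norm of the tilt.
-/

namespace P143

open Finset

set_option linter.unusedSectionVars false

variable {E : Type*} [Fintype E] [DecidableEq E]

/-- The spin of the edge `f` in the edge set `S`. -/
def sgn (f : E) (S : Finset E) : ℝ := if f ∈ S then 1 else -1

theorem sgn_sq (f : E) (S : Finset E) : sgn f S * sgn f S = 1 := by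
  unfold sgn; split_ifs <;> norm_num

theorem sgn_abs_le (f : E) (S : Finset E) : |sgn f S| ≤ 1 := by
  unfold sgn; split_ifs <;> norm_num

/-- The exponential tilt. -/
noncomputable def tiltW (F : Finset E) (X : E → ℝ) (S : Finset E) : ℝ :=
  Real.exp (∑ f ∈ F, X f * sgn f S)

theorem tiltW_pos (F : Finset E) (X : E → ℝ) (S : Finset E) : 0 < tiltW F X S := Real.exp_pos _

/-- Tilted expectation. -/
noncomputable def tiltE (Om : Finset (Finset E)) (F : Finset E) (X : E → ℝ)
    (g : Finset E → ℝ) : ℝ :=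
  (∑ S ∈ Om, g S * tiltW F X S) / ∑ S ∈ Om, tiltW F X S

/-- The tilted mean of the spin at `e`. -/
noncomputable def tiltM (Om : Finset (Finset E)) (F : Finset E) (e : E) (X : E → ℝ) : ℝ :=
  tiltE Om F X (sgn e)

/-- Tilted covariance of two spins. -/
noncomputable def tiltCov (Om : Finset (Finset E)) (F : Finset E) (X : E → ℝ) (e f : E) : ℝ :=
  tiltE Om F X (fun S => sgn e S * sgn f S) - tiltE Om F X (sgn e) * tiltE Om F X (sgn f)

section expectation

variable (Om : Finset (Finset E)) (hOm : Om.Nonempty) (F : Finset E) (X : E → ℝ)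

include hOm

theorem tiltZ_pos : 0 < ∑ S ∈ Om, tiltW F X S :=
  Finset.sum_pos (fun S _ => tiltW_pos F X S) hOm

theorem tiltE_const (c : ℝ) : tiltE Om F X (fun _ => c) = c := by
  unfold tiltE
  rw [← Finset.mul_sum]
  field_simp [(tiltZ_pos Om hOm F X).ne']

theorem tiltE_abs_le (g : Finset E → ℝ) (hg : ∀ S, |g S| ≤ 1) : |tiltE Om F X g| ≤ 1 := by
  unfold tiltE
  have hZ := tiltZ_pos Om hOm F X
  rw [abs_div, abs_of_pos hZ, div_le_one hZ]
  calc |∑ S ∈ Om, g S * tiltW F X S| ≤ ∑ S ∈ Om, |g S * tiltW F X S| :=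
        Finset.abs_sum_le_sum_abs _ _
    _ ≤ ∑ S ∈ Om, tiltW F X S := by
        refine Finset.sum_le_sum fun S _ => ?_
        rw [abs_mul, abs_of_pos (tiltW_pos F X S)]
        have := hg S
        have h2 := tiltW_pos F X S
        nlinarith

omit hOm in
theorem tiltE_sum {ι : Type*} (s : Finset ι) (g : ι → Finset E → ℝ) :
    tiltE Om F X (fun S => ∑ i ∈ s, g i S) = ∑ i ∈ s, tiltE Om F X (g i) := by
  unfold tiltE
  rw [← Finset.sum_div]
  congr 1
  simp only [Finset.sum_mul]
  exact Finset.sum_comm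

omit hOm in
theorem tiltE_mul_const (c : ℝ) (g : Finset E → ℝ) :
    tiltE Om F X (fun S => c * g S) = c * tiltE Om F X g := by
  unfold tiltE
  rw [mul_div_assoc', Finset.mul_sum]
  congr 1
  refine Finset.sum_congr rfl fun S _ => ?_
  ring

end expectation

section covariance

variable (Om : Finset (Finset E)) (hOm : Om.Nonempty) (n : ℕ) (hcard : ∀ S ∈ Om, S.card = n)

include hOm hcard

/-- The sum of all spins is constant on `Om`. -/
theorem sum_sgn (S : Finset E) (hS : S ∈ Om) :
    ∑ f, sgn f S = 2 * (n : ℝ) - Fintype.card E := by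
  have h1 : ∀ f, sgn f S = 2 * (if f ∈ S then 1 else 0) - 1 := by
    intro f; unfold sgn; split_ifs <;> norm_num
  simp only [h1, Finset.sum_sub_distrib, ← Finset.mul_sum]
  simp [hcard S hS]

/-- The covariances with the spin at `e` sum to zero. -/
theorem sum_tiltCov (F : Finset E) (X : E → ℝ) (e : E) :
    ∑ f, tiltCov Om F X e f = 0 := by
  set c : ℝ := 2 * (n : ℝ) - Fintype.card E with hc
  unfold tiltCov
  rw [Finset.sum_sub_distrib, ← Finset.mul_sum, ← tiltE_sum Om F X]
  have h1 : tiltE Om F X (fun S => ∑ f, sgn f S) = c := by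
    have : tiltE Om F X (fun S => ∑ f, sgn f S) = tiltE Om F X (fun _ => c) := by
      unfold tiltE
      congr 1
      refine Finset.sum_congr rfl fun S hS => ?_
      beta_reduce
      rw [sum_sgn Om hOm n hcard S hS]
    rw [this, tiltE_const Om hOm]
  have h3 : tiltE Om F X (fun S => ∑ f, sgn e S * sgn f S) = c * tiltE Om F X (sgn e) := by
    rw [← tiltE_mul_const]
    unfold tiltE
    congr 1
    refine Finset.sum_congr rfl fun S hS => ?_
    beta_reduce
    rw [← Finset.mul_sum, sum_sgn Om hOm n hcard S hS]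
    ring
  have h4 : ∑ i, tiltE Om F X (sgn i) = c := by
    rw [← h1, tiltE_sum]
  rw [h3, h4]
  ring

/-- The row sum bound: if the off-diagonal covariances are nonpositive then the `ℓ¹` norm
of the covariance row is at most `2`. -/
theorem row_sum_le (F : Finset E) (X : E → ℝ) (e : E)
    (hneg : ∀ f, f ≠ e → tiltCov Om F X e f ≤ 0) :
    ∑ f, |tiltCov Om F X e f| ≤ 2 := by
  have h0 := sum_tiltCov Om hOm n hcard F X e
  have hdiag : tiltCov Om F X e e = 1 - tiltE Om F X (sgn e) ^ 2 := by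
    unfold tiltCov
    have : tiltE Om F X (fun S => sgn e S * sgn e S) = 1 := by
      simp only [sgn_sq]
      exact tiltE_const Om hOm F X 1
    rw [this]; ring
  have hdiag0 : 0 ≤ tiltCov Om F X e e := by
    rw [hdiag]
    have h1 := tiltE_abs_le Om hOm F X (sgn e) (sgn_abs_le e)
    have : tiltE Om F X (sgn e) ^ 2 ≤ 1 := by
      have := abs_le.mp h1
      nlinarith [this.1, this.2]
    linarith
  have hdiag1 : tiltCov Om F X e e ≤ 1 := by
    rw [hdiag]; nlinarith [sq_nonneg (tiltE Om F X (sgn e))]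
  have hsplit : ∀ g : E → ℝ, ∑ f, g f = g e + ∑ f ∈ univ.erase e, g f := by
    intro g
    rw [Finset.add_sum_erase _ _ (Finset.mem_univ e)]
  rw [hsplit] at h0
  rw [hsplit, abs_of_nonneg hdiag0]
  have h1 : ∑ f ∈ univ.erase e, |tiltCov Om F X e f| = - ∑ f ∈ univ.erase e, tiltCov Om F X e f := by
    rw [← Finset.sum_neg_distrib]
    refine Finset.sum_congr rfl fun f hf => ?_
    exact abs_of_nonpos (hneg f (Finset.ne_of_mem_erase hf))
  rw [h1]
  linarith

end covariance

section derivative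

variable (Om : Finset (Finset E)) (F : Finset E) (e : E) (X Y : E → ℝ)

omit [Fintype E] in
theorem sum_aux (F : Finset E) (Y A B : E → ℝ) (Z N : ℝ) :
    ∑ f ∈ F, Y f * (A f / Z - N / Z * (B f / Z))
      = (∑ f ∈ F, Y f * A f) / Z - N / Z * ((∑ f ∈ F, Y f * B f) / Z) := by
  rw [Finset.sum_div, Finset.sum_div, Finset.mul_sum, ← Finset.sum_sub_distrib]
  refine Finset.sum_congr rfl fun f _ => ?_
  ring

/-- Exponent along the line. -/
theorem hasDerivAt_tiltW (S : Finset E) (t : ℝ) :
    HasDerivAt (fun t : ℝ => tiltW F (fun f => X f + t * Y f) S)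
      ((∑ f ∈ F, Y f * sgn f S) * tiltW F (fun f => X f + t * Y f) S) t := by
  unfold tiltW
  have h1 : HasDerivAt (fun t : ℝ => ∑ f ∈ F, (X f + t * Y f) * sgn f S)
      (∑ f ∈ F, Y f * sgn f S) t := by
    have := HasDerivAt.fun_sum (u := F) (A := fun f (t : ℝ) => (X f + t * Y f) * sgn f S)
      (A' := fun f => Y f * sgn f S) (x := t) (fun f _ => by
        have h : HasDerivAt (fun t : ℝ => X f + t * Y f) (Y f) t := by
          simpa using ((hasDerivAt_id t).mul_const (Y f)).const_add (X f)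
        exact h.mul_const (sgn f S))
    exact this
  have := h1.exp
  simpa [mul_comm] using this

theorem hasDerivAt_tiltM (hOm : Om.Nonempty) (t : ℝ) :
    HasDerivAt (fun t : ℝ => tiltM Om F e (fun f => X f + t * Y f))
      (∑ f ∈ F, Y f * tiltCov Om F (fun f => X f + t * Y f) e f) t := by
  set Xt : E → ℝ := fun f => X f + t * Y f with hXt
  have hN : HasDerivAt (fun t : ℝ => ∑ S ∈ Om, sgn e S * tiltW F (fun f => X f + t * Y f) S)
      (∑ S ∈ Om, sgn e S * ((∑ f ∈ F, Y f * sgn f S) * tiltW F Xt S)) t := by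
    exact HasDerivAt.fun_sum (fun S _ => (hasDerivAt_tiltW F X Y S t).const_mul (sgn e S))
  have hD : HasDerivAt (fun t : ℝ => ∑ S ∈ Om, tiltW F (fun f => X f + t * Y f) S)
      (∑ S ∈ Om, ((∑ f ∈ F, Y f * sgn f S) * tiltW F Xt S)) t := by
    exact HasDerivAt.fun_sum (fun S _ => hasDerivAt_tiltW F X Y S t)
  have hZ := tiltZ_pos Om hOm F Xt
  have hq := hN.div hD hZ.ne'
  have hfun : (fun t : ℝ => tiltM Om F e (fun f => X f + t * Y f))
      = (fun t : ℝ => ∑ S ∈ Om, sgn e S * tiltW F (fun f => X f + t * Y f) S)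
        / (fun t : ℝ => ∑ S ∈ Om, tiltW F (fun f => X f + t * Y f) S) := by
    funext s; rfl
  rw [hfun]
  refine hq.congr_deriv ?_
  set Z := ∑ S ∈ Om, tiltW F Xt S with hZdef
  have e1 : ∑ S ∈ Om, sgn e S * ((∑ f ∈ F, Y f * sgn f S) * tiltW F Xt S)
      = ∑ f ∈ F, Y f * ∑ S ∈ Om, (sgn e S * sgn f S) * tiltW F Xt S := by
    simp only [Finset.mul_sum, Finset.sum_mul]
    rw [Finset.sum_comm]
    refine Finset.sum_congr rfl fun f _ => Finset.sum_congr rfl fun S _ => ?_
    ring
  have e2 : ∑ S ∈ Om, ((∑ f ∈ F, Y f * sgn f S) * tiltW F Xt S)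
      = ∑ f ∈ F, Y f * ∑ S ∈ Om, sgn f S * tiltW F Xt S := by
    simp only [Finset.mul_sum, Finset.sum_mul]
    rw [Finset.sum_comm]
    refine Finset.sum_congr rfl fun f _ => Finset.sum_congr rfl fun S _ => ?_
    ring
  rw [e1, e2]
  unfold tiltCov tiltE
  rw [← hZdef]
  set N := ∑ S ∈ Om, sgn e S * tiltW F Xt S with hNdef
  rw [sum_aux]
  have hZ0 : Z ≠ 0 := hZ.ne'
  field_simp

end derivative

section lipschitz

variable (Om : Finset (Finset E)) (hOm : Om.Nonempty) (n : ℕ) (hcard : ∀ S ∈ Om, S.card = n)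
  (F : Finset E) (e : E)

include hOm hcard

/-- If the off-diagonal tilted covariances are nonpositive for all tilts, the tilted mean is
`2`-Lipschitz in the sup norm over `F`. -/
theorem tiltM_lipschitz (hneg : ∀ X : E → ℝ, ∀ f, f ≠ e → tiltCov Om F X e f ≤ 0)
    (X X' : E → ℝ) (δ : ℝ) (hd0 : 0 ≤ δ) (hδ : ∀ f ∈ F, |X f - X' f| ≤ δ) :
    |tiltM Om F e X - tiltM Om F e X'| ≤ 2 * δ := by
  set Y : E → ℝ := fun f => X' f - X f with hY
  let g : ℝ → ℝ := fun t => tiltM Om F e (fun f => X f + t * Y f)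
  have hg : ∀ t, HasDerivAt g (∑ f ∈ F, Y f * tiltCov Om F (fun f => X f + t * Y f) e f) t :=
    fun t => hasDerivAt_tiltM Om F e X Y hOm t
  have hbound : ∀ t, ‖∑ f ∈ F, Y f * tiltCov Om F (fun f => X f + t * Y f) e f‖ ≤ 2 * δ := by
    intro t
    rw [Real.norm_eq_abs]
    calc |∑ f ∈ F, Y f * tiltCov Om F (fun f => X f + t * Y f) e f|
        ≤ ∑ f ∈ F, |Y f * tiltCov Om F (fun f => X f + t * Y f) e f| :=
          Finset.abs_sum_le_sum_abs _ _
      _ ≤ ∑ f ∈ F, δ * |tiltCov Om F (fun f => X f + t * Y f) e f| := by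
          refine Finset.sum_le_sum fun f hf => ?_
          rw [abs_mul]
          have : |Y f| ≤ δ := by
            have := hδ f hf
            rw [abs_sub_comm] at this
            exact this
          exact mul_le_mul_of_nonneg_right this (abs_nonneg _)
      _ = δ * ∑ f ∈ F, |tiltCov Om F (fun f => X f + t * Y f) e f| := by
          rw [Finset.mul_sum]
      _ ≤ δ * ∑ f, |tiltCov Om F (fun f => X f + t * Y f) e f| := by
          apply mul_le_mul_of_nonneg_left _ hd0
          exact Finset.sum_le_sum_of_subset_of_nonneg (Finset.subset_univ _)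
            (fun _ _ _ => abs_nonneg _)
      _ ≤ δ * 2 := by
          apply mul_le_mul_of_nonneg_left _ hd0
          exact row_sum_le Om hOm n hcard F _ e (hneg _)
      _ = 2 * δ := by ring
  have hmv := Convex.norm_image_sub_le_of_norm_hasDerivWithin_le
    (f := g) (f' := fun t => ∑ f ∈ F, Y f * tiltCov Om F (fun f => X f + t * Y f) e f)
    (s := Set.univ) (x := 1) (y := 0) (C := 2 * δ)
    (fun t _ => (hg t).hasDerivWithinAt) (fun t _ => hbound t) convex_univ
    (Set.mem_univ _) (Set.mem_univ _)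
  have h0 : g 0 = tiltM Om F e X := by
    simp only [g]; congr 1; funext f; simp
  have h1 : g 1 = tiltM Om F e (fun f => X' f) := by
    simp only [g]; congr 1; funext f; simp [hY]
  rw [h0, h1, Real.norm_eq_abs] at hmv
  have h2 : ‖(0 : ℝ) - 1‖ = 1 := by norm_num
  rw [h2, mul_one] at hmv
  exact hmv

end lipschitz

section spanning

variable {V : Type*} [Fintype V] [DecidableEq V] (src tgt : E → V) (r : V)

/-- The weights corresponding to an exponential tilt. -/
noncomputable def tiltWeight (F : Finset E) (X : E → ℝ) : E → ℝ :=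
  fun x => if x ∈ F then Real.exp (2 * X x) else 1

theorem tiltWeight_pos (F : Finset E) (X : E → ℝ) (x : E) : 0 < tiltWeight F X x := by
  unfold tiltWeight; split_ifs
  · exact Real.exp_pos _
  · exact one_pos

theorem tiltW_eq (F : Finset E) (X : E → ℝ) (S : Finset E) :
    tiltW F X S = Real.exp (- ∑ f ∈ F, X f) * ∏ x ∈ S, tiltWeight F X x := by
  classical
  have h1 : ∏ x ∈ S, tiltWeight F X x = ∏ x ∈ F, (if x ∈ S then Real.exp (2 * X x) else 1) := by
    unfold tiltWeight
    rw [Finset.prod_ite_mem S F, Finset.prod_ite_mem F S, Finset.inter_comm]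
  rw [h1]
  unfold tiltW
  rw [← Finset.sum_neg_distrib, Real.exp_sum, Real.exp_sum, ← Finset.prod_mul_distrib]
  refine Finset.prod_congr rfl fun f _ => ?_
  unfold sgn
  by_cases h : f ∈ S
  · simp only [h, if_true]
    rw [← Real.exp_add]
    congr 1
    ring
  · simp [h]

/-- Off-diagonal tilted covariances of the spanning tree measure are nonpositive. -/
theorem tiltCov_nonpos (F : Finset E) (X : E → ℝ) (e f : E) (hef : f ≠ e) :
    tiltCov (stSet src tgt r) F X e f ≤ 0 := by
  classical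
  set w := tiltWeight F X with hw
  have hwpos : ∀ x, 0 < w x := tiltWeight_pos F X
  set C := Real.exp (- ∑ f ∈ F, X f) with hC
  have hCpos : 0 < C := Real.exp_pos _
  set Zb := zPart src tgt r w e f True True with hZb
  set Ze := zPart src tgt r w e f True False with hZe
  set Zf := zPart src tgt r w e f False True with hZf
  set Zn := zPart src tgt r w e f False False with hZn
  have hR : Zb * Zn ≤ Ze * Zf := rayleigh src tgt r w hwpos e f (Ne.symm hef)
  have hb0 : 0 ≤ Zb := zPart_nonneg src tgt r w hwpos e f _ _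
  have he0 : 0 ≤ Ze := zPart_nonneg src tgt r w hwpos e f _ _
  have hf0 : 0 ≤ Zf := zPart_nonneg src tgt r w hwpos e f _ _
  have hn0 : 0 ≤ Zn := zPart_nonneg src tgt r w hwpos e f _ _
  have hq : ∀ S, tiltW F X S = C * ∏ x ∈ S, w x := fun S => tiltW_eq F X S
  have hfour : ∀ a b c d : ℝ, ∑ S ∈ stSet src tgt r,
      ((if e ∈ S then (if f ∈ S then a else b) else (if f ∈ S then c else d)) * tiltW F X S)
      = C * (a * Zb + b * Ze + c * Zf + d * Zn) := by
    intro a b c d
    have hexp : a * Zb + b * Ze + c * Zf + d * Zn = ∑ S ∈ stSet src tgt r,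
        (if e ∈ S then (if f ∈ S then a else b) else (if f ∈ S then c else d)) * ∏ x ∈ S, w x := by
      simp only [hZb, hZe, hZf, hZn, zPart, Finset.sum_filter, Finset.mul_sum]
      simp only [← Finset.sum_add_distrib]
      refine Finset.sum_congr rfl fun S _ => ?_
      by_cases h1 : e ∈ S <;> by_cases h2 : f ∈ S <;> simp [h1, h2]
    rw [hexp, Finset.mul_sum]
    refine Finset.sum_congr rfl fun S _ => ?_
    rw [hq S]
    ring
  have hZ : ∑ S ∈ stSet src tgt r, tiltW F X S = C * (Zb + Ze + Zf + Zn) := by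
    have := hfour 1 1 1 1
    simp only [ite_self, one_mul] at this
    rw [this]
  have hE1 : ∑ S ∈ stSet src tgt r, sgn e S * sgn f S * tiltW F X S
      = C * (Zb - Ze - Zf + Zn) := by
    have := hfour 1 (-1) (-1) 1
    rw [show C * (Zb - Ze - Zf + Zn) = C * (1 * Zb + -1 * Ze + -1 * Zf + 1 * Zn) by ring, ← this]
    refine Finset.sum_congr rfl fun S _ => ?_
    unfold sgn
    by_cases h1 : e ∈ S <;> by_cases h2 : f ∈ S <;> simp [h1, h2]
  have hE2 : ∑ S ∈ stSet src tgt r, sgn e S * tiltW F X S = C * (Zb + Ze - Zf - Zn) := by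
    have := hfour 1 1 (-1) (-1)
    rw [show C * (Zb + Ze - Zf - Zn) = C * (1 * Zb + 1 * Ze + -1 * Zf + -1 * Zn) by ring, ← this]
    refine Finset.sum_congr rfl fun S _ => ?_
    unfold sgn
    by_cases h1 : e ∈ S <;> by_cases h2 : f ∈ S <;> simp [h1, h2]
  have hE3 : ∑ S ∈ stSet src tgt r, sgn f S * tiltW F X S = C * (Zb - Ze + Zf - Zn) := by
    have := hfour 1 (-1) 1 (-1)
    rw [show C * (Zb - Ze + Zf - Zn) = C * (1 * Zb + -1 * Ze + 1 * Zf + -1 * Zn) by ring, ← this]
    refine Finset.sum_congr rfl fun S _ => ?_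
    unfold sgn
    by_cases h1 : e ∈ S <;> by_cases h2 : f ∈ S <;> simp [h1, h2]
  unfold tiltCov tiltE
  rw [hE1, hE2, hE3, hZ]
  set T := Zb + Ze + Zf + Zn with hT
  by_cases hT0 : T = 0
  · simp [hT0]
  have hTpos : 0 < T := lt_of_le_of_ne (by positivity) (Ne.symm hT0)
  have hCne : C ≠ 0 := hCpos.ne'
  have hTne : T ≠ 0 := hT0
  have h5 : C * (Zb - Ze - Zf + Zn) / (C * T)
      - C * (Zb + Ze - Zf - Zn) / (C * T) * (C * (Zb - Ze + Zf - Zn) / (C * T))
      = 4 * (Zb * Zn - Ze * Zf) / T ^ 2 := by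
    rw [mul_div_mul_left _ _ hCne, mul_div_mul_left _ _ hCne, mul_div_mul_left _ _ hCne]
    field_simp
    rw [hT]
    ring
  rw [h5]
  apply div_nonpos_of_nonpos_of_nonneg _ (sq_nonneg _)
  linarith

theorem stSet_card (S : Finset E) (hS : S ∈ stSet src tgt r) :
    S.card = Fintype.card V - 1 := by
  classical
  have : IsST src tgt r S := (Finset.mem_filter.mp hS).2
  have h1 := this.1
  omega

/-- **The tilted mean of the spin at `e` under the uniform spanning tree is `2`-Lipschitz in the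
sup norm of the tilt.** -/
theorem ust_tilt_lipschitz (F : Finset E) (e : E) (X X' : E → ℝ) (δ : ℝ) (hd0 : 0 ≤ δ)
    (hδ : ∀ f ∈ F, |X f - X' f| ≤ δ) :
    |tiltM (stSet src tgt r) F e X - tiltM (stSet src tgt r) F e X'| ≤ 2 * δ := by
  by_cases hOm : (stSet src tgt r).Nonempty
  · exact tiltM_lipschitz _ hOm _ (stSet_card src tgt r) F e
      (fun X f hf => tiltCov_nonpos src tgt r F X e f hf) X X' δ hd0 hδ
  · have hE : stSet src tgt r = ∅ := Finset.not_nonempty_iff_eq_empty.mp hOm
    simp [hE, tiltM, tiltE]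
    exact hd0

end spanning

end P143
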