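import Vale.Agent.Lib.P143.Defs
import Vale.Agent.Lib.P143.Tilt

/-!
# P143: finite volume objects for the uniform spanning tree of a subgraph
-/

namespace Vale.Agent.Lib.P143

open MeasureTheory Filter Topology Finset

open scoped Classical

noncomputable section

variable {V : Type*} {G : SimpleGraph V}

/-- The finite set of spanning trees of `H` (empty by convention if there are infinitely many). -/
def stF (H : G.Subgraph) : Finset (Set (Sym2 V)) :=
  if h : {T : Set (Sym2 V) | IsSpanningTreeOf H T}.Finite then h.toFinset else ∅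

lemma mem_stF {H : G.Subgraph} (h : {T : Set (Sym2 V) | IsSpanningTreeOf H T}.Finite)
    {T : Set (Sym2 V)} : T ∈ stF H ↔ IsSpanningTreeOf H T := by
  simp [stF, h]

/-- The configuration on the edges of `G` of a set `T` of unordered pairs. -/
def treeCfg (T : Set (Sym2 V)) : G.edgeSet → Bool := fun g => decide (g.1 ∈ T)

/-- The tilted partition function for the uniform spanning tree of `H`. -/
def ustZ (H : G.Subgraph) (F : Finset G.edgeSet) (X : G.edgeSet → ℝ) : ℝ :=
  ∑ T ∈ stF H, expTilt F X (treeCfg T)

/-- The tilted numerator for the uniform spanning tree of `H`. -/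
def ustN (H : G.Subgraph) (e : G.edgeSet) (F : Finset G.edgeSet) (X : G.edgeSet → ℝ) : ℝ :=
  ∑ T ∈ stF H, sg (treeCfg T e) * expTilt F X (treeCfg T)

/-- The tilted mean for the uniform spanning tree of `H`. -/
def ustM (H : G.Subgraph) (e : G.edgeSet) (F : Finset G.edgeSet) (X : G.edgeSet → ℝ) : ℝ :=
  ustN H e F X / ustZ H F X

end

end Vale.Agent.Lib.P143
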