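import Vale.Agent.Lib.P143.USTDefs
import Vale.Agent.Lib.P143.Bridge

/-!
# P143: the uniform spanning tree of a finite connected subgraph satisfies the tilt bound
-/

namespace Vale.Agent.Lib.P143

open Finset

open scoped Classical

noncomputable section

set_option linter.style.haveILetI false

variable {V : Type*} {G : SimpleGraph V}

/-- The edge of `G` underlying an edge of the graph `H.coe` on `H.verts`. -/
def edgeMap (H : G.Subgraph) (x : H.coe.edgeSet) : Sym2 V := Sym2.map Subtype.val x.1

lemma edgeMap_injective (H : G.Subgraph) : Function.Injective (edgeMap H) := by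
  intro x y hxy
  exact Subtype.ext (Sym2.map.injective Subtype.val_injective hxy)

lemma edgeMap_mem (H : G.Subgraph) (x : H.coe.edgeSet) : edgeMap H x ∈ H.edgeSet := by
  obtain ⟨z, hz⟩ := x
  induction z using Sym2.ind with
  | _ a b =>
    simp only [edgeMap, Sym2.map_mk]
    have : H.coe.Adj a b := hz
    simpa using this

lemma exists_edgeMap_eq (H : G.Subgraph) {z : Sym2 V} (hz : z ∈ H.edgeSet) :
    ∃ x, edgeMap H x = z := by
  induction z using Sym2.ind with
  | _ a b =>
    have hab : H.Adj a b := hz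
    refine ⟨⟨s(⟨a, H.edge_vert hab⟩, ⟨b, H.edge_vert hab.symm⟩), ?_⟩, ?_⟩
    · show H.coe.Adj _ _
      simpa using hab
    · simp [edgeMap]

/-- The edge set of `H` generated by a finite set of edges of `H.coe`. -/
def phiT (H : G.Subgraph) (S : Finset H.coe.edgeSet) : Set (Sym2 V) :=
  edgeMap H '' (S : Set H.coe.edgeSet)

lemma phiT_subset (H : G.Subgraph) (S : Finset H.coe.edgeSet) : phiT H S ⊆ H.edgeSet := by
  rintro _ ⟨x, _, rfl⟩
  exact edgeMap_mem H x

lemma phiT_injective (H : G.Subgraph) : Function.Injective (phiT H) := by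
  intro S S' h
  have := (Set.image_injective.mpr (edgeMap_injective H)) h
  exact_mod_cast this

lemma preimage_phiT (H : G.Subgraph) (S : Finset H.coe.edgeSet) :
    Sym2.map (Subtype.val : H.verts → V) ⁻¹' phiT H S
      = ((↑) : H.coe.edgeSet → Sym2 H.verts) '' (S : Set H.coe.edgeSet) := by
  ext z
  constructor
  · rintro ⟨x, hx, hxz⟩
    refine ⟨x, hx, ?_⟩
    exact Sym2.map.injective Subtype.val_injective hxz
  · rintro ⟨x, hx, rfl⟩
    exact ⟨x, hx, rfl⟩

lemma isSpanningTreeOf_phiT_iff (H : G.Subgraph) (S : Finset H.coe.edgeSet) :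
    IsSpanningTreeOf H (phiT H S) ↔ (P143.subG H.coe S).IsTree := by
  unfold IsSpanningTreeOf P143.subG
  rw [preimage_phiT]
  exact ⟨fun h => h.2, fun h => ⟨phiT_subset H S, h⟩⟩

lemma exists_phiT_eq (H : G.Subgraph) [Finite H.coe.edgeSet] {T : Set (Sym2 V)}
    (hT : T ⊆ H.edgeSet) : ∃ S, phiT H S = T := by
  haveI := Fintype.ofFinite H.coe.edgeSet
  refine ⟨univ.filter (fun x => edgeMap H x ∈ T), ?_⟩
  ext z
  constructor
  · rintro ⟨x, hx, rfl⟩
    simpa using hx
  · intro hz
    obtain ⟨x, rfl⟩ := exists_edgeMap_eq H (hT hz)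
    exact ⟨x, by simpa using hz, rfl⟩

lemma edgeSet_finite (H : G.Subgraph) (hfin : H.verts.Finite) : H.edgeSet.Finite := by
  haveI : Finite H.verts := hfin
  have h1 : H.edgeSet ⊆ Set.range (Sym2.map (Subtype.val : H.verts → V)) := by
    intro z hz
    induction z using Sym2.ind with
    | _ a b =>
      have hab : H.Adj a b := hz
      exact ⟨s(⟨a, H.edge_vert hab⟩, ⟨b, H.edge_vert hab.symm⟩), by simp⟩
  exact (Set.finite_range _).subset h1

/-- A finite subgraph has finitely many spanning trees. -/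
theorem stF_finite (H : G.Subgraph) (hfin : H.verts.Finite) :
    {T : Set (Sym2 V) | IsSpanningTreeOf H T}.Finite := by
  have h := (edgeSet_finite H hfin).finite_subsets
  exact h.subset fun T hT => hT.1

/-- A finite connected subgraph has a spanning tree. -/
theorem stF_nonempty (H : G.Subgraph) (hfin : H.verts.Finite) (hconn : H.Connected) :
    (stF H).Nonempty := by
  haveI : Finite H.verts := hfin
  have hc : H.coe.Connected := hconn.coe
  obtain ⟨T, hle, hT⟩ := hc.exists_isTree_le
  haveI : Finite H.coe.edgeSet := by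
    haveI := Fintype.ofFinite H.verts
    exact inferInstance
  haveI := Fintype.ofFinite H.coe.edgeSet
  let S : Finset H.coe.edgeSet := univ.filter (fun x => x.1 ∈ T.edgeSet)
  have hS : P143.subG H.coe S = T := by
    unfold P143.subG
    have : ((↑) : H.coe.edgeSet → Sym2 H.verts) '' (S : Set H.coe.edgeSet) = T.edgeSet := by
      ext z
      constructor
      · rintro ⟨x, hx, rfl⟩
        simpa [S] using hx
      · intro hz
        have hz' : z ∈ H.coe.edgeSet := SimpleGraph.edgeSet_subset_edgeSet.mpr hle hz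
        exact ⟨⟨z, hz'⟩, by simpa [S] using hz, rfl⟩
    rw [this, SimpleGraph.fromEdgeSet_edgeSet]
  refine ⟨phiT H S, ?_⟩
  rw [mem_stF (stF_finite H hfin)]
  rw [isSpanningTreeOf_phiT_iff, hS]
  exact hT

/-- Inclusion of the edges of `H.coe` in the edges of `G`. -/
def edgeIncl (H : G.Subgraph) (x : H.coe.edgeSet) : G.edgeSet :=
  ⟨edgeMap H x, H.edgeSet_subset (edgeMap_mem H x)⟩

lemma edgeIncl_injective (H : G.Subgraph) : Function.Injective (edgeIncl H) := by
  intro x y h
  exact edgeMap_injective H (congrArg Subtype.val h)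

lemma treeCfg_phiT (H : G.Subgraph) (S : Finset H.coe.edgeSet) (x : H.coe.edgeSet) :
    sg (treeCfg (G := G) (phiT H S) (edgeIncl H x)) = P143.sgn x S := by
  have h : (edgeIncl H x).1 ∈ phiT H S ↔ x ∈ S := by
    constructor
    · rintro ⟨y, hy, hyx⟩
      have := edgeMap_injective H hyx
      rw [← this]
      exact_mod_cast hy
    · intro hx
      exact ⟨x, by exact_mod_cast hx, rfl⟩
  unfold treeCfg P143.sgn
  by_cases hx : x ∈ S
  · simp [hx, h.mpr hx, sg]
  · have : ¬ (edgeIncl H x).1 ∈ phiT H S := fun h' => hx (h.mp h')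
    simp [hx, this, sg]

section fintype

variable (H : G.Subgraph) (hfin : H.verts.Finite) [Fintype H.verts] [Fintype H.coe.edgeSet]
  (r : H.verts)

include hfin

lemma stF_eq_image : stF H = (P143.stSet (P143.eSrc H.coe) (P143.eTgt H.coe) r).image (phiT H) := by
  ext T
  rw [mem_stF (stF_finite H hfin), Finset.mem_image]
  constructor
  · intro hT
    obtain ⟨S, rfl⟩ := exists_phiT_eq H hT.1
    refine ⟨S, ?_, rfl⟩
    unfold P143.stSet
    rw [Finset.mem_filter]
    refine ⟨Finset.mem_powerset.mpr (Finset.subset_univ _), ?_⟩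
    rw [P143.isST_iff_isTree]
    exact (isSpanningTreeOf_phiT_iff H S).mp hT
  · rintro ⟨S, hS, rfl⟩
    unfold P143.stSet at hS
    rw [Finset.mem_filter] at hS
    rw [isSpanningTreeOf_phiT_iff, ← P143.isST_iff_isTree H.coe r]
    exact hS.2

lemma sum_stF {β : Type*} [AddCommMonoid β] (g : Set (Sym2 V) → β) :
    ∑ T ∈ stF H, g T
      = ∑ S ∈ P143.stSet (P143.eSrc H.coe) (P143.eTgt H.coe) r, g (phiT H S) := by
  rw [stF_eq_image H hfin r, Finset.sum_image]
  exact fun a _ b _ h => phiT_injective H h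

omit hfin [Fintype H.verts] in
lemma expTilt_phiT (F : Finset G.edgeSet) (hF : ∀ f ∈ F, f.1 ∈ H.edgeSet)
    (Y : G.edgeSet → ℝ) (S : Finset H.coe.edgeSet) :
    expTilt F Y (treeCfg (phiT H S))
      = P143.tiltW (univ.filter (fun x => edgeIncl H x ∈ F)) (fun x => Y (edgeIncl H x)) S := by
  unfold expTilt P143.tiltW
  congr 1
  have himg : F = (univ.filter (fun x => edgeIncl H x ∈ F)).image (edgeIncl H) := by
    ext f
    simp only [Finset.mem_image, Finset.mem_filter, Finset.mem_univ, true_and]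
    constructor
    · intro hf
      obtain ⟨x, hx⟩ := exists_edgeMap_eq H (hF f hf)
      have hxf : edgeIncl H x = f := Subtype.ext hx
      exact ⟨x, by rw [hxf]; exact hf, hxf⟩
    · rintro ⟨x, hx, rfl⟩
      exact hx
  conv_lhs => rw [himg]
  rw [Finset.sum_image (fun a _ b _ h => edgeIncl_injective H h)]
  refine Finset.sum_congr rfl fun x _ => ?_
  rw [treeCfg_phiT]

lemma ustM_eq (F : Finset G.edgeSet) (hF : ∀ f ∈ F, f.1 ∈ H.edgeSet) (e' : H.coe.edgeSet)
    (Y : G.edgeSet → ℝ) :
    ustM H (edgeIncl H e') F Y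
      = _root_.P143.tiltM (P143.stSet (P143.eSrc H.coe) (P143.eTgt H.coe) r)
          (univ.filter (fun x => edgeIncl H x ∈ F)) e' (fun x => Y (edgeIncl H x)) := by
  unfold ustM ustN ustZ _root_.P143.tiltM _root_.P143.tiltE
  rw [sum_stF H hfin r, sum_stF H hfin r]
  congr 1
  · refine Finset.sum_congr rfl fun S _ => ?_
    rw [treeCfg_phiT, expTilt_phiT H F hF]
  · refine Finset.sum_congr rfl fun S _ => ?_
    rw [expTilt_phiT H F hF]

end fintype

/-- **The tilted mean of the uniform spanning tree of a finite connected subgraph is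
`2`-Lipschitz in the sup norm of the tilt.** -/
theorem ustM_lip (H : G.Subgraph) (hfin : H.verts.Finite) (hconn : H.Connected)
    (F : Finset G.edgeSet) (hF : ∀ f ∈ F, f.1 ∈ H.edgeSet) (e : G.edgeSet) (he : e ∈ F)
    (X X2 : G.edgeSet → ℝ) (D : ℝ) (hD : ∀ f ∈ F, |X f - X2 f| ≤ D) :
    |ustM H e F X - ustM H e F X2| ≤ 2 * D := by
  haveI : Finite H.verts := hfin
  letI : Fintype H.verts := Fintype.ofFinite H.verts
  haveI : Finite H.coe.edgeSet := inferInstance
  letI : Fintype H.coe.edgeSet := Fintype.ofFinite H.coe.edgeSet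
  obtain ⟨r0, hr0⟩ := hconn.nonempty
  let r : H.verts := ⟨r0, hr0⟩
  obtain ⟨e', he'⟩ := exists_edgeMap_eq H (hF e he)
  have hee : edgeIncl H e' = e := Subtype.ext he'
  rw [← hee, ustM_eq H hfin r F hF e' X, ustM_eq H hfin r F hF e' X2]
  refine P143.ust_tilt_lipschitz _ _ r _ e' _ _ D
    (le_trans (abs_nonneg _) (hD e he)) fun x hx => ?_
  exact hD _ (Finset.mem_filter.mp hx).2

end

end Vale.Agent.Lib.P143
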