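import Vale.Agent.Lib.P143.GraphMeas

/-!
# P143: the free spanning forest is a graph factor of IID on every graph on `ℕ`
-/

namespace Vale.Agent.Lib.P143

open MeasureTheory Filter Topology Finset

open scoped Classical

noncomputable section

lemma rk_relabel (g : Equiv.Perm ℕ) (G : SimpleGraph ℕ) (L : ℕ → ℝ) (u v : ℕ) :
    rk (G.map g.toEmbedding) (fun w => L (g.symm w)) (g u) (g v) = rk G L u v := by
  unfold rk
  have : {w | (G.map g.toEmbedding).Adj (g u) w ∧ L (g.symm w) < L (g.symm (g v))} =
      g '' {w | G.Adj u w ∧ L w < L v} := by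
    ext w
    constructor
    · rintro ⟨h1, h2⟩
      refine ⟨g.symm w, ⟨?_, ?_⟩, by simp⟩
      · rw [← relabel_adj g]
        simpa using h1
      · simpa using h2
    · rintro ⟨x, ⟨h1, h2⟩, rfl⟩
      refine ⟨(relabel_adj g G u x).mpr h1, ?_⟩
      simpa using h2
  rw [this]
  exact Set.ncard_image_of_injective _ g.injective

lemma tauN_relabel (g : Equiv.Perm ℕ) (G : SimpleGraph ℕ) (L : ℕ → ℝ) (W : NoiseIdx → ℝ) :
    tauN (G.map g.toEmbedding) (fun w => L (g.symm w)) (fun i => W (g.symm i.1, i.2)) ∘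
      pairEquiv g = tauN G L W := by
  funext j
  simp only [Function.comp, tauN]
  have e1 : (pairEquiv g j).1 = g j.1 := rfl
  have e2 : (pairEquiv g j).2 = g j.2 := rfl
  rw [e1, e2, rk_relabel]
  simp only [relabel_adj, Equiv.symm_apply_apply]

lemma RN_relabel (g : Equiv.Perm ℕ) (G : SimpleGraph ℕ) (L : ℕ → ℝ) (W : NoiseIdx → ℝ) :
    RN (G.map g.toEmbedding) (fun w => L (g.symm w)) (fun i => W (g.symm i.1, i.2)) ∘
      stepMap (pairEquiv g) = RN G L W := by
  funext k
  simp only [Function.comp, RN]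
  have e1 : (stepMap (pairEquiv g) k).2.1 = g k.2.1 := rfl
  have e2 : (stepMap (pairEquiv g) k).2.2 = g k.2.2 := rfl
  have e3 : (stepMap (pairEquiv g) k).1 = k.1 := rfl
  rw [e1, e2, e3, rk_relabel]
  simp only [relabel_adj, Equiv.symm_apply_apply]

/-- Invariance of the factor map under relabelling. -/
lemma PhiLW_relabel (g : Equiv.Perm ℕ) {G : SimpleGraph ℕ} (hG : IsGoodGraph G) (L : ℕ → ℝ)
    (W : NoiseIdx → ℝ) (e : Sym2 ℕ) :
    PhiLW (G.map g.toEmbedding) (fun w => L (g.symm w)) (fun i => W (g.symm i.1, i.2))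
      (symEquiv g e) = PhiLW G L W e := by
  unfold PhiLW
  have h := ThetaL_map₂ (π := piS) (fib := fibS) (Ψ := PsiF G) (Ψ' := PsiF (G.map g.toEmbedding))
    (pairEquiv g) (symEquiv g) (piS_pairEquiv g) (fibS_symEquiv g) (PsiF_relabel g hG)
    (tauN (G.map g.toEmbedding) (fun w => L (g.symm w)) (fun i => W (g.symm i.1, i.2)))
    (RN (G.map g.toEmbedding) (fun w => L (g.symm w)) (fun i => W (g.symm i.1, i.2))) e
  rw [tauN_relabel, RN_relabel] at h
  exact h.symm

/-- The main theorem: the free uniform spanning forest is a graph factor of IID on all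
connected locally finite graphs on `ℕ` simultaneously. -/
theorem universal_factor :
    ∃ Φ : SimpleGraph ℕ → (ℕ → unitInterval) → Sym2 ℕ → Bool,
      (∀ e, Measurable fun p : (ℕ × ℕ → Bool) × (ℕ → unitInterval) =>
        Φ (graphOfBits p.1) p.2 e) ∧
      (∀ (g : Equiv.Perm ℕ) (G : SimpleGraph ℕ), IsGoodGraph G → ∀ U e,
        Φ (G.map g.toEmbedding) (fun v => U (g.symm v)) (Sym2.map g e) = Φ G U e) ∧
      ∀ G : SimpleGraph ℕ, IsGoodGraph G → ∃ μ : Measure (G.edgeSet → Bool),
        IsProbabilityMeasure μ ∧ IsFUSF G μ ∧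
        (Measure.infinitePi fun _ : ℕ => (volume : Measure unitInterval)).map
          (fun U (e : G.edgeSet) => Φ G U e.1) = μ := by
  obtain ⟨f, hfm, hfmap⟩ := Measure.exists_measurable_map_eq
    (Measure.infinitePi (fun _ : Option (ℕ × Option ℕ) => unit))
  let LU : (ℕ → unitInterval) → ℕ → ℝ := fun U u => f (U u) none
  let WU : (ℕ → unitInterval) → NoiseIdx → ℝ := fun U i => f (U i.1) (some i.2)
  have hLU : ∀ u, Measurable fun U : ℕ → unitInterval => LU U u := fun u =>
    (measurable_pi_apply _).comp (hfm.comp (measurable_pi_apply _))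
  have hWU : ∀ i, Measurable fun U : ℕ → unitInterval => WU U i := fun i =>
    (measurable_pi_apply _).comp (hfm.comp (measurable_pi_apply _))
  refine ⟨fun G U => PhiLW G (LU U) (WU U), ?_, ?_, ?_⟩
  · intro e
    exact measurable_PhiLW_param (A := (ℕ × ℕ → Bool) × (ℕ → unitInterval))
      (α := fun p => p.1) measurable_fst (L := fun p => LU p.2)
      (fun w => (hLU w).comp measurable_snd) (W := fun p => WU p.2)
      (fun i => (hWU i).comp measurable_snd) e
  · intro g G hG U e
    exact PhiLW_relabel g hG (LU U) (WU U) e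
  · intro G hG
    obtain ⟨μ, hp, hμ⟩ := exists_isFUSF G
    refine ⟨μ, hp, hμ, ?_⟩
    have hG' := graphOfBits_bitsOf G
    have h0 := law_PhiLW hG hμ
    have hT := measurable_PhiLW G
    -- the law of the labels and the noise
    let emb : ℕ ⊕ NoiseIdx → ℕ × Option (ℕ × Option ℕ) := fun x =>
      match x with
      | Sum.inl u => (u, none)
      | Sum.inr i => (i.1, some i.2)
    have hemb : Function.Injective emb := by
      rintro (u | ⟨u, i⟩) (v | ⟨v, i'⟩) h <;> simp_all [emb]
    have h1 := infinitePi_map_stream (Γ := ℕ) f hfm hfmap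
    have h2 := infinitePi_comp_inj unit emb hemb
    have h3 := infinitePi_map_split (J := ℕ) (K := NoiseIdx) unit
    have hm1 : Measurable fun (U : ℕ → unitInterval) (p : ℕ × Option (ℕ × Option ℕ)) =>
        f (U p.1) p.2 :=
      measurable_pi_iff.mpr fun p => (measurable_pi_apply _).comp (hfm.comp (measurable_pi_apply _))
    have hm2 : Measurable fun x : ℕ × Option (ℕ × Option ℕ) → ℝ => x ∘ emb :=
      measurable_pi_iff.mpr fun a => measurable_pi_apply _
    have hm3 : Measurable fun x : ℕ ⊕ NoiseIdx → ℝ =>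
        ((fun a => x (Sum.inl a), fun b => x (Sum.inr b)) : (ℕ → ℝ) × (NoiseIdx → ℝ)) :=
      (measurable_pi_iff.mpr fun a => measurable_pi_apply _).prodMk
        (measurable_pi_iff.mpr fun b => measurable_pi_apply _)
    have hLaw : (Measure.infinitePi fun _ : ℕ => (volume : Measure unitInterval)).map
        (fun U => ((LU U, WU U) : (ℕ → ℝ) × (NoiseIdx → ℝ))) =
        (Measure.infinitePi (fun _ : ℕ => unit)).prod
          (Measure.infinitePi (fun _ : NoiseIdx => unit)) := by
      calc _ = (((Measure.infinitePi fun _ : ℕ => (volume : Measure unitInterval)).map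
            (fun (U : ℕ → unitInterval) (p : ℕ × Option (ℕ × Option ℕ)) => f (U p.1) p.2)).map
              (fun x => x ∘ emb)).map
                (fun x => (fun a => x (Sum.inl a), fun b => x (Sum.inr b))) := by
            rw [Measure.map_map hm2 hm1, Measure.map_map hm3 (hm2.comp hm1)]
            rfl
        _ = _ := by rw [h1, h2, h3]
    have hLm : Measurable fun U : ℕ → unitInterval =>
        ((LU U, WU U) : (ℕ → ℝ) × (NoiseIdx → ℝ)) :=
      (measurable_pi_iff.mpr hLU).prodMk (measurable_pi_iff.mpr hWU)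
    rw [← hLaw, Measure.map_map hT hLm] at h0
    exact h0

end

end Vale.Agent.Lib.P143
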